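import Mathlib.Analysis.Quaternion
import Mathlib.Analysis.Normed.Field.UnitBall
import Mathlib.GroupTheory.SemidirectProduct
import Mathlib.GroupTheory.FreeGroup.Basic
import Mathlib.LinearAlgebra.LinearIndependent.Defs
import Mathlib.LinearAlgebra.Finsupp.LinearCombination

/-! Holonomy of words along a Cayley graph, Fox derivatives, presentations and the
combinatorial data used in the main argument. -/

open Quaternion

namespace Vale.Agent.P173

/-- The group of unit quaternions. -/
abbrev S3 : Type := Metric.sphere (0 : ℍ[ℝ]) 1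

lemma S3.norm_coe (q : S3) : ‖(q : ℍ[ℝ])‖ = 1 := mem_sphere_zero_iff_norm.1 q.2

lemma S3.coe_ne_zero (q : S3) : (q : ℍ[ℝ]) ≠ 0 := ne_zero_of_mem_unit_sphere q

@[simp] lemma S3.coe_one : ((1 : S3) : ℍ[ℝ]) = 1 := rfl

@[simp] lemma S3.coe_mul (p q : S3) : ((p * q : S3) : ℍ[ℝ]) = p * q := rfl

@[simp] lemma S3.coe_inv (q : S3) : ((q⁻¹ : S3) : ℍ[ℝ]) = (q : ℍ[ℝ])⁻¹ := rfl

open Classical in
/-- Normalisation of a quaternion (with value one at zero). -/
noncomputable def nrm (q : ℍ[ℝ]) : S3 :=
  if h : q = 0 then 1 else ⟨‖q‖⁻¹ • q, by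
    rw [mem_sphere_zero_iff_norm, norm_smul, norm_inv, norm_norm,
      inv_mul_cancel₀ (norm_ne_zero_iff.2 h)]⟩

lemma coe_nrm {q : ℍ[ℝ]} (h : q ≠ 0) : (nrm q : ℍ[ℝ]) = ‖q‖⁻¹ • q := by
  rw [nrm, dif_neg h]

lemma nrm_coe (q : S3) : nrm q = q :=
  Subtype.ext (by rw [coe_nrm q.coe_ne_zero, q.norm_coe, inv_one, one_smul])

lemma nrm_one : nrm 1 = 1 := nrm_coe 1

lemma nrm_mul (p : S3) {q : ℍ[ℝ]} (h : q ≠ 0) : nrm (p * q) = p * nrm q :=
  Subtype.ext (by
    rw [coe_nrm (mul_ne_zero p.coe_ne_zero h), S3.coe_mul, coe_nrm h, norm_mul, p.norm_coe,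
      one_mul, mul_smul_comm])

lemma continuous_nrm {X : Type*} [TopologicalSpace X] {f : X → ℍ[ℝ]} (hf : Continuous f)
    (h : ∀ x, f x ≠ 0) : Continuous fun x => nrm (f x) := by
  refine continuous_induced_rng.2 ?_
  have : (Subtype.val ∘ fun x => nrm (f x)) = fun x => ‖f x‖⁻¹ • f x :=
    funext fun x => coe_nrm (h x)
  rw [this]
  exact (hf.norm.inv₀ fun x => norm_ne_zero_iff.2 (h x)).smul hf

lemma norm_nrm_sub {q : ℍ[ℝ]} (h : q ≠ 0) : ‖(nrm q : ℍ[ℝ]) - q‖ = |1 - ‖q‖| := by
  have h0 : ‖q‖ ≠ 0 := norm_ne_zero_iff.2 h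
  rw [coe_nrm h, show ‖q‖⁻¹ • q - q = (‖q‖⁻¹ - 1) • q by rw [sub_smul, one_smul], norm_smul,
    Real.norm_eq_abs, ← abs_of_nonneg (norm_nonneg q), ← abs_mul, abs_of_nonneg (norm_nonneg q),
    sub_mul, inv_mul_cancel₀ h0, one_mul]

section hol

variable {Γ H H' E : Type*} [Group Γ] [Group H] [Group H']

variable (Γ H) in
/-- Right translation action on functions. -/
def wr : Γ →* MulAut (Γ → H) where
  toFun g :=
    { toFun := fun f x => f (x * g)
      invFun := fun f x => f (x * g⁻¹)
      left_inv := fun f => by simp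
      right_inv := fun f => by simp
      map_mul' := fun _ _ => rfl }
  map_one' := by ext; simp
  map_mul' g h := by ext; simp [mul_assoc]

/-- The homomorphism to the wreath product given by a connection. -/
def holH (a : E → Γ) (A : Γ × E → H) : FreeGroup E →* (Γ → H) ⋊[wr Γ H] Γ :=
  FreeGroup.lift fun e => ⟨fun g => A (g, e), a e⟩

/-- The holonomy of the connection `A` along the word `w` read from the vertex `g`. -/
def hol (a : E → Γ) (A : Γ × E → H) (w : FreeGroup E) (g : Γ) : H := (holH a A w).left g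

variable (a : E → Γ) (A : Γ × E → H)

lemma holH_right (w : FreeGroup E) : (holH a A w).right = FreeGroup.lift a w := by
  have : SemidirectProduct.rightHom.comp (holH a A) = FreeGroup.lift a := by
    ext e; simp [holH]
  exact DFunLike.congr_fun this w

@[simp] lemma hol_of (e : E) (g : Γ) : hol a A (.of e) g = A (g, e) := by simp [hol, holH]

@[simp] lemma hol_one (g : Γ) : hol a A 1 g = 1 := by simp [hol]

lemma hol_mul (u v : FreeGroup E) (g : Γ) :
    hol a A (u * v) g = hol a A u g * hol a A v (g * FreeGroup.lift a u) := by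
  rw [hol, map_mul, SemidirectProduct.mul_left, holH_right]; rfl

lemma hol_inv (u : FreeGroup E) (g : Γ) :
    hol a A u⁻¹ (g * FreeGroup.lift a u) = (hol a A u g)⁻¹ := by
  have := hol_mul a A u u⁻¹ g
  rw [mul_inv_cancel, hol_one] at this
  exact eq_inv_of_mul_eq_one_right this.symm

lemma hol_inv' (u : FreeGroup E) (g : Γ) :
    hol a A u⁻¹ g = (hol a A u (g * (FreeGroup.lift a u)⁻¹))⁻¹ := by
  rw [← hol_inv, inv_mul_cancel_right]

lemma hol_map (φ : H →* H') (w : FreeGroup E) (g : Γ) :
    φ (hol a A w g) = hol a (fun p => φ (A p)) w g := by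
  induction w using FreeGroup.induction_on generalizing g with
  | C1 => simp
  | of e => simp
  | inv_of e _ => simp [hol_inv']
  | mul u v hu hv => simp [hol_mul, hu, hv]

lemma hol_shift (w : FreeGroup E) (d g : Γ) :
    hol a A w (d * g) = hol a (fun p => A (d * p.1, p.2)) w g := by
  induction w using FreeGroup.induction_on generalizing g with
  | C1 => simp
  | of e => simp
  | inv_of e _ => simp [hol_inv', mul_assoc]
  | mul u v hu hv => rw [hol_mul, hol_mul, hu, mul_assoc, hv]

lemma hol_eq_lift (w : FreeGroup E) (g : Γ) :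
    hol a A w g = FreeGroup.lift A (hol a FreeGroup.of w g) := by
  rw [hol_map]; simp

lemma hol_conj {w : FreeGroup E} (hw : FreeGroup.lift a w = 1) (v : FreeGroup E) (g : Γ) :
    hol a A (v * w * v⁻¹) g =
      hol a A v g * hol a A w (g * FreeGroup.lift a v) * (hol a A v g)⁻¹ := by
  rw [hol_mul, hol_mul, map_mul, hw, mul_one, hol_inv]

lemma continuous_lift {N X : Type*} [TopologicalSpace X] [TopologicalSpace H]
    [IsTopologicalGroup H] {f : X → N → H} (hf : ∀ n, Continuous fun x => f x n)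
    (w : FreeGroup N) : Continuous fun x => FreeGroup.lift (f x) w := by
  induction w using FreeGroup.induction_on with
  | C1 => simpa using continuous_const
  | of e => simpa using hf e
  | inv_of e h => simp only [map_inv]; exact h.inv
  | mul u v hu hv => simp only [map_mul]; exact hu.mul hv

lemma continuous_hol {X : Type*} [TopologicalSpace X] [TopologicalSpace H]
    [IsTopologicalGroup H] {f : X → Γ × E → H} (hf : ∀ n, Continuous fun x => f x n)
    (w : FreeGroup E) (g : Γ) : Continuous fun x => hol a (f x) w g := by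
  simp only [fun x => hol_eq_lift a (f x) w g]
  exact continuous_lift hf _

/-- The exponent vector of a word. -/
noncomputable def expo {N : Type*} (w : FreeGroup N) : N →₀ ℤ :=
  (FreeGroup.lift (fun n => Multiplicative.ofAdd (Finsupp.single n (1 : ℤ))) w).toAdd

@[simp] lemma expo_of {N : Type*} (n : N) : expo (.of n) = Finsupp.single n 1 := by simp [expo]

@[simp] lemma expo_one {N : Type*} : expo (1 : FreeGroup N) = 0 := by simp [expo]

@[simp] lemma expo_mul {N : Type*} (u v : FreeGroup N) : expo (u * v) = expo u + expo v := by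
  simp [expo]

@[simp] lemma expo_inv {N : Type*} (u : FreeGroup N) : expo u⁻¹ = -expo u := by simp [expo]

lemma expo_map {N N' : Type*} (f : N → N') (w : FreeGroup N) :
    expo (FreeGroup.map f w) = (expo w).mapDomain f := by
  induction w using FreeGroup.induction_on with
  | C1 => simp
  | of e => simp [Finsupp.mapDomain_single]
  | inv_of e _ =>
    rw [map_inv, expo_inv, expo_inv, ← Finsupp.mapDomain.addMonoidHom_apply, map_neg]
    simp [Finsupp.mapDomain_single]
  | mul u v hu hv => simp [Finsupp.mapDomain_add, hu, hv]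

/-- The Fox derivative: the 1-chain traced by `w` read from the vertex `g`. -/
noncomputable def fox (w : FreeGroup E) (g : Γ) : Γ × E →₀ ℤ := expo (hol a FreeGroup.of w g)

@[simp] lemma fox_of (e : E) (g : Γ) : fox a (.of e) g = Finsupp.single (g, e) 1 := by simp [fox]

@[simp] lemma fox_one (g : Γ) : fox a 1 g = 0 := by simp [fox]

lemma fox_mul (u v : FreeGroup E) (g : Γ) :
    fox a (u * v) g = fox a u g + fox a v (g * FreeGroup.lift a u) := by
  simp [fox, hol_mul]

lemma fox_inv (u : FreeGroup E) (g : Γ) :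
    fox a u⁻¹ (g * FreeGroup.lift a u) = -fox a u g := by
  simp [fox, hol_inv]

lemma fox_inv' (u : FreeGroup E) (g : Γ) :
    fox a u⁻¹ g = -fox a u (g * (FreeGroup.lift a u)⁻¹) := by
  rw [← fox_inv, inv_mul_cancel_right]

/-- Left translation of chains. -/
noncomputable def sh {K : Type*} (d : Γ) : (Γ × K →₀ ℤ) →ₗ[ℤ] (Γ × K →₀ ℤ) :=
  Finsupp.lmapDomain ℤ ℤ fun p => (d * p.1, p.2)

@[simp] lemma sh_single {K : Type*} (d : Γ) (p : Γ × K) (n : ℤ) :
    sh d (Finsupp.single p n) = Finsupp.single (d * p.1, p.2) n := by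
  simp [sh, Finsupp.mapDomain_single]

lemma fox_shift (w : FreeGroup E) (d g : Γ) : fox a w (d * g) = sh d (fox a w g) := by
  induction w using FreeGroup.induction_on generalizing g with
  | C1 => simp
  | of e => simp
  | inv_of e _ => simp [fox_inv', mul_assoc]
  | mul u v hu hv => rw [fox_mul, fox_mul, hu, mul_assoc, hv, map_add]

/-- The boundary of 1-chains in the Cayley graph. -/
noncomputable def d1 : (Γ × E →₀ ℤ) →ₗ[ℤ] (Γ →₀ ℤ) :=
  Finsupp.linearCombination ℤ fun p => Finsupp.single (p.1 * a p.2) 1 - Finsupp.single p.1 1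

lemma d1_fox (w : FreeGroup E) (g : Γ) :
    d1 a (fox a w g) = Finsupp.single (g * FreeGroup.lift a w) 1 - Finsupp.single g 1 := by
  induction w using FreeGroup.induction_on generalizing g with
  | C1 => simp
  | of e => simp [d1]
  | inv_of e _ => simp [d1, fox_inv']
  | mul u v hu hv => rw [fox_mul, map_add, hu, hv, map_mul, mul_assoc]; abel

/-- The boundary of 2-chains in the Cayley complex. -/
noncomputable def d2 {R : Type*} (r : R → FreeGroup E) : (Γ × R →₀ ℤ) →ₗ[ℤ] (Γ × E →₀ ℤ) :=
  Finsupp.linearCombination ℤ fun p => fox a (r p.2) p.1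

end hol

/-- An aspherical presentation. -/
structure Pres {Γ E R : Type*} [Group Γ] (a : E → Γ) (r : R → FreeGroup E) : Prop where
  surj : Function.Surjective (FreeGroup.lift a)
  ker : (FreeGroup.lift a).ker = Subgroup.normalClosure (Set.range r)
  inj : Function.Injective (d2 a r)

/-- An acyclic Cayley complex. -/
structure Acyc {Γ S T : Type*} [Group Γ] (b : S → Γ) (t : T → FreeGroup S) : Prop where
  surj : Function.Surjective (FreeGroup.lift b)
  rel : ∀ τ, FreeGroup.lift b (t τ) = 1
  inj : Function.Injective (d2 b t)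
  ex : ∀ z, d1 b z = 0 → ∃ y, d2 b t y = z

/-- A finite square complex mapping to the Cayley complex (injectively on faces), with vanishing
first real cohomology and a flat connection that is close to one but not gauge trivial. -/
structure Fam {Γ E T : Type*} [Group Γ] (a : E → Γ) (t : T → FreeGroup E) (ε : ℝ) where
  V : Type
  Ed : Type
  F : Type
  [finV : Finite V]
  [finE : Finite Ed]
  [finF : Finite F]
  pos : V → Γ
  src : Ed → V
  tgt : Ed → V
  lab : Ed → FreeGroup E
  pos_tgt : ∀ e, pos (tgt e) = pos (src e) * FreeGroup.lift a (lab e)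
  e1 : F → Ed
  e2 : F → Ed
  e3 : F → Ed
  e4 : F → Ed
  h14 : ∀ f, src (e4 f) = src (e1 f)
  h12 : ∀ f, src (e2 f) = tgt (e1 f)
  h43 : ∀ f, src (e3 f) = tgt (e4 f)
  h23 : ∀ f, tgt (e3 f) = tgt (e2 f)
  typ : F → T
  word : ∀ f, t (typ f) = lab (e1 f) * lab (e2 f) * (lab (e3 f))⁻¹ * (lab (e4 f))⁻¹
  inj : Function.Injective fun f => (pos (src (e1 f)), typ f)
  coh : ∀ α : Ed → ℝ, (∀ f, α (e1 f) + α (e2 f) = α (e4 f) + α (e3 f)) →
    ∃ φ : V → ℝ, ∀ e, α e = φ (tgt e) - φ (src e)
  g : Ed → S3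
  near : ∀ e, ‖(g e : ℍ[ℝ]) - 1‖ ≤ ε
  flat : ∀ f, g (e1 f) * g (e2 f) = g (e4 f) * g (e3 f)
  nontriv : ¬∃ k : V → S3, ∀ e, g e = k (src e) * (k (tgt e))⁻¹

/-- A splitting of the relation module onto the 2-chains. -/
structure Kap {Γ E T : Type*} [Group Γ] (a : E → Γ) (t : T → FreeGroup E)
    (κ : FreeGroup E → Γ × T →₀ ℤ) : Prop where
  rel : ∀ τ, FreeGroup.lift a (t τ) = 1
  mul : ∀ u v, FreeGroup.lift a u = 1 → FreeGroup.lift a v = 1 → κ (u * v) = κ u + κ v
  conj : ∀ u w, FreeGroup.lift a w = 1 → κ (u * w * u⁻¹) = sh (FreeGroup.lift a u) (κ w)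
  base : ∀ τ, κ (t τ) = Finsupp.single (1, τ) 1

end Vale.Agent.P173
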