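import Vale.Agent.P173.Top

/-! Basic properties of cell attachments: open cells and the radial deformation. -/

open Set Topology unitInterval

namespace Vale.Agent.P173

/-- The radial deformation of the punctured ball onto the sphere. -/
noncomputable def rad {n : ℕ} (z : Bl n) (t : I) : Bl n :=
  ⟨((1 - (t : ℝ)) + (t : ℝ) / ‖z.1‖) • z.1, by
    rw [mem_closedBall_zero_iff, norm_smul, Real.norm_eq_abs,
      abs_of_nonneg (add_nonneg (sub_nonneg.2 t.2.2) (div_nonneg t.2.1 (norm_nonneg _)))]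
    rcases eq_or_ne ‖z.1‖ 0 with h | h
    · simp [h]
    · rw [add_mul, div_mul_cancel₀ _ h]
      nlinarith [z.norm_le, t.2.1, t.2.2]⟩

variable {n : ℕ} {X C : Type*} [TopologicalSpace X] {A : Set X} {Φ : C → C(Bl n, X)}

/-- The complement of the centres of the cells. -/
def offC (Φ : C → C(Bl n, X)) : Set X := {x | ∀ c, x ≠ Φ c (Bl.o n)}

lemma norm_o (n : ℕ) : ‖(Bl.o n).1‖ = 0 := norm_zero

lemma rad_zero (z : Bl n) : rad z 0 = z := Subtype.ext (by simp [rad])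

lemma rad_of_norm {z : Bl n} (hz : ‖z.1‖ = 1) (t : I) : rad z t = z :=
  Subtype.ext (by simp [rad, hz])

lemma norm_ne_zero_of_ne_o {z : Bl n} (hz : z ≠ Bl.o n) : ‖z.1‖ ≠ 0 := fun h =>
  hz (Subtype.ext (norm_eq_zero.1 h))

lemma norm_rad_one {z : Bl n} (hz : z ≠ Bl.o n) : ‖(rad z 1).1‖ = 1 := by
  have h := norm_ne_zero_of_ne_o hz
  simp [rad, norm_smul, h]

lemma continuousAt_rad {z : Bl n} (hz : z ≠ Bl.o n) (t : I) :
    ContinuousAt (fun p : Bl n × I => rad p.1 p.2) (z, t) := by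
  have h := norm_ne_zero_of_ne_o hz
  refine Topology.IsInducing.subtypeVal.continuousAt_iff.2 ?_
  have h1 : Continuous fun p : Bl n × I => (p.2 : ℝ) := by fun_prop
  have h2 : Continuous fun p : Bl n × I => p.1.1 := by fun_prop
  exact ((continuousAt_const.sub h1.continuousAt).add
    (h1.continuousAt.div h2.norm.continuousAt h)).smul h2.continuousAt

theorem Att.isOpen_image (h : Att n A Φ) (c : C) {O : Set (Bl n)} (hO : IsOpen O)
    (h1 : ∀ z ∈ O, ‖z.1‖ < 1) : IsOpen (Φ c '' O) := by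
  rw [← isClosed_compl_iff]
  refine h.weak _ ?_ fun c' => ?_
  · have : (Φ c '' O)ᶜ ∩ A = A := by
      refine inter_eq_right.2 ?_
      rintro _ ha ⟨z, hz, rfl⟩
      exact (h1 z hz).ne ((h.mem c z).1 ha)
    rw [this]
    exact h.closed
  · by_cases hc : c = c'
    · subst hc
      have : Φ c ⁻¹' (Φ c '' O)ᶜ = Oᶜ := by
        ext z
        refine ⟨fun hz hz' => hz ⟨z, hz', rfl⟩, ?_⟩
        rintro hz ⟨z', hz', e⟩
        exact hz ((h.inj _ _ _ _ (h1 z' hz') e).2 ▸ hz')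
      rw [this]
      exact hO.isClosed_compl
    · have : Φ c' ⁻¹' (Φ c '' O)ᶜ = univ := by
        refine eq_univ_of_forall ?_
        rintro z ⟨z', hz', e⟩
        exact hc (h.inj _ _ _ _ (h1 z' hz') e).1
      rw [this]
      exact isClosed_univ

theorem Att.map_nhds (h : Att n A Φ) (c : C) {z : Bl n} (hz : ‖z.1‖ < 1) :
    Filter.map (Φ c) (𝓝 z) = 𝓝 (Φ c z) := by
  refine le_antisymm (Φ c).continuous.continuousAt (Filter.le_map fun s hs => ?_)
  obtain ⟨O, hOs, hO, hzO⟩ := mem_nhds_iff.1 hs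
  have h1 : IsOpen {w : Bl n | ‖w.1‖ < 1} := isOpen_lt (by fun_prop) continuous_const
  exact mem_nhds_iff.2 ⟨Φ c '' (O ∩ {w : Bl n | ‖w.1‖ < 1}),
    image_mono (inter_subset_left.trans hOs),
    h.isOpen_image c (hO.inter h1) fun _ hw => hw.2, z, ⟨hzO, hz⟩, rfl⟩

theorem Att.subset_offC (h : Att n A Φ) : A ⊆ offC Φ := by
  intro a ha c e
  rw [e, h.mem, norm_o] at ha
  exact zero_ne_one ha

theorem Att.mem_offC (h : Att n A Φ) (c : C) (z : Bl n) : Φ c z ∈ offC Φ ↔ z ≠ Bl.o n := by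
  refine ⟨fun hz e => hz c (by rw [e]), fun hz c' e => hz ?_⟩
  exact (h.inj c' _ c z (by rw [norm_o]; exact zero_lt_one) e.symm).2.symm

theorem Att.isOpen_offC (h : Att n A Φ) : IsOpen (offC Φ) := by
  rw [← isClosed_compl_iff]
  refine h.weak _ ?_ fun c => ?_
  · have : (offC Φ)ᶜ ∩ A = ∅ := eq_empty_of_forall_notMem fun x hx => hx.1 (h.subset_offC hx.2)
    rw [this]
    exact isClosed_empty
  · have : Φ c ⁻¹' (offC Φ)ᶜ = {Bl.o n} := by
      ext z
      simp [h.mem_offC]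
    rw [this]
    exact isClosed_singleton

theorem Att.isQuotientMap (h : Att n A Φ) : IsQuotientMap
    (Sum.elim Subtype.val fun p : Σ _ : C, Bl n => Φ p.1 p.2 : A ⊕ (Σ _ : C, Bl n) → X) := by
  have hc : Continuous
      (Sum.elim Subtype.val fun p : Σ _ : C, Bl n => Φ p.1 p.2 : A ⊕ (Σ _ : C, Bl n) → X) :=
    continuous_subtype_val.sumElim (continuous_sigma fun c => (Φ c).continuous)
  refine isQuotientMap_iff_isClosed.2 ⟨fun x => ?_, fun S => ⟨fun hS => hS.preimage hc,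
    fun hS => h.weak S ?_ fun c => ?_⟩⟩
  · rcases h.cover x with hx | ⟨c, z, rfl⟩
    · exact ⟨.inl ⟨x, hx⟩, rfl⟩
    · exact ⟨.inr ⟨c, z⟩, rfl⟩
  · have h1 := h.closed.isClosedMap_subtype_val _ (hS.preimage continuous_inl)
    have : S ∩ A = Subtype.val '' (Sum.inl ⁻¹' ((Sum.elim Subtype.val
        fun p : Σ _ : C, Bl n => Φ p.1 p.2 : A ⊕ (Σ _ : C, Bl n) → X) ⁻¹' S)) := by
      ext x
      refine ⟨fun hx => ⟨⟨x, hx.2⟩, hx.1, rfl⟩, ?_⟩
      rintro ⟨a, ha, rfl⟩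
      exact ⟨ha, a.2⟩
    rw [this]
    exact h1
  · exact hS.preimage (continuous_inr.comp (continuous_sigmaMk (i := c)))

theorem Att.exists_deform (h : Att n A Φ) : ∃ R : X × I → X,
    ContinuousOn R (offC Φ ×ˢ univ) ∧ (∀ x, R (x, 0) = x) ∧ (∀ x ∈ offC Φ, R (x, 1) ∈ A) ∧
      (∀ a ∈ A, ∀ t, R (a, t) = a) ∧ ∀ c z t, R (Φ c z, t) = Φ c (rad z t) := by
  classical
  obtain ⟨R, hA, hΦ⟩ : ∃ R : X × I → X, (∀ a ∈ A, ∀ t, R (a, t) = a) ∧
      ∀ c z t, R (Φ c z, t) = Φ c (rad z t) := by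
    have hA : ∀ a ∈ A, ¬∃ p : C × Bl n, ‖p.2.1‖ < 1 ∧ Φ p.1 p.2 = a := by
      rintro a ha ⟨p, hp, rfl⟩
      exact hp.ne ((h.mem _ _).1 ha)
    refine ⟨fun x => if hx : ∃ p : C × Bl n, ‖p.2.1‖ < 1 ∧ Φ p.1 p.2 = x.1 then
      Φ hx.choose.1 (rad hx.choose.2 x.2) else x.1, fun a ha t => dif_neg (hA a ha),
      fun c z t => ?_⟩
    by_cases hz : ‖z.1‖ = 1
    · rw [rad_of_norm hz]
      exact dif_neg (hA _ ((h.mem _ _).2 hz))
    · have hx : ∃ p : C × Bl n, ‖p.2.1‖ < 1 ∧ Φ p.1 p.2 = Φ c z :=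
        ⟨(c, z), lt_of_le_of_ne z.norm_le hz, rfl⟩
      obtain ⟨e1, e2⟩ := h.inj _ _ _ _ hx.choose_spec.1 hx.choose_spec.2
      refine (dif_pos hx).trans ?_
      rw [e1, e2]
  refine ⟨R, ?_, fun x => ?_, fun x hx => ?_, hA, hΦ⟩
  · have hq := h.isQuotientMap
    generalize hqe : (Sum.elim Subtype.val fun p : Σ _ : C, Bl n => Φ p.1 p.2 :
      A ⊕ (Σ _ : C, Bl n) → X) = q at hq
    have h1 : Continuous fun p : offC Φ × I => R (p.1.1, p.2) := by
      refine (hq.restrictPreimage_isOpen h.isOpen_offC).continuous_lift_prod_left ?_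
      refine continuous_iff_continuousAt.2 fun p => ?_
      have h2 : ContinuousAt (fun y : (A ⊕ (Σ _ : C, Bl n)) × I => R (q y.1, y.2))
          (p.1.1, p.2) := by
        obtain ⟨⟨y, hy⟩, t⟩ := p
        subst hqe
        rcases y with a | ⟨c, z⟩
        · have h3 := (IsOpenEmbedding.inl (X := A) (Y := Σ _ : C, Bl n)).prodMap
            (IsOpenEmbedding.id (X := I))
          refine (h3.continuousAt_iff (x := (a, t))).1 ?_
          have : ((fun y : (A ⊕ (Σ _ : C, Bl n)) × I => R ((Sum.elim Subtype.val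
              fun p : Σ _ : C, Bl n => Φ p.1 p.2 : A ⊕ (Σ _ : C, Bl n) → X) y.1, y.2)) ∘
              Prod.map Sum.inl id) = fun y : A × I => y.1.1 :=
            funext fun y => hA _ y.1.2 _
          rw [this]
          fun_prop
        · have h3 := ((IsOpenEmbedding.inr (X := A) (Y := Σ _ : C, Bl n)).comp
            (IsOpenEmbedding.sigmaMk : IsOpenEmbedding (@Sigma.mk C (fun _ => Bl n) c))).prodMap
            (IsOpenEmbedding.id (X := I))
          refine (h3.continuousAt_iff (x := (z, t))).1 ?_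
          have : ((fun y : (A ⊕ (Σ _ : C, Bl n)) × I => R ((Sum.elim Subtype.val
              fun p : Σ _ : C, Bl n => Φ p.1 p.2 : A ⊕ (Σ _ : C, Bl n) → X) y.1, y.2)) ∘
              Prod.map (Sum.inr ∘ Sigma.mk c) id) = fun y : Bl n × I => Φ c (rad y.1 y.2) :=
            funext fun y => hΦ c y.1 y.2
          rw [this]
          exact (Φ c).continuous.continuousAt.comp
            (continuousAt_rad ((h.mem_offC c z).1 hy) t)
      exact ContinuousAt.comp (f := fun p : q ⁻¹' offC Φ × I => (p.1.1, p.2)) h2 (by fun_prop)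
    rw [continuousOn_iff_continuous_domRestrict]
    exact h1.comp (f := fun p : (offC Φ ×ˢ (univ : Set I) : Set (X × I)) =>
      ((⟨p.1.1, p.2.1⟩ : offC Φ), p.1.2)) (by fun_prop)
  · rcases h.cover x with hx | ⟨c, z, rfl⟩
    · exact hA x hx 0
    · rw [hΦ, rad_zero]
  · rcases h.cover x with hx' | ⟨c, z, rfl⟩
    · rw [hA x hx']; exact hx'
    · rw [hΦ, h.mem]
      exact norm_rad_one ((h.mem_offC c z).1 hx)

theorem Att.joined (h : Att n A Φ) (hn : n ≠ 0) (x : X) : ∃ a ∈ A, Joined x a := by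
  rcases h.cover x with hx | ⟨c, z, rfl⟩
  · exact ⟨x, hx, Joined.refl x⟩
  · have : Nonempty (Fin n) := ⟨⟨0, Nat.pos_of_ne_zero hn⟩⟩
    have h1 : ‖(fun _ => 1 : Fin n → ℝ)‖ = 1 := by rw [pi_norm_const, norm_one]
    refine ⟨Φ c ⟨fun _ => 1, mem_closedBall_zero_iff.2 h1.le⟩, (h.mem _ _).2 h1, ?_⟩
    exact ⟨(PathConnectedSpace.somePath z _).map (Φ c).continuous⟩

end Vale.Agent.P173
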