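import Vale.Agent.P173.Top
import Mathlib.Topology.CWComplex.Classical.Subcomplex

/-! From CW complexes of dimension at most two to cell attachments. -/

open Set Topology unitInterval

namespace Vale.Agent.P173

universe u

open Topology.CWComplex in
theorem bridge_att {X W : Type*} [TopologicalSpace X] [T2Space X] [CWComplex (univ : Set X)]
    [TopologicalSpace W] (n : ℕ) {ι : W → X} (hι : IsClosedEmbedding ι)
    (hr : range ι = skeletonLT (univ : Set X) ((n : ℕ∞) + 1)) :
    ∃ Φ : cell (univ : Set X) n → C(Bl n, W),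
      Att n (ι ⁻¹' (skeletonLT (univ : Set X) (n : ℕ∞) : Set X)) Φ := by
  have h0 : ∀ (c : cell (univ : Set X) n) (z : Bl n), ∃ w, ι w = map n c z := fun c z => by
    rw [← mem_range, hr]
    exact closedCell_subset_skeletonLT n c ⟨z, z.2, rfl⟩
  choose φ hφ using h0
  have hc : ∀ c, Continuous (φ c) := fun c => hι.isInducing.continuous_iff.2
    ((continuousOn_iff_continuous_domRestrict.1 (continuousOn n c)).congr fun z => (hφ c z).symm)
  have hop : ∀ c (z : Bl n), ‖z.1‖ < 1 → ι (φ c z) ∈ openCell n c := fun c z hz =>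
    ⟨z, mem_ball_zero_iff.2 hz, (hφ c z).symm⟩
  have hmem : ∀ c z, φ c z ∈ ι ⁻¹' (skeletonLT (univ : Set X) (n : ℕ∞) : Set X) ↔ ‖z.1‖ = 1 :=
    fun c z => ⟨fun h1 => by_contra fun h2 => disjoint_left.1
      (disjoint_skeletonLT_openCell le_rfl) h1 (hop c z (lt_of_le_of_ne z.norm_le h2)),
      fun h1 => cellFrontier_subset_skeletonLT n c
        ⟨z, mem_sphere_zero_iff_norm.2 h1, (hφ c z).symm⟩⟩
  refine ⟨fun c => ⟨φ c, hc c⟩, (skeletonLT (univ : Set X) (n : ℕ∞)).closed.preimage hι.continuous,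
    hmem, fun c z c' z' hz (h1 : φ c z = φ c' z') => ?_, fun x => ?_, fun S h1 h2 => ?_⟩
  · have hz' : ‖z'.1‖ < 1 := lt_of_le_of_ne z'.norm_le fun h2 =>
      hz.ne ((hmem c z).1 (h1 ▸ (hmem c' z').2 h2))
    obtain rfl : c = c' := sigma_mk_injective (eq_of_not_disjoint_openCell
      (not_disjoint_iff.2 ⟨_, hop c z hz, h1 ▸ hop c' z' hz'⟩))
    refine ⟨rfl, Subtype.ext ((map n c).injOn ?_ ?_ ?_)⟩
    · rw [source_eq]
      exact mem_ball_zero_iff.2 hz
    · rw [source_eq]
      exact mem_ball_zero_iff.2 hz'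
    · rw [← hφ, ← hφ, h1]
  · have h1 := mem_range_self (f := ι) x
    rw [hr, ← skeletonLT_union_iUnion_closedCell_eq_skeletonLT_succ] at h1
    refine h1.imp_right fun h2 => ?_
    obtain ⟨c, z, hz, h3⟩ := mem_iUnion.1 h2
    exact ⟨c, ⟨z, hz⟩, hι.injective ((hφ _ _).trans h3)⟩
  · rw [hι.isClosed_iff_image_isClosed]
    refine isClosed_of_disjoint_openCell_or_isClosed_inter_closedCell (subset_univ _)
      fun m _ j => ?_
    rcases lt_trichotomy m n with h3 | rfl | h3
    · refine .inr ?_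
      have h4 : closedCell m j ⊆ skeletonLT (univ : Set X) (n : ℕ∞) :=
        (closedCell_subset_skeletonLT m j).trans (skeletonLT_mono (by exact_mod_cast h3))
      rw [← inter_eq_right.2 h4, ← inter_assoc, ← image_inter_preimage]
      exact (hι.isClosedMap _ h1).inter isClosed_closedCell
    · refine .inr ?_
      have : CompactSpace (Bl m) := isCompact_iff_compactSpace.1 (isCompact_closedBall _ _)
      have h4 : ι '' S ∩ closedCell m j = (ι ∘ φ j) '' (φ j ⁻¹' S) := by
        ext x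
        constructor
        · rintro ⟨⟨w, hw, rfl⟩, z, hz, h5⟩
          obtain rfl : φ j ⟨z, hz⟩ = w := hι.injective ((hφ _ _).trans h5)
          exact ⟨_, hw, rfl⟩
        · rintro ⟨z, hz, rfl⟩
          exact ⟨⟨_, hz, rfl⟩, z, z.2, (hφ _ _).symm⟩
      rw [h4]
      exact ((h2 j).isCompact.image (hι.continuous.comp (hc j))).isClosed
    · refine .inl ((disjoint_skeletonLT_openCell (n := (n : ℕ∞) + 1)
        (by exact_mod_cast h3)).mono_left ?_)
      rw [← hr]
      exact image_subset_range _ _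

open Topology.CWComplex in
theorem bridge (X : Type u) [TopologicalSpace X] [T2Space X] [CWComplex (univ : Set X)]
    (h : ∀ n, 2 < n → IsEmpty (Topology.CWComplex.cell (univ : Set X) n)) :
    ∃ (A : Set X) (C₂ : Type u) (Φ₂ : C₂ → C(Bl 2, X)) (B : Set A) (C₁ : Type u)
      (Φ₁ : C₁ → C(Bl 1, A)), Att 2 A Φ₂ ∧ Att 1 B Φ₁ ∧ IsDiscrete B := by
  obtain ⟨Φ₂, h₂⟩ := bridge_att (X := X) 2 (ι := id) .id (by
    rw [range_id, eq_comm, eq_univ_iff_forall]
    intro x
    have hx := mem_univ x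
    rw [← iUnion_openCell_eq_complex (C := (univ : Set X))] at hx
    obtain ⟨m, j, hj⟩ := mem_iUnion₂.1 hx
    have hm : m < 3 := by_contra fun hm => (h m (by omega)).false j
    exact mem_skeletonLT_iff.2 ⟨m, by exact_mod_cast hm, j, hj⟩)
  obtain ⟨Φ₁, h₁⟩ := bridge_att 1
    (skeletonLT (univ : Set X) ((2 : ℕ) : ℕ∞)).closed.isClosedEmbedding_subtypeVal
    Subtype.range_coe
  refine ⟨_, _, Φ₂, _, _, Φ₁, h₂, h₁, isDiscrete_iff_forall_mem_exists_isClosed.2 fun s hs =>
    ⟨s, ?_, inter_eq_left.2 hs⟩⟩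
  rw [← preimage_image_eq s Subtype.val_injective]
  refine IsClosed.preimage continuous_subtype_val
    (isClosed_of_disjoint_openCell_or_isClosed_inter_closedCell (subset_univ _) fun m hm j =>
      .inl ((disjoint_skeletonLT_openCell (n := ((1 : ℕ) : ℕ∞)) (by exact_mod_cast hm)).mono_left
        (image_subset_iff.2 hs)))

theorem cov_surj {X Y : Type*} [TopologicalSpace X] [TopologicalSpace Y] [ConnectedSpace X]
    [Nonempty Y] {p : Y → X} (cov : IsCoveringMap p) : Function.Surjective p := by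
  refine range_eq_univ.1 (IsClopen.eq_univ ⟨isOpen_compl_iff.1 (isOpen_iff_mem_nhds.2
    fun x hx => ?_), cov.isOpenMap.isOpen_range⟩ (range_nonempty p))
  obtain ⟨-, U, hxU, hU, -, H, -⟩ := cov x
  refine Filter.mem_of_superset (hU.mem_nhds hxU) ?_
  rintro _ hy ⟨y, rfl⟩
  exact hx ⟨_, (H ⟨y, hy⟩).2.2⟩

theorem cov_t2 {X Y : Type*} [TopologicalSpace X] [TopologicalSpace Y] [T2Space X]
    {p : Y → X} (cov : IsCoveringMap p) : T2Space Y := by
  refine ⟨fun a b hab => ?_⟩
  by_cases h : p a = p b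
  · exact cov.isSeparatedMap a b h hab
  · exact separated_by_continuous cov.continuous h

end Vale.Agent.P173
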