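import Vale.Agent.P173.Alg
import Mathlib.CategoryTheory.Abelian.Projective.Dimension
import Mathlib.RepresentationTheory.Basic
import Mathlib.Algebra.Category.ModuleCat.Abelian
import Mathlib.Algebra.Category.ModuleCat.Projective
import Mathlib.Algebra.Homology.ShortComplex.ModuleCat
import Mathlib.Algebra.Exact.Basic

/-! The cohomological dimension from an acyclic Cayley complex. -/

namespace Vale.Agent.P173

open CategoryTheory in
theorem cd_abstract {R P₂ P₁ P₀ Z : Type} [Ring R] [AddCommGroup P₂] [AddCommGroup P₁]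
    [AddCommGroup P₀] [AddCommGroup Z] [Module R P₂] [Module R P₁] [Module R P₀] [Module R Z]
    [Module.Projective R P₂] [Module.Projective R P₁] [Module.Projective R P₀]
    {f₂ : P₂ →ₗ[R] P₁} {f₁ : P₁ →ₗ[R] P₀} {ε : P₀ →ₗ[R] Z} (h2 : Function.Injective f₂)
    (h1 : Function.Exact f₂ f₁) (h0 : Function.Exact f₁ ε) (hε : Function.Surjective ε)
    (hn : ¬∃ ρ : P₁ →ₗ[R] P₂, ρ ∘ₗ f₂ = LinearMap.id) :
    projectiveDimension (ModuleCat.of R Z) = 2 := by
  let g : P₁ →ₗ[R] LinearMap.ker ε := f₁.codRestrict _ fun x => h0.apply_apply_eq_zero x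
  have hg : Function.Surjective g := fun y => by
    obtain ⟨x, hx⟩ := (h0 y).1 y.2
    exact ⟨x, Subtype.ext hx⟩
  have he : Function.Exact f₂ g := fun x => Subtype.ext_iff.trans (h1 x)
  have S1 := LinearMap.shortExact_shortComplexKer hε
  have S2 := ModuleCat.shortComplex_shortExact
    (ModuleCat.shortComplexOfCompEqZero f₂ g he.linearMap_comp_eq_zero) he h2 hg
  refine le_antisymm ((projectiveDimension_le_iff _ 2).2 ?_)
    ((projectiveDimension_ge_iff _ 2).2 fun H => hn ?_)
  · exact (S1.hasProjectiveDimensionLT_X₃_iff 1 inferInstance).2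
      ((S2.hasProjectiveDimensionLT_X₃_iff 0 inferInstance).2 inferInstance)
  · have := (S1.hasProjectiveDimensionLT_X₃_iff 0 inferInstance).1 H
    have : Module.Projective R (LinearMap.ker ε) := (IsProjective.iff_projective _).2
      (projective_iff_hasProjectiveDimensionLT_one.2 this)
    exact ((he.split_tfae h2 hg).out 0 1).1
      (g.exists_rightInverse_of_surjective (LinearMap.range_eq_top.2 hg))

/-- Chains as a free module over the group ring. -/
noncomputable def cdE (Γ K : Type) : (Γ × K →₀ ℤ) ≃+ (K →₀ MonoidAlgebra ℤ Γ) :=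
  (Finsupp.domCongr (Equiv.prodComm Γ K)).trans (Finsupp.curryAddEquiv.trans
    (Finsupp.mapRange.addEquiv MonoidAlgebra.coeffAddEquiv.symm))

theorem cdE_single {Γ K : Type} (g : Γ) (k : K) (n : ℤ) :
    cdE Γ K (Finsupp.single (g, k) n) = Finsupp.single k (MonoidAlgebra.single g n) := by
  simp [cdE]

theorem cdE_sh {Γ K : Type} [Group Γ] (g : Γ) (n : ℤ) (x : Γ × K →₀ ℤ) :
    cdE Γ K (n • sh g x) = MonoidAlgebra.single g n • cdE Γ K x := by
  induction x using Finsupp.induction_linear with
  | zero => simp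
  | add x y hx hy => simp only [map_add, smul_add, hx, hy]
  | single p m =>
    obtain ⟨d, k⟩ := p
    simp [cdE_single, MonoidAlgebra.single_mul_single]

theorem cd_snd_fox {Γ S : Type} [Group Γ] (b : S → Γ) (w : FreeGroup S) (g : Γ) :
    (fox b w g).mapDomain Prod.snd = expo w := by
  induction w using FreeGroup.induction_on generalizing g with
  | C1 => simp
  | of e => simp
  | inv_of e _ =>
    rw [fox_inv', ← Finsupp.mapDomain.addMonoidHom_apply, map_neg]
    simp
  | mul u v hu hv => rw [fox_mul, Finsupp.mapDomain_add, hu, hv, expo_mul]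

theorem cd_eq_two {Γ S T : Type} [Group Γ] {b : S → Γ} {t : T → FreeGroup S} (h : Acyc b t)
    (hn : ¬LinearIndependent ℤ fun τ => expo (t τ)) :
    CategoryTheory.projectiveDimension
      (ModuleCat.of (MonoidAlgebra ℤ Γ) (Representation.trivial ℤ Γ ℤ).asModule) = 2 := by
  let D2 : (T →₀ MonoidAlgebra ℤ Γ) →ₗ[MonoidAlgebra ℤ Γ] (S →₀ MonoidAlgebra ℤ Γ) :=
    Finsupp.linearCombination _ fun τ => cdE Γ S (fox b (t τ) 1)
  let D1 : (S →₀ MonoidAlgebra ℤ Γ) →ₗ[MonoidAlgebra ℤ Γ] MonoidAlgebra ℤ Γ :=
    Finsupp.linearCombination _ fun s => MonoidAlgebra.single (b s) 1 - 1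
  let ε : MonoidAlgebra ℤ Γ →ₗ[MonoidAlgebra ℤ Γ] (Representation.trivial ℤ Γ ℤ).asModule :=
    LinearMap.toSpanSingleton _ _ ((Representation.asModuleEquiv _).symm 1)
  have e2 : ∀ y, D2 (cdE Γ T y) = cdE Γ S (d2 b t y) := fun y => by
    induction y using Finsupp.induction_linear with
    | zero => simp
    | add x y hx hy => simp only [map_add, hx, hy]
    | single p m =>
      obtain ⟨g, τ⟩ := p
      simp only [D2, d2, cdE_single, Finsupp.linearCombination_single, ← cdE_sh, ← fox_shift,
        mul_one]
  have e1 : ∀ z, D1 (cdE Γ S z) = MonoidAlgebra.coeffAddEquiv.symm (d1 b z) := fun z => by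
    induction z using Finsupp.induction_linear with
    | zero => simp
    | add x y hx hy => simp only [map_add, hx, hy]
    | single p m =>
      obtain ⟨g, s⟩ := p
      simp [D1, d1, cdE_single, mul_sub, smul_sub, MonoidAlgebra.single_mul_single]
  have e0 : ∀ g n, ε (MonoidAlgebra.single g n) = (Representation.asModuleEquiv _).symm n :=
    fun g n => by
      simp only [ε, LinearMap.toSpanSingleton_apply, Representation.single_smul]
      simp
      rfl
  have e3 : ∀ y, d1 b (d2 b t y) = 0 := fun y => by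
    induction y using Finsupp.induction_linear with
    | zero => simp
    | add x y hx hy => simp only [map_add, hx, hy, add_zero]
    | single p m => simp [d2, d1_fox, h.rel]
  refine cd_abstract (f₂ := D2) (f₁ := D1) (ε := ε) (fun x y hxy => ?_) (fun z => ?_)
    (fun x => ⟨fun hx => ?_, ?_⟩) (fun n => ⟨_, (e0 1 _).trans (LinearEquiv.symm_apply_apply _ n)⟩)
    fun ⟨ρ, hρ⟩ => hn ?_
  · obtain ⟨x, rfl⟩ := (cdE Γ T).surjective x
    obtain ⟨y, rfl⟩ := (cdE Γ T).surjective y
    rw [e2, e2] at hxy
    rw [h.inj ((cdE Γ S).injective hxy)]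
  · obtain ⟨z, rfl⟩ := (cdE Γ S).surjective z
    rw [e1, map_eq_zero_iff _ (AddEquiv.injective _)]
    refine ⟨fun hz => ?_, fun ⟨y, hy⟩ => ?_⟩
    · obtain ⟨y, rfl⟩ := h.ex z hz
      exact ⟨_, e2 y⟩
    · obtain ⟨y, rfl⟩ := (cdE Γ T).surjective y
      rw [e2] at hy
      rw [← (cdE Γ S).injective hy, e3]
  · have : ∀ x, x - MonoidAlgebra.single 1 (Representation.asModuleEquiv _ (ε x)) ∈
        LinearMap.range D1 := fun x => by
      induction x using MonoidAlgebra.induction_linear with
      | zero => simp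
      | add x y hx hy =>
        rw [map_add, map_add, MonoidAlgebra.single_add, add_sub_add_comm]
        exact add_mem hx hy
      | single g n =>
        obtain ⟨w, rfl⟩ := h.surj g
        refine ⟨cdE Γ S (n • fox b w 1), ?_⟩
        simp [e1, e0, d1_fox, smul_sub]
    simpa [hx] using this x
  · rintro ⟨z, rfl⟩
    induction z using Finsupp.induction_linear with
    | zero => simp
    | add x y hx hy => simp only [map_add, hx, hy, add_zero]
    | single s r =>
      rw [Finsupp.linearCombination_single, map_smul, map_sub, MonoidAlgebra.one_def, e0, e0,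
        sub_self, smul_zero]
  · let au : MonoidAlgebra ℤ Γ →ₐ[ℤ] ℤ := MonoidAlgebra.lift ℤ ℤ Γ 1
    let π : ∀ K : Type, (K →₀ MonoidAlgebra ℤ Γ) →+ (K →₀ ℤ) := fun K =>
      Finsupp.mapRange.addMonoidHom au
    have p1 : ∀ (K : Type) (k : K) r, π K (Finsupp.single k r) = Finsupp.single k (au r) :=
      fun K k r => Finsupp.mapRange_single (hf := map_zero au)
    have p2 : ∀ r (x : T →₀ MonoidAlgebra ℤ Γ), π T (r • x) = au r • π T x := fun r x => by
      ext τ
      simp [π]
    have p3 : ∀ z, π S (cdE Γ S z) = z.mapDomain Prod.snd := fun z => by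
      induction z using Finsupp.induction_linear with
      | zero => simp
      | add x y hx hy => simp only [map_add, Finsupp.mapDomain_add, hx, hy]
      | single p m =>
        obtain ⟨g, s⟩ := p
        simp [cdE_single, p1, au]
    let ρ' : (S →₀ ℤ) →ₗ[ℤ] (T →₀ ℤ) :=
      Finsupp.linearCombination ℤ fun s => π T (ρ (Finsupp.single s 1))
    have p4 : ∀ x, ρ' (π S x) = π T (ρ x) := fun x => by
      induction x using Finsupp.induction_linear with
      | zero => simp
      | add x y hx hy => simp only [map_add, hx, hy]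
      | single s r =>
        rw [p1, Finsupp.linearCombination_single, ← p2, ← map_smul, Finsupp.smul_single,
          smul_eq_mul, mul_one]
    refine LinearIndependent.of_comp ρ' ?_
    have : (ρ' ∘ fun τ => expo (t τ)) = fun τ => Finsupp.single τ 1 := funext fun τ => by
      have h1 := LinearMap.congr_fun hρ (Finsupp.single τ 1)
      rw [LinearMap.comp_apply, Finsupp.linearCombination_single, one_smul] at h1
      rw [Function.comp_apply, ← cd_snd_fox b (t τ) 1, ← p3, p4, h1, LinearMap.id_apply, p1,
        map_one]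
    rw [this]
    exact Finsupp.linearIndependent_single_one ℤ T

end Vale.Agent.P173
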