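import Vale.Agent.P173.AttBasic
import Mathlib.Topology.FiberBundle.Basic

/-! Coverings glued along cocycles, and the cocycle of a labelled graph. -/

open Set Topology unitInterval

namespace Vale.Agent.P173

universe u v

theorem cech_const {W H : Type*} [TopologicalSpace W] {f : W → H} {s : Set W}
    (hs : IsPreconnected s) (hf : ∀ t ∈ s, ∀ᶠ t' in 𝓝 t, f t' = f t) {a b : W} (ha : a ∈ s)
    (hb : b ∈ s) : f a = f b := by
  let _ : TopologicalSpace H := ⊥
  have : DiscreteTopology H := ⟨rfl⟩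
  exact hs.constant (fun t ht => (Filter.EventuallyEq.continuousAt (hf t ht)).continuousWithinAt)
    ha hb

theorem cech_lift {X T : Type*} [TopologicalSpace X] [TopologicalSpace T] {p : T → X}
    (cov : IsCoveringMap p) {γ : I → X} (hγ : Continuous γ) (y : T) (hy : p y = γ 0) :
    ∃ (y' : T) (Γ : Path y y'), ∀ t, p (Γ t) = γ t :=
  ⟨_, ⟨cov.liftPath ⟨γ, hγ⟩ y hy.symm, cov.liftPath_zero .., rfl⟩,
    congrFun (cov.liftPath_lifts ⟨γ, hγ⟩ y hy.symm)⟩

theorem cech_norm_seg {t : I} (h0 : 0 < (t : ℝ)) (h1 : (t : ℝ) < 1) : ‖(seg t).1‖ < 1 := by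
  rw [seg, pi_norm_const, Real.norm_eq_abs, abs_lt]
  constructor <;> linarith

theorem Coc.exists_cov {X : Type u} {H : Type v} {J : Type*} [TopologicalSpace X] [Group H]
    (K : Coc X H J) : ∃ (T : Type (max u v)) (_ : TopologicalSpace T) (p : T → X) (κ : J → T → H),
      K.Cov p κ := by
  let _ : TopologicalSpace H := ⊥
  have : DiscreteTopology H := ⟨rfl⟩
  let Z : FiberBundleCore J X H :=
    { baseSet := K.U
      isOpen_baseSet := K.op
      indexAt := fun x => (K.cov x).choose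
      mem_baseSet_at := fun x => (K.cov x).choose_spec
      coordChange := fun i j x h => h * K.c i j x
      coordChange_self := fun i x hx v => by
        rw [mul_eq_left.1 (K.co i i i x hx hx hx), mul_one]
      continuousOn_coordChange := fun i j q hq => by
        refine (Filter.EventuallyEq.continuousAt (y := q.2 * K.c i j q.1) ?_).continuousWithinAt
        have h1 := (continuous_fst.tendsto q).eventually (K.lc i j q.1 hq.1.1 hq.1.2)
        have h2 := continuous_snd.tendsto q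
        rw [nhds_discrete H, Filter.tendsto_pure] at h2
        filter_upwards [h1, h2] with r h3 h4
        rw [h3, h4]
      coordChange_comp := fun i j k x hx v => by
        rw [mul_assoc, K.co i j k x hx.1.1 hx.1.2 hx.2] }
  refine ⟨Z.TotalSpace, inferInstance, Z.proj, fun i y => (Z.localTriv i y).2,
    IsFiberBundle.isCoveringMap fun x => ⟨Z.localTrivAt x, Z.mem_localTrivAt_baseSet x⟩,
    fun i y hy => ?_, fun i j y hi hj => ?_, fun i x h hx => ?_, fun i y y' hy h1 h2 => ?_⟩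
  · have h1 := ((Z.localTriv i).continuousAt ((Z.mem_localTriv_source i y).2 hy)).snd.tendsto
    rwa [nhds_discrete H, Filter.tendsto_pure] at h1
  · exact (Z.coordChange_comp _ i j _ ⟨⟨Z.mem_baseSet_at _, hi⟩, hj⟩ y.2).symm
  · exact ⟨⟨x, h * (K.c (Z.indexAt x) i x)⁻¹⟩, rfl, inv_mul_cancel_right _ _⟩
  · obtain ⟨x, a⟩ := y
    obtain ⟨x', a'⟩ := y'
    obtain rfl : x = x' := h1
    obtain rfl : a = a' := mul_right_cancel (G := H) h2
    rfl

theorem Coc.Cov.rule_edge {Z X C H J T : Type*} [TopologicalSpace Z] [TopologicalSpace X]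
    [Group H] [TopologicalSpace T] {K : Coc X H J} {p : T → X} {κ : J → T → H} (hc : K.Cov p κ)
    {ι : Z → X} {Φ : C → C(Bl 1, Z)} {lab : C → H} {i j : J} (hl : K.Lab ι Φ lab i j) (e : C) :
    Rule p ι (κ i) (edge Φ e) (lab e) := by
  intro δ hδ
  have hk : ∀ (k : J) (a b : I), a ≤ b → (∀ t : I, a ≤ t → t ≤ b → ι (Φ e (seg t)) ∈ K.U k) →
      κ k (δ a) = κ k (δ b) := fun k a b hab h =>
    cech_const (f := fun t => κ k (δ t)) isPreconnected_Icc (fun t ht =>
      (δ.continuous.tendsto t).eventually (hc.lc k _ ((hδ t).symm ▸ h t ht.1 ht.2)))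
      (left_mem_Icc.2 hab) (right_mem_Icc.2 hab)
  let a : I := ⟨1 / 4, by norm_num, by norm_num⟩
  let b : I := ⟨3 / 4, by norm_num, by norm_num⟩
  have h1 := hk i 0 a a.2.1 fun t _ ht => hl.left e t (by
    have : (t : ℝ) ≤ 1 / 4 := ht
    linarith)
  have h2 := hk j a b (by norm_num [a, b, ← Subtype.coe_le_coe]) fun t h0 ht => hl.mid e t
    (lt_of_lt_of_le (by norm_num) (show (1 / 4 : ℝ) ≤ t from h0))
    (lt_of_le_of_lt (show (t : ℝ) ≤ 3 / 4 from ht) (by norm_num))
  have h3 := hk i b 1 b.2.2 fun t ht _ => hl.left e t (by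
    have : (3 / 4 : ℝ) ≤ t := ht
    linarith)
  have h4 := hc.tr i j (δ a) ((hδ a).symm ▸ hl.left e a (by norm_num [a]))
    ((hδ a).symm ▸ hl.mid e a (by norm_num [a]) (by norm_num [a]))
  have h5 := hc.tr j i (δ b) ((hδ b).symm ▸ hl.mid e b (by norm_num [b]) (by norm_num [b]))
    ((hδ b).symm ▸ hl.left e b (by norm_num [b]))
  rw [hδ, edge_apply] at h4 h5
  rw [hl.lo e a (by norm_num [a]) (by norm_num [a]), mul_one] at h4
  rw [hl.hi e b (by norm_num [b]) (by norm_num [b])] at h5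
  rw [← h3, h5, ← h2, h4, h1]

theorem EP.rule {Z X C H T : Type*} [TopologicalSpace Z] [TopologicalSpace X] [Group H]
    [TopologicalSpace T] {p : T → X} (cov : IsCoveringMap p) {ι : Z → X} (hι : Continuous ι)
    {κ : T → H} {Φ : C → C(Bl 1, Z)} {lab : C → H} (he : ∀ e, Rule p ι κ (P173.edge Φ e) (lab e))
    {u v : Z} {γ : Path u v} {w : FreeGroup C} (h : EP Φ γ w) :
    Rule p ι κ γ (FreeGroup.lift lab w) := by
  induction h with
  | refl u =>
    intro δ hδ
    rw [map_one (FreeGroup.lift lab), mul_one,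
      cov.const_of_comp δ.continuous (fun t t' => by rw [hδ, hδ]; rfl) 1 0]
  | edge e => simpa using he e
  | symm _ ih =>
    intro δ hδ
    have h1 := ih (δ.comp ⟨σ, continuous_symm⟩) fun t => by simpa using hδ (σ t)
    simp only [ContinuousMap.comp_apply, ContinuousMap.coe_mk, symm_one, symm_zero] at h1
    rw [h1, map_inv, mul_inv_cancel_right]
  | @trans u v x γ γ' w w' _ _ ih ih' =>
    intro δ hδ
    obtain ⟨y, Γ, h1⟩ := cech_lift cov (hι.comp γ.continuous) (δ 0) (by simpa using hδ 0)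
    obtain ⟨y', Γ', h2⟩ := cech_lift cov (hι.comp γ'.continuous) y (by simpa using h1 1)
    have h3 := congrFun (cov.eq_of_comp_eq δ.continuous (Γ.trans Γ').continuous (funext fun t => by
      simp only [Function.comp_apply, hδ, Path.trans_apply]
      split_ifs
      · exact (h1 _).symm
      · exact (h2 _).symm) 0 (by simp)) 1
    have h4 := ih Γ.toContinuousMap h1
    have h5 := ih' Γ'.toContinuousMap h2
    simp only [Path.coe_toContinuousMap, Path.source, Path.target] at h3 h4 h5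
    rw [h3, h5, h4, map_mul, mul_assoc]
  | @htpy u v γ γ' w _ hh ih =>
    intro δ hδ
    have h0 : γ.map hι 0 = p (δ 0) := by simpa using (hδ 0).symm
    have h0' : γ'.map hι 0 = p (δ 0) := by simpa using (hδ 0).symm
    have h1 := cov.liftPath_apply_one_eq_of_homotopicRel (hh.map ⟨ι, hι⟩) (δ 0) h0 h0'
    have h2 := ih (cov.liftPath (γ.map hι) (δ 0) h0) (congrFun (cov.liftPath_lifts _ _ h0))
    have h3 := (cov.eq_liftPath_iff' (γ := γ'.map hι) (Γ := δ) h0').2 ⟨funext hδ, rfl⟩
    rw [cov.liftPath_zero] at h2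
    rw [← h2]
    exact congrArg κ ((DFunLike.congr_fun h3 1).trans h1.symm)

theorem Att.exists_coc {Z C H : Type*} [TopologicalSpace Z] [Group H] {B : Set Z}
    {Φ : C → C(Bl 1, Z)} (h : Att 1 B Φ) (lab : C → H) :
    ∃ K : Coc Z H Bool, B ⊆ K.U false ∧ K.Lab id Φ lab false true := by
  classical
  let g : Z → H := fun x =>
    if hx : ∃ e z, ‖z.1‖ < 1 ∧ 0 < z.1 0 ∧ Φ e z = x then lab hx.choose else 1
  have hg : ∀ e z, ‖z.1‖ < 1 → g (Φ e z) = if 0 < z.1 0 then lab e else 1 := fun e z hz => by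
    by_cases hx : ∃ e' z', ‖z'.1‖ < 1 ∧ 0 < z'.1 0 ∧ Φ e' z' = Φ e z
    · obtain ⟨z', h1, h2, h3⟩ := hx.choose_spec
      obtain ⟨h4, rfl⟩ := h.inj _ _ _ _ h1 h3
      simp only [g, dif_pos hx, if_pos h2, h4]
    · simp only [g, dif_neg hx, if_neg fun h1 => hx ⟨e, z, hz, h1, rfl⟩]
  have hO : IsOpen {z : Bl 1 | ‖z.1‖ < 1} := isOpen_lt (by fun_prop) continuous_const
  have hlc : ∀ x ∈ offC Φ, x ∈ ⋃ e, Φ e '' {z | ‖z.1‖ < 1} → ∀ᶠ y in 𝓝 x, g y = g x := by
    intro x h1 h2
    obtain ⟨e, z, hz, rfl⟩ := mem_iUnion.1 h2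
    have h3 : z.1 0 ≠ 0 := fun h3 => (h.mem_offC e z).1 h1
      (Subtype.ext (funext fun i => by rw [Subsingleton.elim i 0]; exact h3))
    have h4 : Continuous fun z : Bl 1 => z.1 0 :=
      (continuous_apply 0).comp continuous_subtype_val
    rw [← h.map_nhds e hz, Filter.eventually_map, hg e z hz]
    rcases lt_or_gt_of_ne h3 with h5 | h5
    · filter_upwards [hO.mem_nhds hz, (h4.tendsto z).eventually (gt_mem_nhds h5)] with u h6 h7
      rw [hg e u h6, if_neg h5.not_gt, if_neg (not_lt.2 h7.le)]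
    · filter_upwards [hO.mem_nhds hz, (h4.tendsto z).eventually (lt_mem_nhds h5)] with u h6 h7
      rw [hg e u h6, if_pos h5, if_pos h7]
  refine ⟨⟨fun b => cond b (⋃ e, Φ e '' {z | ‖z.1‖ < 1}) (offC Φ), fun b => ?_, fun x => ?_,
    fun i j x => cond i (g x) 1 * (cond j (g x) 1)⁻¹, fun i j x hi hj => ?_,
    fun i j k x _ _ _ => by group⟩, h.subset_offC, fun e t ht => ?_, fun e t h0 h1 => ?_,
    fun e t h0 h1 => ?_, fun e t h0 h1 => ?_⟩
  · cases b
    · exact h.isOpen_offC
    · exact isOpen_iUnion fun e => h.isOpen_image e hO fun _ hz => hz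
  · by_cases hx : x ∈ B
    · exact ⟨false, h.subset_offC hx⟩
    · obtain ⟨e, z, rfl⟩ := (h.cover x).resolve_left hx
      exact ⟨true, mem_iUnion.2 ⟨e, z, lt_of_le_of_ne z.norm_le fun h1 => hx ((h.mem e z).2 h1),
        rfl⟩⟩
  · cases i <;> cases j
    · simp
    · exact (hlc x hi hj).mono fun y hy => by simp [hy]
    · exact (hlc x hj hi).mono fun y hy => by simp [hy]
    · simp
  · refine (h.mem_offC e _).2 fun h1 => ht ?_
    have h2 : 2 * (t : ℝ) - 1 = 0 := congrFun (congrArg Subtype.val h1) 0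
    linarith
  · exact mem_iUnion.2 ⟨e, _, cech_norm_seg h0 h1, rfl⟩
  · have h2 : ¬ 0 < (seg t).1 0 := by
      change ¬ 0 < 2 * (t : ℝ) - 1
      linarith
    simp [hg e _ (cech_norm_seg h0 (by linarith)), h2]
  · have h2 : 0 < (seg t).1 0 := by
      change 0 < 2 * (t : ℝ) - 1
      linarith
    simp [hg e _ (cech_norm_seg (by linarith) h1), h2]

end Vale.Agent.P173
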