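import Vale.Agent.P173.Top
import Mathlib.Analysis.SpecialFunctions.Complex.Arg
import Mathlib.Analysis.SpecialFunctions.Log.Basic

/-! The boundary circle of the square. -/

open Set Topology unitInterval

namespace Vale.Agent.P173

lemma circF_eq_of {t r : ℝ} {z : Bl 2} (hz : ‖z.1‖ = 1) (hr : 0 < r)
    (h0 : Real.cos (2 * Real.pi * t) = r * z.1 0) (h1 : Real.sin (2 * Real.pi * t) = r * z.1 1) :
    circF t = z := by
  have e : (![Real.cos (2 * Real.pi * t), Real.sin (2 * Real.pi * t)] : Fin 2 → ℝ) = r • z.1 := by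
    funext i
    fin_cases i
    · simpa using h0
    · simpa using h1
  apply Subtype.ext
  change ‖(![Real.cos (2 * Real.pi * t), Real.sin (2 * Real.pi * t)] : Fin 2 → ℝ)‖⁻¹ •
    (![Real.cos (2 * Real.pi * t), Real.sin (2 * Real.pi * t)] : Fin 2 → ℝ) = z.1
  rw [e, norm_smul, hz, mul_one, Real.norm_eq_abs, abs_of_pos hr, smul_smul,
    inv_mul_cancel₀ hr.ne', one_smul]

theorem circ_surj (z : Bl 2) (hz : ‖z.1‖ = 1) : ∃ t : I, circF t = z := by
  have hπ := Real.pi_pos
  obtain ⟨w, hw⟩ : ∃ w : ℂ, w = ⟨z.1 0, z.1 1⟩ := ⟨_, rfl⟩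
  have hw0 : w ≠ 0 := by
    intro h
    rw [h] at hw
    have h0 : z.1 0 = 0 := (congrArg Complex.re hw).symm
    have h1 : z.1 1 = 0 := (congrArg Complex.im hw).symm
    have : z.1 = 0 := by
      funext i
      fin_cases i
      · exact h0
      · exact h1
    rw [this, norm_zero] at hz
    exact zero_ne_one hz
  have hr : 0 < ‖w‖⁻¹ := inv_pos.2 (norm_pos_iff.2 hw0)
  have hc : Real.cos w.arg = ‖w‖⁻¹ * z.1 0 := by
    rw [Complex.cos_arg hw0, div_eq_inv_mul, hw]
  have hs : Real.sin w.arg = ‖w‖⁻¹ * z.1 1 := by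
    rw [Complex.sin_arg, div_eq_inv_mul, hw]
  have h1 := Complex.neg_pi_lt_arg w
  have h2 := Complex.arg_le_pi w
  have e : 2 * Real.pi * (w.arg / (2 * Real.pi)) = w.arg := by field_simp
  rcases le_or_gt 0 w.arg with h | h
  · refine ⟨⟨w.arg / (2 * Real.pi), by positivity, (div_le_one (by positivity)).2 (by linarith)⟩,
      circF_eq_of hz hr ?_ ?_⟩
    · rw [← hc]; exact congrArg Real.cos e
    · rw [← hs]; exact congrArg Real.sin e
  · have h3 : -1 ≤ w.arg / (2 * Real.pi) := (le_div_iff₀ (by positivity)).2 (by linarith)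
    have h4 : w.arg / (2 * Real.pi) ≤ 0 := div_nonpos_of_nonpos_of_nonneg h.le (by positivity)
    have e' : 2 * Real.pi * (w.arg / (2 * Real.pi) + 1) = w.arg + 2 * Real.pi := by
      rw [mul_add, e, mul_one]
    refine ⟨⟨w.arg / (2 * Real.pi) + 1, by linarith, by linarith⟩, circF_eq_of hz hr ?_ ?_⟩
    · rw [← hc, ← Real.cos_add_two_pi w.arg]; exact congrArg Real.cos e'
    · rw [← hs, ← Real.sin_add_two_pi w.arg]; exact congrArg Real.sin e'

theorem circ_inj {s t : I} (h : circF s = circF t) :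
    s = t ∨ (s = 0 ∧ t = 1) ∨ (s = 1 ∧ t = 0) := by
  have hπ := Real.pi_pos
  have h0 := congrFun (congrArg Subtype.val h) 0
  have h1 := congrFun (congrArg Subtype.val h) 1
  have ha := inv_pos.2 (norm_pos_iff.2 (circ_ne s))
  have hb := inv_pos.2 (norm_pos_iff.2 (circ_ne t))
  simp only [circF, Pi.smul_apply, smul_eq_mul, Matrix.cons_val_zero, Matrix.cons_val_one] at h0 h1
  generalize ‖(![Real.cos (2 * Real.pi * s), Real.sin (2 * Real.pi * s)] : Fin 2 → ℝ)‖⁻¹ = a
    at ha h0 h1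
  generalize ‖(![Real.cos (2 * Real.pi * t), Real.sin (2 * Real.pi * t)] : Fin 2 → ℝ)‖⁻¹ = b
    at hb h0 h1
  have h2 := Real.cos_sq_add_sin_sq (2 * Real.pi * s)
  have h3 := Real.cos_sq_add_sin_sq (2 * Real.pi * t)
  have h4 : a ^ 2 = b ^ 2 := by
    calc a ^ 2 = (a * Real.cos (2 * Real.pi * s)) ^ 2 + (a * Real.sin (2 * Real.pi * s)) ^ 2 := by
          rw [mul_pow, mul_pow, ← mul_add, h2, mul_one]
      _ = b ^ 2 := by rw [h0, h1, mul_pow, mul_pow, ← mul_add, h3, mul_one]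
  have h5 : a = b := (pow_left_inj₀ ha.le hb.le two_ne_zero).1 h4
  subst h5
  obtain ⟨k, hk⟩ := Real.Angle.angle_eq_iff_two_pi_dvd_sub.1
    (Real.Angle.cos_sin_inj (mul_left_cancel₀ ha.ne' h0) (mul_left_cancel₀ ha.ne' h1))
  have h6 : (s : ℝ) - t = k := by
    apply mul_left_cancel₀ (show 2 * Real.pi ≠ 0 by positivity)
    linarith
  have hs0 := s.2.1
  have hs1 := s.2.2
  have ht0 := t.2.1
  have ht1 := t.2.2
  have h7 : k ≤ 1 := by exact_mod_cast (by linarith : (k : ℝ) ≤ 1)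
  have h8 : -1 ≤ k := by exact_mod_cast (by linarith : (-1 : ℝ) ≤ k)
  have h9 : k = 0 ∨ k = -1 ∨ k = 1 := by omega
  rcases h9 with rfl | rfl | rfl
  · exact Or.inl (Subtype.ext (by push_cast at h6; linarith))
  · push_cast at h6
    exact Or.inr (Or.inl ⟨Subtype.ext (by simp only [Icc.coe_zero]; linarith),
      Subtype.ext (by simp only [Icc.coe_one]; linarith)⟩)
  · push_cast at h6
    exact Or.inr (Or.inr ⟨Subtype.ext (by simp only [Icc.coe_one]; linarith),
      Subtype.ext (by simp only [Icc.coe_zero]; linarith)⟩)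

theorem circ_log : ∃ L : C(I, ℂ),
    (∀ t : I, Complex.exp (L t) = (circF t).1 0 + (circF t).1 1 * Complex.I) ∧ L 1 ≠ L 0 := by
  have hv : Continuous fun t : I =>
      (![Real.cos (2 * Real.pi * t), Real.sin (2 * Real.pi * t)] : Fin 2 → ℝ) := by fun_prop
  have hl : Continuous fun t : I => Real.log
      ‖(![Real.cos (2 * Real.pi * t), Real.sin (2 * Real.pi * t)] : Fin 2 → ℝ)‖⁻¹ :=
    (hv.norm.inv₀ fun t => norm_ne_zero_iff.2 (circ_ne t)).log
      fun t => inv_ne_zero (norm_ne_zero_iff.2 (circ_ne t))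
  refine ⟨⟨fun t => (Real.log
      ‖(![Real.cos (2 * Real.pi * t), Real.sin (2 * Real.pi * t)] : Fin 2 → ℝ)‖⁻¹ : ℝ) +
      ((2 * Real.pi * t : ℝ) : ℂ) * Complex.I,
      (Complex.continuous_ofReal.comp hl).add (by fun_prop)⟩, fun t => ?_, fun h => ?_⟩
  · simp only [ContinuousMap.coe_mk]
    rw [Complex.exp_add, ← Complex.ofReal_exp,
      Real.exp_log (inv_pos.2 (norm_pos_iff.2 (circ_ne t))), Complex.exp_mul_I,
      ← Complex.ofReal_cos, ← Complex.ofReal_sin]
    simp only [circF, Pi.smul_apply, smul_eq_mul, Matrix.cons_val_zero, Matrix.cons_val_one,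
      Complex.ofReal_mul]
    ring
  · have := congrArg Complex.im h
    simp at this

theorem circ_descend {T : Type*} [TopologicalSpace T] (δ : C(I, T)) (h : δ 1 = δ 0) :
    ∃ f : C({z : Bl 2 // ‖z.1‖ = 1}, T), ∀ t : I, f ⟨circF t, norm_circF t⟩ = δ t := by
  let π : C(I, {z : Bl 2 // ‖z.1‖ = 1}) := ⟨fun t => ⟨circF t, norm_circF t⟩,
    (continuous_circF.comp continuous_subtype_val).subtype_mk _⟩
  have hq : IsQuotientMap π := IsQuotientMap.of_surjective_continuous (fun z => by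
    obtain ⟨t, ht⟩ := circ_surj z.1 z.2
    exact ⟨t, Subtype.ext ht⟩) π.continuous
  have hf : Function.FactorsThrough δ π := by
    intro s t hst
    rcases circ_inj (congrArg Subtype.val hst) with rfl | ⟨rfl, rfl⟩ | ⟨rfl, rfl⟩
    · rfl
    · exact h.symm
    · exact h
  exact ⟨hq.lift δ hf, fun t => DFunLike.congr_fun (hq.lift_comp δ hf) t⟩

end Vale.Agent.P173
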