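import Vale.Agent.P173.Raag

/-! Vanishing of the first real cohomology of the flag complex and of its scaled copies. -/

namespace Vale.Agent.P173

variable {V : Type} [LinearOrder V] {G : SimpleGraph V}

variable (G) in
/-- The support of `m` together with `s` is a clique. -/
def OK (m : V → ℕ) (s : Set V) : Prop := G.IsClique ({x | m x ≠ 0} ∪ s)

omit [LinearOrder V] in
theorem OK.mono {m : V → ℕ} {s s' : Set V} (h : OK G m s) (h' : s' ⊆ s) : OK G m s' :=
  h.subset (Set.union_subset_union_right _ h')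

theorem OK_add {m : V → ℕ} {u : V} {s : Set V} :
    OK G (m + Pi.single u 1) s ↔ OK G m (insert u s) := by
  have : {x | (m + Pi.single u 1 : V → ℕ) x ≠ 0} ∪ s = {x | m x ≠ 0} ∪ insert u s := by
    ext x
    by_cases h : x = u <;> simp [h]
  rw [OK, this, OK]

omit [LinearOrder V] in
theorem OK.nb {m : V → ℕ} {s : Set V} (h : OK G m s) {u v : V} (hu : m u ≠ 0 ∨ u ∈ s)
    (hv : m v ≠ 0 ∨ v ∈ s) : Nb G u v :=
  (eq_or_ne u v).imp_right fun H => h hu hv H

theorem sum_add_single [Fintype V] (m : V → ℕ) (u : V) :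
    ∑ x, (m + Pi.single u 1 : V → ℕ) x = ∑ x, m x + 1 := by
  simp [Finset.sum_add_distrib]

theorem coh_sort {s : Finset V} (h : s.card = 3) : ∃ u v w, u < v ∧ v < w ∧ s = {u, v, w} := by
  refine ⟨s.orderEmbOfFin h 0, s.orderEmbOfFin h 1, s.orderEmbOfFin h 2,
    (s.orderEmbOfFin h).strictMono (by decide), (s.orderEmbOfFin h).strictMono (by decide), ?_⟩
  conv_lhs => rw [← s.image_orderEmbOfFin_univ h]
  simp [show (Finset.univ : Finset (Fin 3)) = {0, 1, 2} from rfl]

theorem coh_flag (hG : Good G) (β : V → V → ℝ)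
    (hβ : ∀ u v w, Nb G u v → Nb G v w → Nb G u w → β u v + β v w = β u w) :
    ∃ θ : V → ℝ, ∀ u v, G.Adj u v → β u v = θ u - θ v := by
  obtain ⟨h, hh⟩ := hG.acyc
  let B : (Finset V →₀ ℤ) →ₗ[ℤ] ℝ := Finsupp.linearCombination ℤ fun s =>
    if s.card = 2 then ∑ u ∈ s, ∑ v ∈ s, if u < v then β u v else 0 else 0
  have b2 : ∀ u v, u < v → B (Finsupp.single {u, v} 1) = β u v := fun u v huv => by
    simp [B, huv.ne, huv, huv.not_gt]
  have b3 : ∀ s : Finset V, G.IsClique (s : Set V) → B (dl (Finsupp.single s 1)) = 0 := by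
    intro s hs
    rw [dl, Finsupp.linearCombination_single, one_smul, map_sum]
    by_cases h3 : s.card = 3
    · obtain ⟨u, v, w, h1, h2, rfl⟩ := coh_sort h3
      have h4 := h1.trans h2
      have e1 : ({u, v, w} : Finset V).erase u = {v, w} :=
        Finset.erase_insert (by simp [h1.ne, h4.ne])
      have e2 : ({u, v, w} : Finset V).erase v = {u, w} := by
        rw [Finset.insert_comm]
        exact Finset.erase_insert (by simp [h1.ne', h2.ne])
      have e3 : ({u, v, w} : Finset V).erase w = {u, v} := by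
        rw [Finset.pair_comm v, Finset.insert_comm]
        exact Finset.erase_insert (by simp [h4.ne', h2.ne'])
      have := hβ u v w (Or.inr (hs (by simp) (by simp) h1.ne)) (Or.inr (hs (by simp) (by simp) h2.ne))
        (Or.inr (hs (by simp) (by simp) h4.ne))
      rw [Finset.sum_insert (by simp [h1.ne, h4.ne]), Finset.sum_pair h2.ne, e1, e2, e3, map_smul,
        map_smul, map_smul, b2 _ _ h1, b2 _ _ h2, b2 _ _ h4]
      simp [sg, Finset.filter_insert, Finset.filter_singleton, h1, h2, h4, h1.not_gt, h2.not_gt,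
        h4.not_gt, h2.ne]
      linarith
    · refine Finset.sum_eq_zero fun v hv => ?_
      have := Finset.card_erase_add_one hv
      rw [map_smul, Finsupp.linearCombination_single, if_neg (by omega), smul_zero, smul_zero]
  have key : ∀ u v, u < v → G.Adj u v → β u v = B (h {u}) - B (h {v}) := fun u v huv ha => by
    obtain ⟨h1, h2⟩ := hh {u, v} (by simpa using fun _ => ha)
    have h3 : B (dl (h {u, v})) = 0 := by
      rw [← Finsupp.sum_single (h {u, v}), Finsupp.sum, map_sum, map_sum]
      refine Finset.sum_eq_zero fun τ hτ => ?_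
      rw [← Finsupp.smul_single_one, map_smul, map_smul, b3 τ (h1 τ hτ), smul_zero]
    have h4 := congrArg B h2
    rw [map_add, h3, b2 u v huv, dl, Finsupp.linearCombination_single, one_smul,
      Finset.sum_pair huv.ne, Finset.erase_insert (by simp [huv.ne]), Finset.pair_comm u v,
      Finset.erase_insert (by simp [huv.ne'])] at h4
    simp [sg, Finset.filter_insert, Finset.filter_singleton, huv, huv.not_gt] at h4
    linarith
  refine ⟨fun w => B (h {w}), fun u v ha => ?_⟩
  rcases lt_or_gt_of_ne ha.ne with H | H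
  · exact key u v H ha
  · have h1 := hβ u u u (Or.inl rfl) (Or.inl rfl) (Or.inl rfl)
    have h2 := hβ u v u (Or.inr ha) (Or.inr ha.symm) (Or.inl rfl)
    have h3 := key v u H ha.symm
    linarith

theorem coh_up [Fintype V] {n : ℕ} {α : (V → ℕ) → V → ℝ}
    (hα : ∀ m u v, ∑ x, m x = n → G.Adj u v → OK G m {u, v} →
      α m u + α (m + Pi.single u 1) v = α m v + α (m + Pi.single v 1) u) {φ : (V → ℕ) → ℝ}
    (hφ : ∀ m v, ∑ x, m x = n → OK G m {v} → α m v = φ (m + Pi.single v 1) - φ m) :
    ∃ φ : (V → ℕ) → ℝ, ∀ m v, n ≤ ∑ x, m x → ∑ x, m x ≤ n + 1 → OK G m {v} →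
      α m v = φ (m + Pi.single v 1) - φ m := by
  classical
  let P : (V → ℕ) → (V → ℕ) × V → Prop := fun m p =>
    ∑ x, p.1 x = n + 1 ∧ OK G p.1 {p.2} ∧ m = p.1 + Pi.single p.2 1
  let ψ : (V → ℕ) → ℝ := fun m =>
    if h : ∃ p, P m p then φ h.choose.1 + α h.choose.1 h.choose.2 else φ m
  have h1 : ∀ m, ∑ x, m x ≤ n + 1 → ψ m = φ m := fun m hm => dif_neg fun ⟨p, h2, _, h3⟩ => by
    rw [h3, sum_add_single] at hm
    omega
  refine ⟨ψ, fun m v h2 h3 h4 => ?_⟩
  rcases h2.eq_or_lt with h2 | h2
  · rw [h1 m h3, h1 _ (by rw [sum_add_single]; omega), hφ m v h2.symm h4]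
  have h5 : ∃ p, P (m + Pi.single v 1) p := ⟨(m, v), le_antisymm h3 h2, h4, rfl⟩
  rw [h1 m h3, show ψ (m + Pi.single v 1) = _ from dif_pos h5]
  obtain ⟨g1, -, g3⟩ := h5.choose_spec
  generalize h5.choose = p at g1 g3
  obtain ⟨m', u⟩ := p
  by_cases huv : u = v
  · subst huv
    rw [add_right_cancel g3, add_sub_cancel_left]
  have g4 : m u ≠ 0 := by
    have := congrFun g3 u
    simp only [Pi.add_apply, Pi.single_eq_same, Pi.single_eq_of_ne huv] at this
    omega
  obtain ⟨k, rfl⟩ : ∃ k, m = k + Pi.single u 1 := ⟨m - Pi.single u 1, funext fun x => by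
    by_cases h : x = u
    · subst h
      simp only [Pi.add_apply, Pi.sub_apply, Pi.single_eq_same]
      omega
    · simp [h]⟩
  obtain rfl : k + Pi.single v 1 = m' := add_right_cancel (by rwa [add_right_comm] at g3)
  rw [sum_add_single] at g1
  rw [OK_add] at h4
  have g5 := hα k u v (by omega)
    ((h4.nb (Or.inr (by simp)) (Or.inr (by simp))).resolve_left huv) h4
  have g6 := hφ k u (by omega) (h4.mono (by simp))
  have g7 := hφ k v (by omega) (h4.mono (by simp))
  linarith

theorem coh_base [Fintype V] (hG : Good G) (n : ℕ) : ∀ α : (V → ℕ) → V → ℝ,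
    (∀ m u v, ∑ x, m x = n → G.Adj u v → OK G m {u, v} →
      α m u + α (m + Pi.single u 1) v = α m v + α (m + Pi.single v 1) u) →
    ∃ φ : (V → ℕ) → ℝ, ∀ m v, ∑ x, m x = n → OK G m {v} →
      α m v = φ (m + Pi.single v 1) - φ m := by
  induction n with
  | zero =>
    refine fun α _ => ⟨fun m => ∑ x, m x * α 0 x, fun m v hm _ => ?_⟩
    obtain rfl : m = 0 := funext fun x => Finset.sum_eq_zero_iff.1 hm x (Finset.mem_univ x)
    simp [Pi.single_apply]
  | succ n ih =>
    intro α hα
    have hα' : ∀ m u v, ∑ x, m x = n + 1 → OK G m {u, v} →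
        α m u + α (m + Pi.single u 1) v = α m v + α (m + Pi.single v 1) u := fun m u v h1 h2 => by
      rcases h2.nb (u := u) (v := v) (Or.inr (by simp)) (Or.inr (by simp)) with rfl | h
      · rfl
      · exact hα m u v h1 h h2
    have co : ∀ m u v w, ∑ x, m x = n → OK G m {u, v, w} →
        (α (m + Pi.single v 1) u - α (m + Pi.single u 1) v) +
          (α (m + Pi.single w 1) v - α (m + Pi.single v 1) w) =
          α (m + Pi.single w 1) u - α (m + Pi.single u 1) w := fun m u v w h1 h2 => by
      have e1 := hα' _ v w (by rw [sum_add_single, h1]) (OK_add.2 h2)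
      have e2 := hα' (m + Pi.single v 1) u w (by rw [sum_add_single, h1])
        (OK_add.2 (h2.mono (by simp [Set.insert_subset_iff])))
      have e3 := hα' (m + Pi.single w 1) u v (by rw [sum_add_single, h1])
        (OK_add.2 (h2.mono (by simp [Set.insert_subset_iff])))
      rw [add_right_comm m (Pi.single v 1) (Pi.single u 1)] at e2
      rw [add_right_comm m (Pi.single w 1) (Pi.single u 1),
        add_right_comm m (Pi.single w 1) (Pi.single v 1)] at e3
      linarith
    have ex : ∀ m : V → ℕ, ∃ θ : V → ℝ, ∑ x, m x = n → ∀ u v, G.Adj u v → OK G m {u, v} →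
        α (m + Pi.single v 1) u - α (m + Pi.single u 1) v = θ u - θ v := fun m => by
      by_cases h1 : ∑ x, m x = n
      swap
      · exact ⟨0, fun h => absurd h h1⟩
      by_cases h0 : m = 0
      · obtain ⟨θ, hθ⟩ := coh_flag hG
          (fun u v => α (m + Pi.single v 1) u - α (m + Pi.single u 1) v) fun u v w a b c => by
            refine co m u v w h1 ?_
            subst h0
            have s : ∀ x y, Nb G x y → x ≠ y → G.Adj x y := fun x y h h' => h.resolve_left h'
            have s' : ∀ x y, Nb G x y → y ≠ x → G.Adj y x := fun x y h h' => (s x y h h'.symm).symm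
            rintro x (hx | rfl | rfl | rfl) y (hy | rfl | rfl | rfl) hxy <;>
              first | exact absurd rfl ‹_› | exact s _ _ ‹_› hxy | exact s' _ _ ‹_› hxy
        exact ⟨θ, fun _ u v h _ => hθ u v h⟩
      · obtain ⟨w, hw⟩ := Function.ne_iff.1 h0
        refine ⟨fun u => α (m + Pi.single w 1) u - α (m + Pi.single u 1) w, fun _ u v _ h => ?_⟩
        refine eq_sub_of_add_eq (co m u v w h1 (h.subset ?_))
        rintro x (hx | rfl | rfl | rfl)
        exacts [Or.inl hx, Or.inr (by simp), Or.inr (by simp), Or.inl hw]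
    choose θ hθ using ex
    have sq : ∀ m u v, ∑ x, m x = n → G.Adj u v → OK G m {u, v} →
        (fun m v => if ∑ x, m x = n then θ m v else α m v) m u +
          (fun m v => if ∑ x, m x = n then θ m v else α m v) (m + Pi.single u 1) v =
        (fun m v => if ∑ x, m x = n then θ m v else α m v) m v +
          (fun m v => if ∑ x, m x = n then θ m v else α m v) (m + Pi.single v 1) u := by
      intro m u v h1 h2 h3
      simp only [sum_add_single, h1, if_true, Nat.add_one_ne_self, if_false]
      linarith [hθ m h1 u v h2 h3]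
    obtain ⟨φ, hφ⟩ := ih _ sq
    obtain ⟨ψ, hψ⟩ := coh_up sq hφ
    refine ⟨ψ, fun m v h1 h2 => ?_⟩
    rw [← hψ m v (by omega) h1.le h2, if_neg (by omega)]

theorem coh_slab [Fintype V] (hG : Good G) (n : ℕ) (α : (V → ℕ) → V → ℝ)
    (hα : ∀ m u v, ∑ x, m x = n → G.Adj u v → OK G m {u, v} →
      α m u + α (m + Pi.single u 1) v = α m v + α (m + Pi.single v 1) u) :
    ∃ φ : (V → ℕ) → ℝ, ∀ m v, n ≤ ∑ x, m x → ∑ x, m x ≤ n + 1 → OK G m {v} →
      α m v = φ (m + Pi.single v 1) - φ m := by
  obtain ⟨φ, hφ⟩ := coh_base hG n α hα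
  exact coh_up hα hφ

end Vale.Agent.P173
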