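import Vale.Agent.P173.Alg
import Mathlib.Analysis.Normed.Module.FiniteDimension
import Mathlib.Topology.UnitInterval
import Mathlib.LinearAlgebra.LinearIndependent.Lemmas

/-! The deformation of the right hand sides of the equations. -/

open Quaternion unitInterval

namespace Vale.Agent.P173

lemma S3.norm_sub_one_sq (u : S3) : ‖(u : ℍ[ℝ]) - 1‖ ^ 2 = 2 - 2 * (u : ℍ[ℝ]).re := by
  have h : normSq (u : ℍ[ℝ]) = 1 := by rw [normSq_eq_norm_mul_self, u.norm_coe, one_mul]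
  rw [sq, ← normSq_eq_norm_mul_self]
  rw [normSq_def'] at h ⊢
  simp only [re_sub, imI_sub, imJ_sub, imK_sub, re_one, imI_one, imJ_one, imK_one]
  linarith

lemma S3.norm_im_sq (u : S3) : ‖(u : ℍ[ℝ]).im‖ ^ 2 = 1 - (u : ℍ[ℝ]).re ^ 2 := by
  have h : normSq (u : ℍ[ℝ]) = 1 := by rw [normSq_eq_norm_mul_self, u.norm_coe, one_mul]
  rw [sq, ← normSq_eq_norm_mul_self]
  rw [normSq_def'] at h ⊢
  simp only [re_im, imI_im, imJ_im, imK_im]
  linarith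

lemma S3.norm_sub_one_le_im (u : S3) (h : ‖(u : ℍ[ℝ]) - 1‖ ≤ 1) :
    ‖(u : ℍ[ℝ]) - 1‖ ≤ 2 * ‖(u : ℍ[ℝ]).im‖ := by
  have h1 := u.norm_sub_one_sq
  have h2 := u.norm_im_sq
  have h0 := norm_nonneg ((u : ℍ[ℝ]) - 1)
  have h3 : ‖(u : ℍ[ℝ]) - 1‖ ^ 2 ≤ 1 := by nlinarith
  refine (abs_le_of_sq_le_sq' ?_ (by positivity)).2
  rw [mul_pow, h2]
  nlinarith [mul_nonneg (show 0 ≤ 1 - (u : ℍ[ℝ]).re by nlinarith)
    (show 0 ≤ (u : ℍ[ℝ]).re by linarith)]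

/-- First and second order closeness to one. -/
def Ap (D k : ℝ) (p : S3) (y : ℍ[ℝ]) : Prop :=
  ‖(p : ℍ[ℝ]) - 1‖ ≤ k * D ∧ ‖(p : ℍ[ℝ]) - 1 - y‖ ≤ (k * D) ^ 2

lemma Ap.mul {D k k' : ℝ} {p q : S3} {y y' : ℍ[ℝ]} (h : Ap D k p y) (h' : Ap D k' q y') :
    Ap D (k + k') (p * q) (y + y') := by
  have h0 := (norm_nonneg _).trans h.1
  have h0' := (norm_nonneg _).trans h'.1
  constructor
  · have : ((p * q : S3) : ℍ[ℝ]) - 1 = p * (q - 1) + (p - 1) := by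
      rw [S3.coe_mul]; noncomm_ring
    rw [this]
    refine (norm_add_le _ _).trans ?_
    rw [norm_mul, p.norm_coe]
    linarith [h.1, h'.1]
  · have : ((p * q : S3) : ℍ[ℝ]) - 1 - (y + y') =
        (p - 1) * (q - 1) + ((p - 1 - y) + (q - 1 - y')) := by
      rw [S3.coe_mul]; noncomm_ring
    rw [this]
    refine (norm_add_le _ _).trans ((add_le_add le_rfl (norm_add_le _ _)).trans ?_)
    rw [norm_mul]
    have := mul_le_mul h.1 h'.1 (norm_nonneg _) h0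
    nlinarith [h.2, h'.2, mul_nonneg h0 h0']

lemma Ap.inv {D k : ℝ} {p : S3} {y : ℍ[ℝ]} (h : Ap D k p y) : Ap D (2 * k) p⁻¹ (-y) := by
  have h0 := (norm_nonneg _).trans h.1
  have e : (p : ℍ[ℝ])⁻¹ * p = 1 := inv_mul_cancel₀ p.coe_ne_zero
  have h1 : ‖((p⁻¹ : S3) : ℍ[ℝ]) - 1‖ = ‖(p : ℍ[ℝ]) - 1‖ := by
    have : ((p⁻¹ : S3) : ℍ[ℝ]) - 1 = (p⁻¹ : S3) * (1 - p) := by
      rw [S3.coe_inv, mul_sub, e, mul_one]
    rw [this, norm_mul, S3.norm_coe, one_mul, norm_sub_rev]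
  constructor
  · rw [h1]; linarith [h.1]
  · have : ((p⁻¹ : S3) : ℍ[ℝ]) - 1 - -y =
        -(((p⁻¹ : S3) - 1) * (p - 1)) + -(p - 1 - y) := by
      rw [S3.coe_inv, sub_mul, mul_sub, e]; noncomm_ring
    rw [this]
    refine (norm_add_le _ _).trans ?_
    rw [norm_neg, norm_neg, norm_mul, h1]
    have := mul_le_mul h.1 h.1 (norm_nonneg _) h0
    nlinarith [h.2]

/-- Interpolation towards one. -/
noncomputable def ip (t : ℝ) (u : S3) : S3 := nrm ((1 - t) • (u : ℍ[ℝ]) + t • (1 : ℍ[ℝ]))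

@[simp] lemma ip_zero (u : S3) : ip 0 u = u := by simp [ip, nrm_coe]

@[simp] lemma ip_one (u : S3) : ip 1 u = 1 := by simp [ip, nrm_one]

lemma ip_re {t : ℝ} (h0 : 0 ≤ t) (h1 : t ≤ 1) (u : S3) :
    1 - ‖(u : ℍ[ℝ]) - 1‖ ^ 2 / 2 ≤ ((1 - t) • (u : ℍ[ℝ]) + t • (1 : ℍ[ℝ])).re := by
  have := u.norm_sub_one_sq
  have h2 := sq_nonneg ‖(u : ℍ[ℝ]) - 1‖
  simp only [re_add, re_smul, re_one, smul_eq_mul]
  nlinarith

lemma ip_ne {t : ℝ} (h0 : 0 ≤ t) (h1 : t ≤ 1) {u : S3} (h : t = 0 ∨ ‖(u : ℍ[ℝ]) - 1‖ ≤ 1) :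
    (1 - t) • (u : ℍ[ℝ]) + t • (1 : ℍ[ℝ]) ≠ 0 := by
  rcases h with rfl | h
  · simpa using u.coe_ne_zero
  · intro e
    have := ip_re h0 h1 u
    rw [e, re_zero] at this
    nlinarith [norm_nonneg ((u : ℍ[ℝ]) - 1)]

lemma ap_ip {t D : ℝ} (h0 : 0 ≤ t) (h1 : t ≤ 1) {u : S3} (h : ‖(u : ℍ[ℝ]) - 1‖ ≤ D)
    (hD : D ≤ 1) : Ap D 2 (ip t u) ((1 - t) • (u : ℍ[ℝ]).im) := by
  have hn := norm_nonneg ((u : ℍ[ℝ]) - 1)
  have hsq : ‖(u : ℍ[ℝ]) - 1‖ ^ 2 ≤ D ^ 2 := by nlinarith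
  obtain ⟨p, hp⟩ : ∃ p, p = (1 - t) • (u : ℍ[ℝ]) + t • (1 : ℍ[ℝ]) := ⟨_, rfl⟩
  have a1 : ‖p‖ ≤ 1 := by
    rw [hp]
    refine (norm_add_le _ _).trans ?_
    rw [norm_smul, norm_smul, u.norm_coe, norm_one, Real.norm_of_nonneg h0,
      Real.norm_of_nonneg (sub_nonneg.2 h1)]
    linarith
  have a2 : p.re ≤ ‖p‖ := by
    refine (abs_le_of_sq_le_sq' ?_ (norm_nonneg _)).2
    rw [sq ‖p‖, ← normSq_eq_norm_mul_self, normSq_def']
    nlinarith [sq_nonneg p.imI, sq_nonneg p.imJ, sq_nonneg p.imK]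
  have a3 := ip_re h0 h1 u
  have a4 : ‖(ip t u : ℍ[ℝ]) - p‖ ≤ D ^ 2 / 2 := by
    rw [ip, ← hp, norm_nrm_sub (hp ▸ ip_ne h0 h1 (Or.inr (h.trans hD))),
      abs_of_nonneg (sub_nonneg.2 a1)]
    rw [← hp] at a3
    linarith
  constructor
  · have : (ip t u : ℍ[ℝ]) - 1 = (ip t u - p) + (1 - t) • ((u : ℍ[ℝ]) - 1) := by
      rw [hp]; module
    rw [this]
    refine (norm_add_le _ _).trans ?_
    rw [norm_smul, Real.norm_of_nonneg (sub_nonneg.2 h1)]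
    nlinarith
  · have : (ip t u : ℍ[ℝ]) - 1 - (1 - t) • (u : ℍ[ℝ]).im =
        (ip t u - p) + ((1 - t) * ((u : ℍ[ℝ]).re - 1)) • (1 : ℍ[ℝ]) := by
      rw [hp]; ext <;> simp <;> ring
    rw [this]
    refine (norm_add_le _ _).trans ?_
    have h2 := u.norm_sub_one_sq
    rw [norm_smul, norm_one, mul_one, Real.norm_eq_abs, abs_of_nonpos (by nlinarith)]
    nlinarith

lemma exists_forest {V Ed : Type*} (src tgt : Ed → V) : ∃ Tr : Set Ed,
    LinearIndepOn ℤ (fun e => (Finsupp.single (src e) 1 - Finsupp.single (tgt e) 1 : V →₀ ℤ)) Tr ∧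
      ∀ φ : V → ℝ, (∀ e ∈ Tr, φ (tgt e) = φ (src e)) → ∀ e, φ (tgt e) = φ (src e) := by
  obtain ⟨Tr, h1, h2⟩ := exists_maximal_linearIndepOn ℤ
    fun e => (Finsupp.single (src e) 1 - Finsupp.single (tgt e) 1 : V →₀ ℤ)
  refine ⟨Tr, h1, fun φ hφ e => ?_⟩
  by_cases he : e ∈ Tr
  · exact hφ e he
  obtain ⟨a, ha, hm⟩ := h2 e he
  have : Submodule.span ℤ ((fun e => (Finsupp.single (src e) 1 - Finsupp.single (tgt e) 1 :
      V →₀ ℤ)) '' Tr) ≤ LinearMap.ker (Finsupp.linearCombination ℤ φ) := by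
    rw [Submodule.span_le]
    rintro _ ⟨e', he', rfl⟩
    simp [hφ e' he']
  have h3 := this hm
  simp only [LinearMap.mem_ker, map_smul, map_sub, Finsupp.linearCombination_single, one_smul,
    smul_eq_zero, ha, false_or] at h3
  linarith

variable {Γ E T : Type*} [Group Γ] {a : E → Γ} {t : T → FreeGroup E} {ε : ℝ} (F : Fam a t ε)

/-- The holonomy around a face. -/
noncomputable def Fam.face (G : F.Ed → S3) (f : F.F) : S3 :=
  G (F.e1 f) * G (F.e2 f) * (G (F.e3 f))⁻¹ * (G (F.e4 f))⁻¹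

/-- The linearised holonomy. -/
noncomputable def Fam.Wm : (F.Ed → ℍ[ℝ]) →ₗ[ℝ] (F.F → ℍ[ℝ]) where
  toFun η f := η (F.e1 f) + η (F.e2 f) + -η (F.e3 f) + -η (F.e4 f)
  map_add' x y := by ext1 f; simp only [Pi.add_apply]; abel
  map_smul' c x := by ext1 f; simp

lemma Fam.ap_face {G : F.Ed → S3} {η : F.Ed → ℍ[ℝ]} {D : ℝ} (h : ∀ e, Ap D 2 (G e) (η e))
    (f : F.F) : Ap D 12 (F.face G f) (F.Wm η f) := by
  have := (((h (F.e1 f)).mul (h (F.e2 f))).mul (h (F.e3 f)).inv).mul (h (F.e4 f)).inv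
  norm_num at this
  exact this

variable {Tr : Set F.Ed}
  (hT : ∀ φ : F.V → ℝ, (∀ e ∈ Tr, φ (F.tgt e) = φ (F.src e)) → ∀ e, φ (F.tgt e) = φ (F.src e))
include hT

lemma Fam.coercive [Fintype F.Ed] [Fintype F.F] :
    ∃ c > 0, ∀ η : F.Ed → ℍ[ℝ], (∀ e ∈ Tr, η e = 0) → c * ‖η‖ ≤ ‖F.Wm η‖ := by
  let S : Submodule ℝ (F.Ed → ℍ[ℝ]) :=
    { carrier := {η | ∀ e ∈ Tr, η e = 0}
      add_mem' := fun hx hy e he => by simp [hx e he, hy e he]
      zero_mem' := fun _ _ => rfl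
      smul_mem' := fun c x hx e he => by simp [hx e he] }
  have key : ∀ α : F.Ed → ℝ, (∀ f, α (F.e1 f) + α (F.e2 f) + -α (F.e3 f) + -α (F.e4 f) = 0) →
      (∀ e ∈ Tr, α e = 0) → ∀ e, α e = 0 := by
    intro α h1 h2 e
    obtain ⟨φ, hφ⟩ := F.coh α fun f => by linarith [h1 f]
    rw [hφ, hT φ (fun e he => by linarith [h2 e he, hφ e]), sub_self]
  obtain ⟨K, hK, hA⟩ := (F.Wm.domRestrict S).exists_antilipschitzWith (by
    rw [LinearMap.ker_eq_bot']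
    rintro ⟨η, hη⟩ h
    have h' : ∀ f, η (F.e1 f) + η (F.e2 f) + -η (F.e3 f) + -η (F.e4 f) = 0 := congrFun h
    ext e
    · exact key (fun e => (η e).re) (fun f => by simpa using congrArg (·.re) (h' f))
        (fun e he => by simp [hη e he]) e
    · exact key (fun e => (η e).imI) (fun f => by simpa using congrArg (·.imI) (h' f))
        (fun e he => by simp [hη e he]) e
    · exact key (fun e => (η e).imJ) (fun f => by simpa using congrArg (·.imJ) (h' f))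
        (fun e he => by simp [hη e he]) e
    · exact key (fun e => (η e).imK) (fun f => by simpa using congrArg (·.imK) (h' f))
        (fun e he => by simp [hη e he]) e)
  refine ⟨(K : ℝ)⁻¹, by positivity, fun η hη => ?_⟩
  rw [inv_mul_le_iff₀ (by exact_mod_cast hK)]
  exact ZeroHomClass.bound_of_antilipschitz _ hA (⟨η, hη⟩ : S)

lemma Fam.gauge {u : F.Ed → S3} (hu : ∀ e ∈ Tr, u e = 1) {k : F.V → S3}
    (hk : ∀ e, u e = k (F.src e) * (k (F.tgt e))⁻¹) (e : F.Ed) : u e = 1 := by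
  have h : ∀ e ∈ Tr, k (F.tgt e) = k (F.src e) := fun e he =>
    (mul_inv_eq_one.1 ((hk e).symm.trans (hu e he))).symm
  rw [hk, mul_inv_eq_one]
  ext
  · exact (hT (fun v => (k v : ℍ[ℝ]).re) (fun e he => by rw [h e he]) e).symm
  · exact (hT (fun v => (k v : ℍ[ℝ]).imI) (fun e he => by rw [h e he]) e).symm
  · exact (hT (fun v => (k v : ℍ[ℝ]).imJ) (fun e he => by rw [h e he]) e).symm
  · exact (hT (fun v => (k v : ℍ[ℝ]).imK) (fun e he => by rw [h e he]) e).symm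

theorem Fam.design [Fintype F.Ed] [Fintype F.F] {ε₀ : ℝ} (h0 : 0 < ε₀) (h1 : ε₀ ≤ 1)
    (hε : 30 * ε ≤ ε₀) :
    ∃ (G : I × (F.Ed → S3) → F.Ed → S3) (ξ : I × (F.Ed → S3) → F.F → ℍ[ℝ]),
      Continuous G ∧ Continuous ξ ∧ (∀ u, G (0, u) = u) ∧ (∀ u, ξ (0, u) = 0) ∧
      (∀ p f, (ξ p f).re = 0) ∧ (∀ p, ‖ξ p‖ ≤ ε₀) ∧
      ∀ u, (∀ e ∈ Tr, u e = 1) →
        (∀ f, ‖(F.face (G (1, u)) f : ℍ[ℝ]) - 1 - ξ (1, u) f‖ ≤ ‖ξ (1, u)‖ / 2) →
        (ξ (1, u) = 0 → ∃ k : F.V → S3, ∀ e, G (1, u) e = k (F.src e) * (k (F.tgt e))⁻¹) →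
        False := by
  obtain ⟨c, hc, hco⟩ := F.coercive hT
  obtain ⟨ρ, hρ, ρ1, ρ2, ρ3⟩ : ∃ ρ > 0, ρ ≤ 1 / 2 ∧ ρ ≤ c / 2000 ∧ ρ ≤ ε₀ / 2000 :=
    ⟨min (1 / 2) (min (c / 2000) (ε₀ / 2000)), by positivity, min_le_left _ _,
      (min_le_right _ _).trans (min_le_left _ _), (min_le_right _ _).trans (min_le_right _ _)⟩
  obtain ⟨D, hD⟩ : ∃ D : (F.Ed → S3) → ℝ, ∀ u, D u = ‖fun e => (u e : ℍ[ℝ]) - 1‖ := ⟨_, fun _ => rfl⟩
  have cD : Continuous D := by rw [funext hD]; fun_prop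
  have lD : ∀ u e, ‖(u e : ℍ[ℝ]) - 1‖ ≤ D u := fun u e => by
    rw [hD]; exact norm_le_pi_norm (fun e => (u e : ℍ[ℝ]) - 1) e
  obtain ⟨η, hη⟩ : ∃ η : (F.Ed → S3) → F.Ed → ℍ[ℝ], ∀ u e, η u e = (u e : ℍ[ℝ]).im :=
    ⟨_, fun _ _ => rfl⟩
  have cW : Continuous fun u => F.Wm (η u) :=
    F.Wm.continuous_of_finiteDimensional.comp (continuous_pi fun e => by
      simp only [hη]; exact continuous_im.comp (by fun_prop))
  obtain ⟨θ, hθ⟩ : ∃ θ : I × (F.Ed → S3) → ℝ,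
      ∀ p, θ p = 2 * p.1 * max 0 (min 1 (2 - D p.2 / ρ)) := ⟨_, fun _ => rfl⟩
  have cθ : Continuous θ := by rw [funext hθ]; fun_prop
  have θ0 : ∀ p, 0 ≤ θ p := fun p => by rw [hθ]; have := p.1.2.1; positivity
  have θ2 : ∀ p, θ p ≤ 2 := fun p => by
    rw [hθ]
    have := mul_le_one₀ p.1.2.2 (le_max_left _ _)
      (max_le zero_le_one (min_le_left 1 (2 - D p.2 / ρ)))
    linarith
  have θz : ∀ p, 2 * ρ ≤ D p.2 → θ p = 0 := fun p h => by
    rw [hθ, max_eq_left ((min_le_right _ _).trans (by rwa [sub_nonpos, le_div_iff₀ hρ])), mul_zero]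
  have t0 : ∀ p, 0 ≤ min (θ p) 1 := fun p => le_min (θ0 p) zero_le_one
  have s0 : ∀ p, 0 ≤ min (2 - θ p) 1 := fun p => le_min (sub_nonneg.2 (θ2 p)) zero_le_one
  have near : ∀ e, ‖(F.g e : ℍ[ℝ]) - 1‖ ≤ ε₀ / 30 := fun e => (F.near e).trans (by linarith)
  have mpos : ∀ u, 0 < max ‖F.Wm (η u)‖ (c * ρ / 2) := fun u => lt_max_of_lt_right (by positivity)
  have nξ : ∀ p : I × (F.Ed → S3),
      ‖-(min (θ p) 1 * ε₀ / max ‖F.Wm (η p.2)‖ (c * ρ / 2)) • F.Wm (η p.2)‖ =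
      min (θ p) 1 * ε₀ * (‖F.Wm (η p.2)‖ / max ‖F.Wm (η p.2)‖ (c * ρ / 2)) := fun p => by
    rw [norm_smul, norm_neg, Real.norm_of_nonneg (div_nonneg (mul_nonneg (t0 p) h0.le) (mpos _).le)]
    ring
  refine ⟨fun p e => ip (min (θ p) 1) (p.2 e) * ip (min (2 - θ p) 1) (F.g e),
    fun p => -(min (θ p) 1 * ε₀ / max ‖F.Wm (η p.2)‖ (c * ρ / 2)) • F.Wm (η p.2),
    continuous_pi fun e => Continuous.mul ?_ ?_, ?_, fun u => ?_, fun u => ?_, fun p f => ?_,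
    fun p => ?_, fun u hu hf hk => ?_⟩
  · refine continuous_nrm (by fun_prop) fun p => ip_ne (t0 p) (min_le_right _ _) ?_
    rcases le_total (2 * ρ) (D p.2) with h | h
    · exact Or.inl (by rw [θz p h]; simp)
    · exact Or.inr ((lD _ _).trans (by linarith))
  · exact continuous_nrm (by fun_prop) fun p => ip_ne (s0 p) (min_le_right _ _)
      (Or.inr ((near e).trans (by linarith)))
  · have c2 := cW.comp (continuous_snd (X := I))
    exact (((cθ.min continuous_const).mul continuous_const).div (c2.norm.max continuous_const)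
      fun p => (mpos _).ne').neg.smul c2
  · ext1 e; simp [hθ]
  · simp [hθ]
  · simp [Fam.Wm, hη]
  · rw [nξ]
    have := mul_le_one₀ (min_le_right (θ p) 1) (div_nonneg (norm_nonneg _) (mpos p.2).le)
      ((div_le_one (mpos p.2)).2 (le_max_left _ _))
    nlinarith
  simp only at hf hk
  rcases le_or_gt (2 * ρ) (D u) with hA | hA
  · have e0 := θz (1, u) hA
    simp only [e0] at hk
    obtain ⟨k, hk⟩ := hk (by simp)
    have := F.gauge hT hu (k := k) fun e => by simpa using hk e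
    have h2 : D u = 0 := by rw [hD]; simp [this, Pi.zero_def]
    linarith
  rcases le_or_gt (D u) ρ with hB | hB
  · have e2 : θ (1, u) = 2 := by
      rw [hθ, min_eq_left (by rw [le_sub_comm, div_le_iff₀ hρ]; linarith)]; simp
    obtain ⟨ξ, hξ⟩ : ∃ ξ, ξ = -(min (θ (1, u)) 1 * ε₀ / max ‖F.Wm (η u)‖ (c * ρ / 2)) •
      F.Wm (η u) := ⟨_, rfl⟩
    rw [← hξ] at hf hk
    simp only [e2, sub_self, zero_le_one, min_eq_left, Nat.one_le_ofNat, min_eq_right, ip_one,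
      ip_zero, one_mul] at hf hk
    have h2 : ‖ξ‖ ≤ ‖ξ‖ / 2 := (pi_norm_le_iff_of_nonneg (by positivity)).2 fun f => by
      have h3 : F.face F.g f = 1 := by rw [Fam.face, F.flat]; group
      simpa [h3] using hf f
    exact F.nontriv (hk (norm_le_zero_iff.1 (by linarith)))
  have hN : c * D u / 2 ≤ ‖F.Wm (η u)‖ := by
    refine le_trans ?_ (hco _ fun e he => by simp [hη, hu e he])
    have : D u ≤ 2 * ‖η u‖ := by
      rw [hD]
      refine (pi_norm_le_iff_of_nonneg (by positivity)).2 fun e => ?_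
      refine ((u e).norm_sub_one_le_im ((lD u e).trans (by linarith))).trans ?_
      rw [← hη]
      linarith [norm_le_pi_norm (η u) e]
    nlinarith
  have hN' : c * ρ / 2 ≤ ‖F.Wm (η u)‖ := le_trans (by nlinarith) hN
  have hN0 : 0 < ‖F.Wm (η u)‖ := lt_of_lt_of_le (by positivity) hN'
  have n1 := nξ (1, u)
  simp only [max_eq_left hN', div_self hN0.ne', mul_one] at n1 hf
  rw [n1] at hf
  have t1 := t0 (1, u)
  rcases le_total (θ (1, u)) 1 with hC | hC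
  · rw [min_eq_right (by linarith : 1 ≤ 2 - θ (1, u)), min_eq_left hC] at hf
    rw [min_eq_left hC] at t1
    obtain ⟨τ, hτ⟩ : ∃ τ, τ = θ (1, u) := ⟨_, rfl⟩
    rw [← hτ] at hf hC t1
    simp only [ip_one, mul_one] at hf
    have key : ‖((1 - τ) + τ * ε₀ / ‖F.Wm (η u)‖) • F.Wm (η u)‖ ≤
        (12 * D u) ^ 2 + τ * ε₀ / 2 := by
      refine (pi_norm_le_iff_of_nonneg (by positivity)).2 fun f => ?_
      have h2 := (F.ap_face (η := (1 - τ) • η u) (fun e => by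
        simpa only [Pi.smul_apply, hη] using ap_ip t1 hC (lD u e) (by linarith)) f).2
      have := norm_sub_le_of_le (hf f) h2
      rw [add_comm] at this
      refine le_of_eq_of_le ?_ this
      congr 1
      simp only [map_smul, Pi.smul_apply, add_smul, neg_smul, Pi.neg_apply]
      abel
    rw [norm_smul, Real.norm_of_nonneg (add_nonneg (sub_nonneg.2 hC) (by positivity)), add_mul,
      div_mul_cancel₀ _ hN0.ne'] at key
    have a1 : 1000 * ρ ^ 2 ≤ ‖F.Wm (η u)‖ := le_trans (by nlinarith) hN'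
    have a2 : 1000 * ρ ^ 2 ≤ ε₀ / 2 := by nlinarith
    have a3 : (12 * D u) ^ 2 ≤ 576 * ρ ^ 2 := by nlinarith
    nlinarith [mul_le_mul_of_nonneg_left a1 (sub_nonneg.2 hC), mul_le_mul_of_nonneg_left a2 t1,
      pow_pos hρ 2]
  · rw [min_eq_right hC] at hf n1
    simp only [ip_one, one_mul] at hf n1
    have key : ‖-(ε₀ / ‖F.Wm (η u)‖) • F.Wm (η u)‖ ≤ 12 * (ε₀ / 30) + ε₀ / 2 := by
      refine (pi_norm_le_iff_of_nonneg (by positivity)).2 fun f => ?_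
      have h2 := (F.ap_face (fun e => ap_ip (s0 (1, u)) (min_le_right _ _) (near e)
        (by linarith)) f).1
      have := norm_sub_le_of_le h2 (hf f)
      rwa [sub_sub_cancel] at this
    linarith

end Vale.Agent.P173
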