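import Vale.Agent.P173.AttBasic
import Vale.Agent.P173.Circ

/-! Extending a cocycle over 2-cells whose attaching loops lift. -/

open Set Topology unitInterval

namespace Vale.Agent.P173

theorem ext_ret : ∃ r : Bl 2 → {z : Bl 2 // ‖z.1‖ = 1},
    ∀ z, z ≠ Bl.o 2 → (r z).1 = rad z 1 ∧ ContinuousAt r z := by
  classical
  have h0 : ∀ z : Bl 2, z ≠ Bl.o 2 → ‖z.1‖ ≠ 0 := fun z hz h =>
    hz (Subtype.ext (norm_eq_zero.1 h))
  have h1 : ∀ z : Bl 2, (rad z 1).1 = ‖z.1‖⁻¹ • z.1 := fun z => by simp [rad]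
  have h2 : ∀ z : Bl 2, z ≠ Bl.o 2 → ‖(rad z 1).1‖ = 1 := fun z hz => by
    rw [h1, norm_smul, norm_inv, norm_norm, inv_mul_cancel₀ (h0 z hz)]
  refine ⟨fun z => if hz : ‖(rad z 1).1‖ = 1 then ⟨rad z 1, hz⟩ else ⟨circF 0, norm_circF 0⟩,
    fun z hz => ⟨by simp only [dif_pos (h2 z hz)], ?_⟩⟩
  refine (IsInducing.subtypeVal (t := {z : Bl 2 | ‖z.1‖ = 1})).continuousAt_iff.2
    (IsInducing.subtypeVal.continuousAt_iff.2 ?_)
  have h3 : ContinuousAt (fun z : Bl 2 => ‖z.1‖⁻¹ • z.1) z :=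
    (continuous_subtype_val.norm.continuousAt.inv₀ (h0 z hz)).smul
      continuous_subtype_val.continuousAt
  refine h3.congr ((isOpen_ne.mem_nhds hz : {u | u ≠ Bl.o 2} ∈ 𝓝 z) |> Filter.mem_of_superset <|
    fun u hu => ?_)
  simp only [mem_ofPred_eq, Function.comp_apply, dif_pos (h2 u hu)]
  exact (h1 u).symm

theorem Att.extend {X C H J T : Type*} [TopologicalSpace X] [Group H] [TopologicalSpace T]
    {A : Set X} {Φ : C → C(Bl 2, X)} (h : Att 2 A Φ) {K : Coc A H J} {p : T → A} {κ : J → T → H}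
    (hc : K.Cov p κ) (hl : ∀ c, ∃ δ : C(I, T), (∀ t, p (δ t) = h.loop c t) ∧ δ 1 = δ 0) :
    ∃ K' : Coc X H (Option J), (∀ i (a : A), a.1 ∈ K'.U (some i) ↔ a ∈ K.U i) ∧
      ∀ i j (a : A), K'.c (some i) (some j) a.1 = K.c i j a := by
  classical
  obtain ⟨R, hR, -, h1, h2, h3⟩ := h.exists_deform
  let ρ : X → A := fun x => if hx : x ∈ offC Φ then ⟨R (x, 1), h1 x hx⟩ else
    ⟨_, (h.joined two_ne_zero x).choose_spec.1⟩
  have hρ : ∀ x ∈ offC Φ, (ρ x).1 = R (x, 1) := fun x hx => by simp only [ρ, dif_pos hx]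
  have hρc : ∀ x ∈ offC Φ, ContinuousAt ρ x := fun x hx => by
    rw [IsInducing.subtypeVal.continuousAt_iff]
    have h4 : ContinuousOn (fun x => R (x, 1)) (offC Φ) :=
      hR.comp (f := fun x : X => (x, (1 : I))) (by fun_prop) fun x hx => ⟨hx, trivial⟩
    exact (h4.congr hρ).continuousAt (h.isOpen_offC.mem_nhds hx)
  have hρA : ∀ a : A, ρ a = a := fun a =>
    Subtype.ext ((hρ _ (h.subset_offC a.2)).trans (h2 _ a.2 _))
  choose δ hδ1 hδ2 using hl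
  choose f hf using fun c => circ_descend (δ c) (hδ2 c)
  obtain ⟨r, hr⟩ := ext_ret
  have hp : ∀ c z, z ≠ Bl.o 2 → p (f c (r z)) = ρ (Φ c z) := fun c z hz => by
    obtain ⟨t, ht⟩ := circ_surj _ (r z).2
    have h4 : r z = ⟨circF t, norm_circF t⟩ := Subtype.ext ht.symm
    rw [h4, hf, hδ1]
    refine Subtype.ext ?_
    rw [hρ _ ((h.mem_offC c z).2 hz), h3, ← (hr z hz).1, ← ht]
    rfl
  let k : J → X → H := fun i x => if hx : ∃ q : C × Bl 2, ‖q.2.1‖ < 1 ∧ Φ q.1 q.2 = x then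
    κ i (f hx.choose.1 (r hx.choose.2)) else 1
  have hk : ∀ i c z, ‖z.1‖ < 1 → k i (Φ c z) = κ i (f c (r z)) := fun i c z hz => by
    have hx : ∃ q : C × Bl 2, ‖q.2.1‖ < 1 ∧ Φ q.1 q.2 = Φ c z := ⟨(c, z), hz, rfl⟩
    obtain ⟨h4, h5⟩ := h.inj _ _ _ _ hx.choose_spec.1 hx.choose_spec.2
    simp only [k, dif_pos hx]
    rw [h4, h5]
  have hO : IsOpen {z : Bl 2 | ‖z.1‖ < 1} := isOpen_lt (by fun_prop) continuous_const
  have hlc : ∀ i x, x ∈ ⋃ c, Φ c '' {z | ‖z.1‖ < 1} → x ∈ offC Φ ∩ ρ ⁻¹' K.U i →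
      ∀ᶠ y in 𝓝 x, k i y = k i x := by
    intro i x h4 h5
    obtain ⟨c, z, hz, rfl⟩ := mem_iUnion.1 h4
    have h6 := (h.mem_offC c z).1 h5.1
    rw [← h.map_nhds c hz, Filter.eventually_map, hk i c z hz]
    filter_upwards [hO.mem_nhds hz, ((f c).continuous.continuousAt.comp (hr z h6).2).eventually
      (hc.lc i _ (mem_of_eq_of_mem (hp c z h6) h5.2))] with u h7 h8
    rw [hk i c u h7]
    exact h8
  have htr : ∀ i j x, x ∈ ⋃ c, Φ c '' {z | ‖z.1‖ < 1} → x ∈ offC Φ ∩ ρ ⁻¹' K.U i →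
      x ∈ offC Φ ∩ ρ ⁻¹' K.U j → k j x = k i x * K.c i j (ρ x) := by
    intro i j x h4 h5 h6
    obtain ⟨c, z, hz, rfl⟩ := mem_iUnion.1 h4
    have h7 := hp c z ((h.mem_offC c z).1 h5.1)
    rw [hk i c z hz, hk j c z hz, ← h7]
    exact hc.tr i j _ (mem_of_eq_of_mem h7 h5.2) (mem_of_eq_of_mem h7 h6.2)
  refine ⟨⟨fun o => o.elim (⋃ c, Φ c '' {z | ‖z.1‖ < 1}) fun i => offC Φ ∩ ρ ⁻¹' K.U i,
    fun o => ?_, fun x => ?_,
    fun o o' x => o.elim (o'.elim 1 fun j => k j x) fun i =>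
      o'.elim (k i x)⁻¹ fun j => K.c i j (ρ x), fun o o' x hi hj => ?_,
    fun o o' o'' x hi hj hk => ?_⟩, fun i a => ?_, fun i j a => ?_⟩
  · cases o
    · exact isOpen_iUnion fun c => h.isOpen_image c hO fun _ hz => hz
    · exact ContinuousOn.isOpen_inter_preimage (fun x hx => (hρc x hx).continuousWithinAt)
        h.isOpen_offC (K.op _)
  · by_cases hx : x ∈ A
    · obtain ⟨i, hi⟩ := K.cov (ρ x)
      exact ⟨some i, h.subset_offC hx, hi⟩
    · obtain ⟨c, z, rfl⟩ := (h.cover x).resolve_left hx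
      exact ⟨none, mem_iUnion.2 ⟨c, z, lt_of_le_of_ne z.norm_le fun h4 => hx ((h.mem c z).2 h4),
        rfl⟩⟩
  · cases o <;> cases o'
    · simp
    · exact hlc _ x hi hj
    · exact (hlc _ x hj hi).mono fun y hy => congrArg (·⁻¹) hy
    · exact (hρc x hi.1).eventually (K.lc _ _ _ hi.2 hj.2)
  · cases o <;> cases o' <;> cases o'' <;> simp only [Option.elim]
    · exact one_mul _
    · exact one_mul _
    · exact mul_inv_cancel _
    · exact (htr _ _ x hi hj hk).symm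
    · exact mul_one _
    · rw [htr _ _ x hj hi hk, inv_mul_cancel_left]
    · rw [htr _ _ x hk hi hj, mul_inv_rev, mul_inv_cancel_left]
    · exact K.co _ _ _ _ hi.2 hj.2 hk.2
  · simp only [Option.elim, mem_inter_iff, mem_preimage, hρA, h.subset_offC a.2, true_and]
  · simp only [Option.elim, hρA]

end Vale.Agent.P173
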