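import Vale.Agent.P173.Coh

/-! Scaled copies of the flag complex with almost trivial flat connections. -/

open Quaternion

namespace Vale.Agent.P173

variable {V : Type} [LinearOrder V] {G : SimpleGraph V}

variable (G) in
/-- The group element with exponent vector `m`. -/
noncomputable def famP [Fintype V] (m : V → ℕ) : RA G :=
  (Finset.univ.toList.map fun x => gen G x ^ m x).prod

omit [LinearOrder V] in
theorem famP_map [Fintype V] {M : Type} [CommMonoid M] (φ : RA G →* M) (m : V → ℕ) :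
    φ (famP G m) = ∏ x, φ (gen G x) ^ m x := by
  rw [famP, map_list_prod, List.map_map, Finset.prod_map_toList]
  simp

omit [LinearOrder V] in
theorem ht_famP [Fintype V] (m : V → ℕ) : ht G (famP G m) = ∑ x, m x := by
  simp [ht, famP_map, htH, toAdd_prod]

theorem famP_inj [Fintype V] : Function.Injective (famP G) := fun m m' h => funext fun v => by
  have := congrArg (fun g => (RA.lift G (fun x => Multiplicative.ofAdd (if x = v then (1 : ℤ) else 0))
    (fun _ _ _ => Commute.all _ _) g).toAdd) h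
  simpa [famP_map, toAdd_prod] using this

theorem famP_add [Fintype V] {m : V → ℕ} {v : V} (h : OK G m {v}) :
    famP G (m + Pi.single v 1) = famP G m * gen G v := by
  have hc : ∀ x, Commute (gen G v) (gen G x ^ m x) := fun x => by
    by_cases hx : m x = 0
    · rw [hx, pow_zero]
      exact Commute.one_right _
    · rcases h.nb (u := v) (v := x) (Or.inr rfl) (Or.inl hx) with rfl | H
      · exact (Commute.refl _).pow_right _
      · exact (gen_comm G H).pow_right _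
  have key : ∀ l : List V, l.Nodup →
      (l.map fun x => gen G x ^ (m + Pi.single v 1 : V → ℕ) x).prod =
        (l.map fun x => gen G x ^ m x).prod * if v ∈ l then gen G v else 1 := by
    intro l hl
    induction l with
    | nil => simp
    | cons x l ih =>
      rw [List.nodup_cons] at hl
      rw [List.map_cons, List.map_cons, List.prod_cons, List.prod_cons, ih hl.2]
      by_cases hx : x = v
      · subst hx
        have : Commute (gen G x) (l.map fun y => gen G y ^ m y).prod :=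
          Commute.list_prod_right _ _ fun y hy => by
            obtain ⟨z, -, rfl⟩ := List.mem_map.1 hy
            exact hc z
        simp [hl.1, pow_succ, mul_assoc, this.eq]
      · simp [hx, Ne.symm hx, mul_assoc]
  simpa [famP] using key _ (Finset.nodup_toList Finset.univ)

theorem fam_near {a b : ℍ[ℝ]} (ha : a ≠ 0) (hb : a + b ≠ 0) :
    ‖(((nrm a)⁻¹ * nrm (a + b) : S3) : ℍ[ℝ]) - 1‖ ≤ 2 * ‖b‖ / ‖a‖ := by
  have h0 : 0 < ‖a‖⁻¹ := inv_pos.2 (norm_pos_iff.2 ha)
  have h1 : ‖a‖⁻¹ • (a + b) ≠ 0 := smul_ne_zero h0.ne' hb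
  have h2 : (nrm (a + b) : ℍ[ℝ]) = nrm (‖a‖⁻¹ • (a + b)) := by
    rw [coe_nrm hb, coe_nrm h1, norm_smul, smul_smul, Real.norm_of_nonneg h0.le, mul_inv_rev,
      inv_mul_cancel_right₀ h0.ne']
  have h3 : ‖‖a‖⁻¹ • (a + b) - (nrm a : ℍ[ℝ])‖ = ‖b‖ / ‖a‖ := by
    rw [coe_nrm ha, ← smul_sub, add_sub_cancel_left, norm_smul, Real.norm_of_nonneg h0.le,
      div_eq_inv_mul]
  have h4 := norm_nrm_sub h1
  have h5 := abs_norm_sub_norm_le (nrm a : ℍ[ℝ]) (‖a‖⁻¹ • (a + b))
  have h6 := norm_sub_le_norm_sub_add_norm_sub (nrm (‖a‖⁻¹ • (a + b)) : ℍ[ℝ]) (‖a‖⁻¹ • (a + b))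
    (nrm a)
  rw [S3.norm_coe, norm_sub_rev, h3, ← h4] at h5
  rw [S3.coe_mul, S3.coe_inv, ← inv_mul_cancel₀ (nrm a).coe_ne_zero, ← mul_sub, norm_mul, norm_inv,
    S3.norm_coe, inv_one, one_mul, h2, mul_div_assoc]
  linarith

/-- The interpolated section in the chart `u`. -/
noncomputable def famS [Fintype V] (ρ : V → V → S3) (u : V) (m : V → ℕ) : ℍ[ℝ] :=
  ∑ x, (m x : ℝ) • (ρ u x : ℍ[ℝ])

section rho

variable [Fintype V] {ρ : V → V → S3}
  (h1 : ∀ u v w, Nb G u v → Nb G v w → Nb G u w → ρ u v * ρ v w = ρ u w)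
  (h2 : ∀ u v, G.Adj u v → 0 ≤ (ρ u v : ℍ[ℝ]).re)
include h1

omit [LinearOrder V] [Fintype V] in
theorem fam_self (u : V) : ρ u u = 1 :=
  mul_eq_left.1 (h1 u u u (Or.inl rfl) (Or.inl rfl) (Or.inl rfl))

omit [LinearOrder V] in
theorem famS_chart {m : V → ℕ} {u w : V} (h : OK G m {u, w}) :
    famS ρ u m = ρ u w * famS ρ w m := by
  rw [famS, famS, Finset.mul_sum]
  refine Finset.sum_congr rfl fun x _ => ?_
  by_cases hx : m x = 0
  · simp [hx]
  · rw [mul_smul_comm, ← S3.coe_mul, h1 u w x (h.nb (Or.inr (by simp)) (Or.inr (by simp)))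
      (h.nb (Or.inr (by simp)) (Or.inl hx)) (h.nb (Or.inr (by simp)) (Or.inl hx))]

include h2

theorem famS_norm {m : V → ℕ} {u : V} (h : OK G m {u}) : (∑ x, m x : ℕ) ≤ ‖famS ρ u m‖ ^ 2 := by
  rw [← real_inner_self_eq_norm_sq]
  nth_rw 1 [famS]
  rw [sum_inner, Nat.cast_sum]
  refine Finset.sum_le_sum fun x _ => ?_
  by_cases hx : m x = 0
  · simp [hx]
  have e1 : OK G m {u, x} := h.subset (by
    rintro y (hy | rfl | rfl)
    exacts [Or.inl hy, Or.inr rfl, Or.inl hx])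
  have e2 : ∀ p q : ℍ[ℝ], inner ℝ p (p * q) = normSq p * q.re := fun p q => by
    simp [Quaternion.inner_def, normSq_def']
    ring
  have e3 : (m x : ℝ) ≤ (famS ρ x m).re := by
    have e4 : (famS ρ x m).re = ∑ y, (m y : ℝ) * (ρ x y : ℍ[ℝ]).re := by
      refine (map_sum (QuaternionAlgebra.reₗ (-1 : ℝ) 0 (-1)) _ _).trans ?_
      exact Finset.sum_congr rfl fun y _ => rfl
    rw [e4]
    refine le_trans (le_of_eq ?_) (Finset.single_le_sum (fun y _ => ?_) (Finset.mem_univ x))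
    · simp [fam_self h1]
    · by_cases hy : m y = 0
      · simp [hy]
      · refine mul_nonneg (Nat.cast_nonneg _) ?_
        rcases h.nb (Or.inl hx) (Or.inl hy) with rfl | H
        · simp [fam_self h1]
        · exact h2 _ _ H
  have e5 : (1 : ℝ) ≤ m x := by exact_mod_cast Nat.pos_of_ne_zero hx
  rw [real_inner_smul_left, famS_chart h1 e1, e2, normSq_eq_norm_mul_self, S3.norm_coe]
  nlinarith

theorem famS_ne {m : V → ℕ} {u : V} (h : OK G m {u}) (h0 : 1 ≤ ∑ x, m x) : famS ρ u m ≠ 0 :=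
  fun H => by
    have := famS_norm h1 h2 h
    rw [H, norm_zero, zero_pow two_ne_zero, Nat.cast_nonpos] at this
    omega

theorem famS_nrm {m : V → ℕ} {u w : V} (h : OK G m {u, w}) (h0 : 1 ≤ ∑ x, m x) :
    nrm (famS ρ u m) = ρ u w * nrm (famS ρ w m) := by
  rw [famS_chart h1 h, nrm_mul _ (famS_ne h1 h2 (h.mono (by simp)) h0)]

theorem famS_edge {m : V → ℕ} {u w : V} (h : OK G m {u, w}) (h0 : 1 ≤ ∑ x, m x) :
    (nrm (famS ρ w m))⁻¹ * nrm (famS ρ w (m + Pi.single w 1)) =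
      (nrm (famS ρ u m))⁻¹ * nrm (famS ρ u (m + Pi.single w 1)) := by
  rw [famS_nrm h1 h2 h h0, famS_nrm h1 h2 (OK_add.2 (h.mono (by simp)))
    (u := u) (w := w) (by rw [sum_add_single]; omega)]
  group

end rho

theorem exists_fam [Fintype V] (hG : Good G) (v₀ : V) {ε : ℝ} (hε : 0 < ε) :
    Nonempty (Fam (bS G v₀) (tS G v₀) ε) := by
  classical
  obtain ⟨ρ, h1, h2, h3⟩ := hG.rho
  obtain ⟨n, hn⟩ := exists_nat_gt ((2 / ε) ^ 2)
  have n1 : 1 ≤ n := Nat.cast_pos.1 ((sq_nonneg _).trans_lt hn)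
  have fV : {m : V → ℕ | ∑ x, m x ≤ n + 2}.Finite :=
    (Set.Finite.pi' fun _ => Set.finite_Iic (n + 2)).subset fun m hm x =>
      (Finset.single_le_sum (fun _ _ => Nat.zero_le _) (Finset.mem_univ x)).trans hm
  have s1 : ∀ {m : V → ℕ} {u v : V}, OK G m {u, v} → OK G m {u} := fun h => h.mono (by simp)
  have s2 : ∀ {m : V → ℕ} {u v : V}, OK G m {u, v} → OK G m {v} := fun h => h.mono (by simp)
  have s3 : ∀ {m : V → ℕ} {u v : V}, OK G m {u, v} → OK G m {v, u} := fun h => by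
    rwa [Set.pair_comm]
  have s4 : ∀ (m : V → ℕ) (u : V), ∑ x, m x = n → n ≤ ∑ x, (m + Pi.single u 1 : V → ℕ) x :=
    fun m u h => by rw [sum_add_single]; omega
  have s5 : ∀ (m : V → ℕ) (u : V), ∑ x, m x = n → ∑ x, (m + Pi.single u 1 : V → ℕ) x ≤ n + 1 :=
    fun m u h => by rw [sum_add_single]; omega
  refine ⟨{
    V := {m : V → ℕ // ∑ x, m x ≤ n + 2}
    Ed := {e : (V → ℕ) × V // n ≤ ∑ x, e.1 x ∧ ∑ x, e.1 x ≤ n + 1 ∧ OK G e.1 {e.2}}
    F := {f : (V → ℕ) × {p : V × V // p.1 < p.2 ∧ G.Adj p.1 p.2} //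
      ∑ x, f.1 x = n ∧ OK G f.1 {f.2.1.1, f.2.1.2}}
    finV := fV
    finE := (fV.prod Set.finite_univ).subset fun e he => ⟨he.2.1.trans (by omega), trivial⟩
    finF := (fV.prod Set.finite_univ).subset fun e he => ⟨he.1.le.trans (by omega), trivial⟩
    pos := fun m => ⟨(gen G v₀ ^ n)⁻¹ * famP G m.1 * gen G v₀ ^ ((n : ℤ) - (∑ x, m.1 x : ℕ)), by
      rw [mem_BB, ht_mul, ht_mul, ht_famP]; simp⟩
    src := fun e => ⟨e.1.1, e.2.2.1.trans (by omega)⟩
    tgt := fun e => ⟨e.1.1 + Pi.single e.1.2 1, by rw [sum_add_single]; have := e.2.2.1; omega⟩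
    lab := fun e => .of (⟨∑ x, e.1.1 x - n, by have := e.2.2.1; omega⟩, e.1.2)
    pos_tgt := ?_
    e1 := fun f => ⟨(f.1.1, f.1.2.1.1), f.2.1.ge, f.2.1.le.trans n.le_succ, s1 f.2.2⟩
    e2 := fun f => ⟨(f.1.1 + Pi.single f.1.2.1.1 1, f.1.2.1.2), s4 _ _ f.2.1,
      s5 _ _ f.2.1, OK_add.2 f.2.2⟩
    e3 := fun f => ⟨(f.1.1 + Pi.single f.1.2.1.2 1, f.1.2.1.1), s4 _ _ f.2.1,
      s5 _ _ f.2.1, OK_add.2 (s3 f.2.2)⟩
    e4 := fun f => ⟨(f.1.1, f.1.2.1.2), f.2.1.ge, f.2.1.le.trans n.le_succ, s2 f.2.2⟩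
    h14 := fun _ => rfl
    h12 := fun _ => rfl
    h43 := fun _ => rfl
    h23 := fun _ => Subtype.ext (add_right_comm _ _ _)
    typ := fun f => .inl f.1.2
    word := ?_
    inj := ?_
    coh := ?_
    g := fun e => (nrm (famS ρ e.1.2 e.1.1))⁻¹ * nrm (famS ρ e.1.2 (e.1.1 + Pi.single e.1.2 1))
    near := ?_
    flat := ?_
    nontriv := ?_ }⟩
  · rintro ⟨⟨m, v⟩, g1, g2, g3⟩
    obtain ⟨j, hj⟩ := Nat.exists_eq_add_of_le g1
    refine Subtype.ext ?_
    simp only [FreeGroup.lift_apply_of, bS, Subgroup.coe_mul, sum_add_single, famP_add g3] at hj ⊢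
    simp only [hj, Nat.add_sub_cancel_left]
    push_cast
    group
  · rintro ⟨⟨m, p⟩, g1, g2⟩
    simp only [sum_add_single] at g1 ⊢
    simp [tS, g1]
  · rintro ⟨⟨m, p⟩, g1, g2⟩ ⟨⟨m', p'⟩, g3, g4⟩ h
    simp only [Prod.mk.injEq, Subtype.mk.injEq, Sum.inl.injEq] at g1 g3 h ⊢
    rw [g1, g3, mul_left_inj, mul_right_inj] at h
    exact ⟨famP_inj h.1, h.2⟩
  · intro α hα
    let α' : (V → ℕ) → V → ℝ := fun m v =>
      if h : n ≤ ∑ x, m x ∧ ∑ x, m x ≤ n + 1 ∧ OK G m {v} then α ⟨(m, v), h⟩ else 0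
    have e1 : ∀ e, α e = α' e.1.1 e.1.2 := fun e => by simp only [α', dif_pos e.2]
    have e2 : ∀ m u v, ∑ x, m x = n → u < v → G.Adj u v → OK G m {u, v} →
        α' m u + α' (m + Pi.single u 1) v = α' m v + α' (m + Pi.single v 1) u :=
      fun m u v g1 g2 g3 g4 => by simpa only [e1] using hα ⟨(m, ⟨(u, v), g2, g3⟩), g1, g4⟩
    obtain ⟨φ, hφ⟩ := coh_slab hG n α' fun m u v g1 g2 g3 =>
      (lt_or_gt_of_ne g2.ne).elim (fun h => e2 m u v g1 h g2 g3)
        fun h => (e2 m v u g1 h g2.symm (s3 g3)).symm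
    exact ⟨fun m => φ m.1, fun e => (e1 e).trans (hφ _ _ e.2.1 e.2.2.1 e.2.2.2)⟩
  · rintro ⟨⟨m, v⟩, g1, g2, g3⟩
    have e1 : famS ρ v (m + Pi.single v 1) = famS ρ v m + 1 := by
      simp [famS, add_smul, Finset.sum_add_distrib, Pi.single_apply, fam_self h1]
    have e2 := famS_ne h1 h2 g3 (n1.trans g1)
    have e3 := famS_ne h1 h2 (OK_add.2 (g3.mono (by simp))) (m := m + Pi.single v 1) (u := v)
      (by rw [sum_add_single]; omega)
    have e4 : 2 / ε ≤ ‖famS ρ v m‖ := (abs_le_of_sq_le_sq' (hn.le.trans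
      ((Nat.cast_le.2 g1).trans (famS_norm h1 h2 g3))) (norm_nonneg _)).2
    simp only [e1] at e3 ⊢
    refine (fam_near e2 e3).trans ?_
    rwa [norm_one, mul_one, div_le_comm₀ (norm_pos_iff.2 e2) hε]
  · rintro ⟨⟨m, ⟨u, v⟩, p⟩, g1, g2⟩
    have e1 : 1 ≤ ∑ x, m x := n1.trans g1.ge
    simp only
    rw [famS_edge h1 h2 g2 e1, famS_edge h1 h2 (u := u) (w := v) (m := m + Pi.single u 1)
      (OK_add.2 (g2.mono (by simp))) (by rw [sum_add_single]; omega),
      add_right_comm m (Pi.single v 1)]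
    group
  · rintro ⟨k, hk⟩
    let K : V → (V → ℕ) → S3 := fun u m =>
      nrm (famS ρ u m) * if h : ∑ x, m x ≤ n + 2 then k ⟨m, h⟩ else 1
    have e1 : ∀ m u v, ∑ x, m x = n → OK G m {u, v} → K u (m + Pi.single v 1) = K u m := by
      intro m u v g1 g2
      have := hk ⟨(m, v), g1.ge, g1.le.trans n.le_succ, s2 g2⟩
      simp only [famS_edge h1 h2 g2 (n1.trans g1.ge)] at this
      simp only [K]
      rw [dif_pos (by rw [sum_add_single]; omega), dif_pos (by omega),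
        ← eq_mul_inv_iff_mul_eq, mul_assoc, ← this, mul_inv_cancel_left]
    refine h3 ⟨fun u => K u (Pi.single u n), fun u v huv => ?_⟩
    have e2 : ∀ i j : ℕ, OK G (Pi.single u i + Pi.single v j) {u, v} := fun i j =>
      (SimpleGraph.isClique_pair.2 fun _ => huv).subset fun x hx => hx.elim
        (fun h => by_contra fun H => h (by simp_all)) id
    have e3 : ∀ j i, i + j = n → K u (Pi.single u n) = K u (Pi.single u i + Pi.single v j) := by
      intro j
      induction j with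
      | zero => intro i hi; simp [← hi]
      | succ j ih =>
        intro i hi
        rw [ih (i + 1) (by omega), ← e1 _ u v (by simp [Finset.sum_add_distrib]; omega) (e2 _ _),
          ← e1 _ u u (by simp [Finset.sum_add_distrib]; omega) ((e2 i (j + 1)).mono (by simp))]
        simp only [Pi.single_add]
        exact congrArg _ (by abel)
    have e4 := e2 0 n
    beta_reduce
    rw [e3 n 0 (zero_add n)]
    rw [Pi.single_zero, zero_add] at e4 ⊢
    simp only [K]
    rw [famS_nrm h1 h2 e4 (by simpa using n1), mul_assoc]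

end Vale.Agent.P173
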