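import Vale.Agent.P173.AttBasic
import Vale.Agent.P173.Circ
import Mathlib.Topology.Subpath
import Mathlib.AlgebraicTopology.FundamentalGroupoid.SimplyConnected

/-! Paths in a cell attachment are generated by paths in the base and paths in the cells. -/

open Set Topology unitInterval

namespace Vale.Agent.P173

section Aux

open Path.Homotopic

variable {X W : Type*} [TopologicalSpace X] [TopologicalSpace W]

theorem gen_cancel₁ {x y z : X} (a : Path.Homotopic.Quotient x y)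
    (b : Path.Homotopic.Quotient x z) : a.trans (a.symm.trans b) = b := by
  rw [← Quotient.trans_assoc, Quotient.trans_symm, Quotient.refl_trans]

theorem gen_cancel₂ {x y z : X} (a : Path.Homotopic.Quotient x y)
    (b : Path.Homotopic.Quotient y z) : a.symm.trans (a.trans b) = b := by
  rw [← Quotient.trans_assoc, Quotient.symm_trans, Quotient.refl_trans]

theorem gen_htpy [SimplyConnectedSpace W] {G : W → X} (hG : Continuous G) {p q : W}
    (δ₁ δ₂ : Path p q) {x y : X} {γ₁ γ₂ : Path x y} (h₁ : ∀ t, γ₁ t = G (δ₁ t))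
    (h₂ : ∀ t, γ₂ t = G (δ₂ t)) : γ₁.Homotopic γ₂ := by
  obtain rfl : x = G p := by simpa using h₁ 0
  obtain rfl : y = G q := by simpa using h₁ 1
  obtain rfl : γ₁ = δ₁.map hG := Path.ext (funext h₁)
  obtain rfl : γ₂ = δ₂.map hG := Path.ext (funext h₂)
  exact (SimplyConnectedSpace.paths_homotopic δ₁ δ₂).map ⟨G, hG⟩

theorem gen_trans_pt {G : W → X} {p q r : W} {δ₁ : Path p q} {δ₂ : Path q r} {x y z : X}
    {γ₁ : Path x y} {γ₂ : Path y z} (h₁ : ∀ t, γ₁ t = G (δ₁ t)) (h₂ : ∀ t, γ₂ t = G (δ₂ t))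
    (t : I) : γ₁.trans γ₂ t = G (δ₁.trans δ₂ t) := by
  simp only [Path.trans_apply]
  split_ifs
  · exact h₁ _
  · exact h₂ _

theorem gen_trans_mem {A : Set X} {x y z : X} {γ₁ : Path x y} {γ₂ : Path y z}
    (h₁ : ∀ t, γ₁ t ∈ A) (h₂ : ∀ t, γ₂ t ∈ A) (t : I) : γ₁.trans γ₂ t ∈ A := by
  simp only [Path.trans_apply]
  split_ifs
  · exact h₁ _
  · exact h₂ _

variable {n : ℕ} {C : Type*} {A : Set X} {Φ : C → C(Bl n, X)}

theorem gen_norm_lt (h : Att n A Φ) {c : C} {z : Bl n} (hz : Φ c z ∉ A) : ‖z.1‖ < 1 :=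
  lt_of_le_of_ne z.norm_le fun h1 => hz ((h.mem c z).2 h1)

theorem gen_lift (h : Att n A Φ) (c : C) {x y : X} (γ : Path x y)
    (hγ : ∀ t, γ t ∈ Φ c '' {z | ‖z.1‖ < 1}) :
    ∃ (z z' : Bl n) (δ : Path z z'), ‖z.1‖ < 1 ∧ ‖z'.1‖ < 1 ∧ ∀ t, γ t = Φ c (δ t) := by
  have hO : IsOpen {z : Bl n | ‖z.1‖ < 1} := isOpen_lt (by fun_prop) continuous_const
  have he : IsOpenEmbedding (Φ c ∘ Subtype.val : {z : Bl n | ‖z.1‖ < 1} → X) :=
    .of_continuous_injective_isOpenMap ((Φ c).continuous.comp continuous_subtype_val)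
      (fun a b hab => Subtype.ext (h.inj c a c b a.2 hab).2) fun U hU => by
        rw [image_comp]
        exact h.isOpen_image c (hO.isOpenMap_subtype_val U hU) (by
          rintro _ ⟨a, -, rfl⟩
          exact a.2)
  choose d hd1 hd2 using hγ
  have hc : Continuous fun t => (⟨d t, hd1 t⟩ : {z : Bl n | ‖z.1‖ < 1}) :=
    he.isInducing.continuous_iff.2 (γ.continuous.congr fun t => (hd2 t).symm)
  exact ⟨d 0, d 1, ⟨⟨d, continuous_subtype_val.comp hc⟩, rfl, rfl⟩, hd1 0, hd1 1,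
    fun t => (hd2 t).symm⟩

/-- Admissible paths from a point to the base. -/
def GenAdm (A : Set X) (Φ : C → C(Bl n, X)) {x a : X} (ς : Path x a) : Prop :=
  a ∈ A ∧ ((∀ t, ς t ∈ A) ∨
    ∃ (c : C) (z z' : Bl n) (δ : Path z z'), ‖z.1‖ < 1 ∧ ∀ t, ς t = Φ c (δ t))

theorem gen_adm (h : Att n A Φ) (hn : n ≠ 0) (x : X) : ∃ (a : X) (ς : Path x a), GenAdm A Φ ς := by
  by_cases hx : x ∈ A
  · exact ⟨x, .refl x, hx, .inl fun _ => hx⟩
  obtain ⟨c, z, rfl⟩ := (h.cover x).resolve_left hx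
  have : Nonempty (Fin n) := ⟨⟨0, Nat.pos_of_ne_zero hn⟩⟩
  let e : Bl n := ⟨fun _ => 1, by simp⟩
  let δ := PathConnectedSpace.somePath z e
  exact ⟨_, δ.map (Φ c).continuous, (h.mem c e).2 (by simp [e]),
    .inr ⟨c, z, e, δ, gen_norm_lt h hx, fun _ => rfl⟩⟩

theorem gen_rad_cont (z : Bl n) : Continuous (rad z) := by
  unfold rad
  fun_prop

theorem gen_rad_zero (z : Bl n) : rad z 0 = z := by
  simp [rad]

end Aux

theorem Att.gen {n : ℕ} {X C : Type*} [TopologicalSpace X] {A : Set X} {Φ : C → C(Bl n, X)}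
    (h : Att n A Φ) (hn : n ≠ 0) (P : ∀ x y : X, Path x y → Prop)
    (hsymm : ∀ x y γ, P x y γ → P y x γ.symm)
    (htrans : ∀ x y z γ γ', P x y γ → P y z γ' → P x z (γ.trans γ'))
    (hhtpy : ∀ x y γ γ', P x y γ → γ.Homotopic γ' → P x y γ')
    (hA : ∀ x y (γ : Path x y), (∀ t, γ t ∈ A) → P x y γ)
    (hΦ : ∀ c (z z' : Bl n) (δ : Path z z'), ‖z.1‖ = 1 → ‖z'.1‖ = 1 →
      P _ _ (δ.map (Φ c).continuous))
    {x y : X} (hx : x ∈ A) (hy : y ∈ A) (γ : Path x y) : P x y γ := by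
  have hΦ' : ∀ c (z z' : Bl n) (δ : Path z z') a b (ς : Path a b), a ∈ A → b ∈ A →
      (∀ t, ς t = Φ c (δ t)) → P a b ς := fun c z z' δ a b ς ha hb hς => by
    obtain rfl : a = Φ c z := by simpa using hς 0
    obtain rfl : b = Φ c z' := by simpa using hς 1
    obtain rfl : ς = δ.map (Φ c).continuous := Path.ext (funext hς)
    exact hΦ c z z' δ ((h.mem _ _).1 ha) ((h.mem _ _).1 hb)
  have two : ∀ {x a a' : X} {ς : Path x a} {ς' : Path x a'}, GenAdm A Φ ς → GenAdm A Φ ς' →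
      P a a' (ς.symm.trans ς') := by
    rintro x a a' ς ς' ⟨ha, h1 | ⟨c, z, u, δ, hz, h1⟩⟩ ⟨ha', h2 | ⟨c', z', u', δ', hz', h2⟩⟩
    · exact hA _ _ _ (gen_trans_mem (fun _ => h1 _) h2)
    · obtain rfl : x = Φ c' z' := by simpa using h2 0
      exact absurd ((h.mem c' z').1 (by simpa using h1 0)) hz'.ne
    · obtain rfl : x = Φ c z := by simpa using h1 0
      exact absurd ((h.mem c z).1 (by simpa using h2 0)) hz.ne
    · obtain rfl : x = Φ c z := by simpa using h1 0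
      obtain ⟨rfl, rfl⟩ := h.inj c z c' z' hz (by simpa using h2 0)
      exact hΦ' c _ _ (δ.symm.trans δ') _ _ _ ha ha' (gen_trans_pt (fun _ => h1 _) h2)
  let Q : ∀ x y : X, Path x y → Prop := fun x y γ => ∀ a b (ς : Path x a) (ς' : Path y b),
    GenAdm A Φ ς → GenAdm A Φ ς' → P a b (ς.symm.trans (γ.trans ς'))
  have one : ∀ {x y a b : X} {γ : Path x y} (ς : Path x a) (ς' : Path y b), GenAdm A Φ ς →
      GenAdm A Φ ς' → P a b (ς.symm.trans (γ.trans ς')) → Q x y γ :=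
    fun ς ς' h1 h2 h3 a b τ τ' h4 h5 => by
      refine hhtpy _ _ _ _ (htrans _ _ _ _ _ (two h4 h1) (htrans _ _ _ _ _ h3 (two h2 h5)))
        (Path.Homotopic.Quotient.exact ?_)
      simp [gen_cancel₁]
  have Qtrans : ∀ {x y z : X} {γ : Path x y} {γ' : Path y z}, Q x y γ → Q y z γ' →
      Q x z (γ.trans γ') := fun {x y z γ γ'} h1 h2 a b ς ς' h3 h4 => by
    obtain ⟨u, τ, h5⟩ := gen_adm h hn y
    refine hhtpy _ _ _ _ (htrans _ _ _ _ _ (h1 a u ς τ h3 h5) (h2 u b τ ς' h5 h4))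
      (Path.Homotopic.Quotient.exact ?_)
    simp [gen_cancel₁]
  have Qhtpy : ∀ {x y : X} {γ γ' : Path x y}, Q x y γ → γ.Homotopic γ' → Q x y γ' :=
    fun h1 h2 a b ς ς' h3 h4 => hhtpy _ _ _ _ (h1 a b ς ς' h3 h4)
      ((Path.Homotopic.refl _).hcomp (h2.hcomp (.refl _)))
  have Qcell : ∀ c {x y : X} (γ : Path x y), (∀ t, γ t ∈ Φ c '' {z | ‖z.1‖ < 1}) → Q x y γ := by
    intro c x y γ hγ a b ς ς' h1 h2
    obtain ⟨z, z', δ, hz, hz', h3⟩ := gen_lift h c γ hγ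
    obtain rfl : x = Φ c z := by simpa using h3 0
    obtain rfl : y = Φ c z' := by simpa using h3 1
    obtain ⟨ha, h1 | ⟨c₁, z₁, u₁, δ₁, -, h1⟩⟩ := h1
    · exact absurd ((h.mem c z).1 (by simpa using h1 0)) hz.ne
    obtain ⟨hb, h2 | ⟨c₂, z₂, u₂, δ₂, -, h2⟩⟩ := h2
    · exact absurd ((h.mem c z').1 (by simpa using h2 0)) hz'.ne
    obtain ⟨rfl, rfl⟩ := h.inj c z c₁ z₁ hz (by simpa using h1 0)
    obtain ⟨rfl, rfl⟩ := h.inj c z' c₂ z₂ hz' (by simpa using h2 0)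
    exact hΦ' c _ _ (δ₁.symm.trans (δ.trans δ₂)) _ _ _ ha hb
      (gen_trans_pt (fun _ => h1 _) (gen_trans_pt h3 h2))
  have Qoff : ∀ {x y : X} (γ : Path x y), (∀ t, γ t ∈ offC Φ) → Q x y γ := by
    intro x y γ hγ
    obtain ⟨R, hR, h0, h1, h2, h3⟩ := h.exists_deform
    have hG : Continuous fun p : I × I => R (γ p.1, p.2) :=
      hR.comp_continuous (by fun_prop) fun p => ⟨hγ _, trivial⟩
    have hτ : ∀ u ∈ offC Φ, ∃ τ : Path u (R (u, 1)), GenAdm A Φ τ ∧ ∀ t, τ t = R (u, t) := by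
      intro u hu
      refine ⟨⟨⟨fun t => R (u, t), hR.comp_continuous (by fun_prop) fun p => ⟨hu, trivial⟩⟩,
        h0 u, rfl⟩, ⟨h1 u hu, ?_⟩, fun _ => rfl⟩
      by_cases huA : u ∈ A
      · exact .inl fun t => mem_of_eq_of_mem (h2 u huA t) huA
      · obtain ⟨c, z, rfl⟩ := (h.cover u).resolve_left huA
        exact .inr ⟨c, z, rad z 1, ⟨⟨rad z, gen_rad_cont z⟩, gen_rad_zero z, rfl⟩,
          gen_norm_lt h huA, fun t => h3 c z t⟩
    obtain ⟨τ, hτ1, hτ2⟩ := hτ x (by simpa using hγ 0)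
    obtain ⟨τ', hτ1', hτ2'⟩ := hτ y (by simpa using hγ 1)
    let γ' : Path (R (x, 1)) (R (y, 1)) :=
      ⟨⟨fun t => R (γ t, 1), hG.comp (f := fun t : I => (t, (1 : I))) (by fun_prop)⟩, by simp,
        by simp⟩
    refine one τ τ' hτ1 hτ1' (hhtpy _ _ γ' _ (hA _ _ _ fun t => h1 _ (hγ t)) ?_)
    have : ContractibleSpace I := (convex_Icc (0 : ℝ) 1).contractibleSpace ⟨0, by simp⟩
    let v : ∀ s : I, Path (s, (0 : I)) (s, (1 : I)) := fun s =>
      ⟨⟨fun t => (s, t), by fun_prop⟩, rfl, rfl⟩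
    let w : ∀ s : I, Path ((0 : I), s) ((1 : I), s) := fun s =>
      ⟨⟨fun t => (t, s), by fun_prop⟩, rfl, rfl⟩
    exact gen_htpy hG (w 1) ((v 0).symm.trans ((w 0).trans (v 1))) (fun _ => rfl)
      (gen_trans_pt (G := fun p : I × I => R (γ p.1, p.2)) (fun t => by simpa [v] using hτ2 _)
        (gen_trans_pt (G := fun p : I × I => R (γ p.1, p.2)) (fun t => (h0 _).symm)
          fun t => by simpa [v] using hτ2' _))
  let U : Option C → Set X := fun o => o.elim (offC Φ) fun c => Φ c '' {z | ‖z.1‖ < 1}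
  obtain ⟨t, ht0, hm, ⟨N, hN⟩, hU⟩ := exists_monotone_Icc_subset_open_cover_unitInterval
    (c := fun o => γ ⁻¹' U o) (fun o => IsOpen.preimage γ.continuous (by
      cases o
      · exact h.isOpen_offC
      · exact h.isOpen_image _ (isOpen_lt (by fun_prop) continuous_const) fun _ hz => hz))
    fun s _ => by
      by_cases hs : γ s ∈ A
      · exact mem_iUnion.2 ⟨none, h.subset_offC hs⟩
      · obtain ⟨c, z, hz⟩ := (h.cover _).resolve_left hs
        exact mem_iUnion.2 ⟨some c, z, gen_norm_lt h (hz ▸ hs), hz⟩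
  have hk : ∀ k, Q _ _ (γ.subpath (t 0) (t k)) := fun k => by
    induction k with
    | zero =>
      refine Qoff _ fun s => ?_
      rw [Path.subpath_self, ht0, γ.source]
      exact h.subset_offC hx
    | succ k ih =>
      refine Qhtpy (Qtrans ih ?_) ⟨Path.Homotopy.subpathTransSubpath γ _ _ _⟩
      obtain ⟨o, ho⟩ := hU k
      have h1 : ∀ s, γ.subpath (t k) (t (k + 1)) s ∈ U o := fun s => by
        have h2 := mem_range_self (f := γ.subpath (t k) (t (k + 1))) s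
        rw [Path.range_subpath_of_le _ _ _ (hm k.le_succ)] at h2
        obtain ⟨u, hu, h3⟩ := h2
        exact h3 ▸ ho hu
      cases o
      · exact Qoff _ h1
      · exact Qcell _ _ h1
  have h1 := hk N
  rw [ht0, hN N le_rfl, Path.subpath_zero_one] at h1
  have h2 : ∀ x' y' (hx' : x' = x) (hy' : y' = y), Q _ _ (γ.cast hx' hy') → Q _ _ γ := by
    rintro _ _ rfl rfl h3
    exact h3
  refine hhtpy _ _ _ _ (h2 _ _ _ _ h1 x y (.refl x) (.refl y) ⟨hx, .inl fun _ => hx⟩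
    ⟨hy, .inl fun _ => hy⟩) (Path.Homotopic.Quotient.exact ?_)
  simp

theorem exists_EP {Z C : Type*} [TopologicalSpace Z] {B : Set Z} {Φ : C → C(Bl 1, Z)}
    (h : Att 1 B Φ) (hd : IsDiscrete B) {u v : Z} (hu : u ∈ B) (hv : v ∈ B) (γ : Path u v) :
    ∃ w, EP Φ γ w := by
  refine h.gen one_ne_zero (fun x y γ => ∃ w, EP Φ γ w) (fun _ _ _ ⟨w, hw⟩ => ⟨_, hw.symm⟩)
    (fun _ _ _ _ _ ⟨w, hw⟩ ⟨w', hw'⟩ => ⟨_, hw.trans hw'⟩)
    (fun _ _ _ _ ⟨w, hw⟩ hh => ⟨_, hw.htpy hh⟩) (fun x y γ hγ => ?_) (fun c z z' δ hz hz' => ?_)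
    hu hv γ
  · have h1 : ∀ t, γ t = x := fun t => (isPreconnected_univ.constant_of_mapsTo hd
      γ.continuous.continuousOn (fun t _ => hγ t) trivial trivial).trans γ.source
    obtain rfl : y = x := γ.target.symm.trans (h1 1)
    obtain rfl : γ = .refl y := Path.ext (funext h1)
    exact ⟨1, .refl y⟩
  · have h1 : ∀ z : Bl 1, ‖z.1‖ = 1 → z = seg 0 ∨ z = seg 1 := fun z hz => by
      have h2 : z.1 = fun _ => z.1 0 := funext fun i => by rw [Subsingleton.elim i 0]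
      rw [h2, pi_norm_const, Real.norm_eq_abs, abs_eq zero_le_one] at hz
      rcases hz with hz | hz
      · exact .inr (Subtype.ext (h2.trans (funext fun _ => by norm_num [seg, hz])))
      · exact .inl (Subtype.ext (h2.trans (funext fun _ => by norm_num [seg, hz])))
    let ς : Path (seg 0) (seg 1) := ⟨⟨seg, continuous_seg⟩, rfl, rfl⟩
    rcases h1 z hz with rfl | rfl <;> rcases h1 z' hz' with rfl | rfl
    · exact ⟨_, (EP.refl _).htpy
        (gen_htpy (Φ c).continuous (.refl _) δ (fun _ => rfl) fun _ => rfl)⟩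
    · exact ⟨_, (EP.edge c).htpy (gen_htpy (Φ c).continuous ς δ (fun _ => rfl) fun _ => rfl)⟩
    · exact ⟨_, (EP.edge c).symm.htpy
        (gen_htpy (Φ c).continuous ς.symm δ (fun _ => rfl) fun _ => rfl)⟩
    · exact ⟨_, (EP.refl _).htpy
        (gen_htpy (Φ c).continuous (.refl _) δ (fun _ => rfl) fun _ => rfl)⟩

theorem exists_path_in {X C : Type*} [TopologicalSpace X] {A : Set X} {Φ : C → C(Bl 2, X)}
    (h : Att 2 A Φ) (x y : A) (γ : Path x.1 y.1) :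
    ∃ γ' : Path x y, γ.Homotopic (γ'.map continuous_subtype_val) := by
  obtain ⟨γ', h1, h2⟩ := h.gen two_ne_zero
    (fun x y γ => ∃ γ' : Path x y, (∀ t, γ' t ∈ A) ∧ γ.Homotopic γ')
    (fun _ _ _ ⟨γ', h1, h2⟩ => ⟨γ'.symm, fun _ => h1 _, h2.symm₂⟩)
    (fun _ _ _ _ _ ⟨γ₁, h1, h2⟩ ⟨γ₂, h3, h4⟩ => ⟨γ₁.trans γ₂, gen_trans_mem h1 h3, h2.hcomp h4⟩)
    (fun _ _ _ _ ⟨γ', h1, h2⟩ hh => ⟨γ', h1, hh.symm.trans h2⟩)
    (fun _ _ γ hγ => ⟨γ, hγ, .refl _⟩) (fun c z z' δ hz hz' => by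
      obtain ⟨s, rfl⟩ := circ_surj z hz
      obtain ⟨t, rfl⟩ := circ_surj z' hz'
      exact ⟨(circ.subpath s t).map (Φ c).continuous, fun _ => (h.mem _ _).2 (norm_circF _),
        gen_htpy (Φ c).continuous δ (circ.subpath s t) (fun _ => rfl) fun _ => rfl⟩) x.2 y.2 γ
  exact ⟨⟨⟨fun t => ⟨γ' t, h1 t⟩, γ'.continuous.subtype_mk _⟩, Subtype.ext γ'.source,
    Subtype.ext γ'.target⟩, h2⟩

end Vale.Agent.P173
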