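import Vale.Agent.P173.KerAux
import Mathlib.Analysis.Complex.CoveringMap

/-! Winding numbers of nonvanishing functions on the interval. -/

open Set Topology unitInterval

namespace Vale.Agent.P173

theorem exp_const {A : Type*} [TopologicalSpace A] [PreconnectedSpace A] {L : A → ℂ}
    (hL : Continuous L) (h : ∀ a a', Complex.exp (L a) = Complex.exp (L a')) (a a' : A) :
    L a = L a' :=
  Complex.isCoveringMap_exp.const_of_comp hL (fun a a' => Subtype.ext (h a a')) a a'

theorem exists_log {A : Type*} [TopologicalSpace A] [ContractibleSpace A]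
    [LocallyPathConnectedSpace A] {f : A → ℂ} (hf : Continuous f) (h : ∀ a, f a ≠ 0) :
    ∃ L : C(A, ℂ), ∀ a, Complex.exp (L a) = f a := by
  obtain ⟨a⟩ : Nonempty A := inferInstance
  obtain ⟨L, ⟨-, hL⟩, -⟩ := Complex.isCoveringMapOn_exp.existsUnique_continuousMap_lifts
    ⟨f, hf⟩ (a₀ := a) (Complex.exp_log (h a)) h
  exact ⟨L, fun a => congrFun hL a⟩

theorem contractible_I : ContractibleSpace I := (convex_Icc (0 : ℝ) 1).contractibleSpace ⟨0, by simp⟩

theorem lpc_I : LocallyPathConnectedSpace I := (convex_Icc (0 : ℝ) 1).locallyPathConnectedSpace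

/-- The total variation of a logarithm of `f` is `z`. -/
def Wn (f : I → ℂ) (z : ℂ) : Prop := ∃ a, En Complex.exp f a (a + z)

theorem wn_of_log {f : I → ℂ} {L : I → ℂ} (hL : Continuous L) (h : ∀ t, Complex.exp (L t) = f t) :
    Wn f (L 1 - L 0) :=
  ⟨L 0, ⟨⟨L, hL⟩, rfl, by simp⟩, h⟩

theorem Wn.log {f : I → ℂ} {z : ℂ} (h : Wn f z) :
    ∃ L : C(I, ℂ), (∀ t, Complex.exp (L t) = f t) ∧ L 1 - L 0 = z := by
  obtain ⟨a, δ, h⟩ := h
  exact ⟨δ.toContinuousMap, h, by simp⟩

theorem Wn.uniq {f : I → ℂ} {z z' : ℂ} (h : Wn f z) (h' : Wn f z') : z = z' := by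
  obtain ⟨L, k, rfl⟩ := h.log
  obtain ⟨L', k', rfl⟩ := h'.log
  have e : ∀ t, Complex.exp (L t - L' t) = 1 := fun t => by
    rw [Complex.exp_sub, k, ← k', div_self (Complex.exp_ne_zero _)]
  have := exp_const (L := fun t => L t - L' t) (L.continuous.sub L'.continuous)
    (fun a a' => (e a).trans (e a').symm) 1 0
  linear_combination this

theorem wn_ex {f : I → ℂ} (hf : Continuous f) (h : ∀ t, f t ≠ 0) : ∃ z, Wn f z := by
  have := contractible_I
  have := lpc_I
  obtain ⟨L, hL⟩ := exists_log hf h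
  exact ⟨_, wn_of_log L.continuous hL⟩

theorem Wn.start {f : I → ℂ} {z : ℂ} (h : Wn f z) {b : ℂ} (hb : Complex.exp b = f 0) :
    En Complex.exp f b (b + z) := by
  obtain ⟨L, k, rfl⟩ := h.log
  refine ⟨⟨⟨fun t => L t + (b - L 0), by fun_prop⟩, by simp, by simp only; ring⟩, fun t => ?_⟩
  show Complex.exp (L t + (b - L 0)) = f t
  rw [Complex.exp_add, Complex.exp_sub, hb, ← k 0, div_self (Complex.exp_ne_zero _), mul_one, k]

variable {Y : Type*} [TopologicalSpace Y] {g : Y → ℂ} {y y' y'' : Y} {z z' : ℂ}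

theorem Wn.symm {δ : Path y y'} (h : Wn (fun t => g (δ t)) z) :
    Wn (fun t => g (δ.symm t)) (-z) := by
  obtain ⟨a, h⟩ := h
  exact ⟨a + z, by rw [add_neg_cancel_right]; exact h.symm⟩

theorem Wn.trans {δ : Path y y'} {δ' : Path y' y''} (h : Wn (fun t => g (δ t)) z)
    (h' : Wn (fun t => g (δ' t)) z') : Wn (fun t => g (δ.trans δ' t)) (z + z') := by
  obtain ⟨a, h⟩ := h
  exact ⟨a, by rw [← add_assoc]; exact h.trans (h'.start (by simpa using h.tgt))⟩

theorem Wn.htpy {H : I × I → ℂ} (hH : Continuous H) (h : ∀ a, H a ≠ 0)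
    (h0 : ∀ s s', H (s, 0) = H (s', 0)) (h1 : ∀ s s', H (s, 1) = H (s', 1))
    (hz : Wn (fun t => H (0, t)) z) : Wn (fun t => H (1, t)) z := by
  have := contractible_I
  have := lpc_I
  obtain ⟨L, hL⟩ := exists_log hH h
  have e0 := exp_const (L := fun s => L (s, 0)) (by fun_prop)
    (fun s s' => by rw [hL, hL, h0 s s']) 0 1
  have e1 := exp_const (L := fun s => L (s, 1)) (by fun_prop)
    (fun s s' => by rw [hL, hL, h1 s s']) 0 1
  rw [hz.uniq (wn_of_log (L := fun t => L (0, t)) (by fun_prop) fun t => hL _), e0, e1]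
  exact wn_of_log (L := fun t => L (1, t)) (by fun_prop) fun t => hL _

theorem coef_zero {ι M : Type*} [AddCommGroup M] {f : ι → M} {x : ι →₀ ℤ}
    (hx : Finsupp.linearCombination ℤ f x = 0) (φ : M →ₗ[ℤ] ℂ) {i : ι} (h1 : φ (f i) ≠ 0)
    (h2 : ∀ j ∈ x.support, j ≠ i → φ (f j) = 0) : x i = 0 := by
  have := congrArg φ hx
  rw [Finsupp.apply_linearCombination, Finsupp.linearCombination_apply, map_zero,
    Finsupp.sum_eq_single i (fun j hj hi => by
      rw [Function.comp_apply, h2 j (Finsupp.mem_support_iff.2 hj) hi, smul_zero])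
      (fun _ => zero_smul _ _)] at this
  exact (smul_eq_zero.1 this).resolve_right h1

end Vale.Agent.P173
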