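import Vale.Agent.P173.Top
import Mathlib.Topology.ContinuousMap.Compact
import Mathlib.Analysis.Normed.Operator.NormedSpace

/-! Sections of the pulled back tautological line over compact parts of a contractible space. -/

open Set Topology unitInterval Filter ComplexConjugate

namespace Vale.Agent.P173

/-- The squared length of a vector. -/
noncomputable def sqn (v : ℂ × ℂ) : ℂ := conj v.1 * v.1 + conj v.2 * v.2

theorem sqn_ne {v : ℂ × ℂ} (h : v ≠ 0) : sqn v ≠ 0 := by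
  intro e
  rw [sqn, ← Complex.normSq_eq_conj_mul_self, ← Complex.normSq_eq_conj_mul_self,
    ← Complex.ofReal_add, Complex.ofReal_eq_zero] at e
  have h1 := Complex.normSq_nonneg v.1
  have h2 := Complex.normSq_nonneg v.2
  exact h (Prod.ext (Complex.normSq_eq_zero.1 (by linarith))
    (Complex.normSq_eq_zero.1 (by linarith)))

open ContinuousLinearMap in
/-- The orthogonal projection onto the line through `v`. -/
noncomputable def prj (v : ℂ × ℂ) : ℂ × ℂ →L[ℂ] ℂ × ℂ :=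
  ((sqn v)⁻¹ * conj v.1 * v.1) • (inl ℂ ℂ ℂ).comp (fst ℂ ℂ ℂ) +
    ((sqn v)⁻¹ * conj v.2 * v.1) • (inl ℂ ℂ ℂ).comp (snd ℂ ℂ ℂ) +
    ((sqn v)⁻¹ * conj v.1 * v.2) • (inr ℂ ℂ ℂ).comp (fst ℂ ℂ ℂ) +
    ((sqn v)⁻¹ * conj v.2 * v.2) • (inr ℂ ℂ ℂ).comp (snd ℂ ℂ ℂ)

theorem prj_apply (v x : ℂ × ℂ) :
    prj v x = ((sqn v)⁻¹ * (conj v.1 * x.1 + conj v.2 * x.2)) • v := by
  ext <;> simp [prj] <;> ring

theorem prj_self {v : ℂ × ℂ} (h : v ≠ 0) : prj v v = v := by
  rw [prj_apply, ← sqn, inv_mul_cancel₀ (sqn_ne h), one_smul]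

theorem prj_prj {v : ℂ × ℂ} (h : v ≠ 0) (x : ℂ × ℂ) : prj v (prj v x) = prj v x := by
  rw [prj_apply v x, map_smul, prj_self h]

theorem prj_left {a : ℂ} (h : a ≠ 0) : prj (a, 0) = prj (1, 0) := by
  have h' : conj a ≠ 0 := by simpa using h
  refine ContinuousLinearMap.ext fun x => ?_
  rw [prj_apply, prj_apply]
  ext
  · simp only [sqn, map_zero, zero_mul, add_zero, Prod.smul_fst, smul_eq_mul, map_one]
    field_simp
  · simp

theorem continuous_sqn_inv {Z : Type*} [TopologicalSpace Z] {f : Z → ℂ × ℂ} (hf : Continuous f)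
    (h : ∀ z, f z ≠ 0) : Continuous fun z => (sqn (f z))⁻¹ :=
  Continuous.inv₀ (by unfold sqn; fun_prop) fun z => sqn_ne (h z)

theorem continuous_prj {Z : Type*} [TopologicalSpace Z] {f : Z → ℂ × ℂ} (hf : Continuous f)
    (h : ∀ z, f z ≠ 0) : Continuous fun z => prj (f z) := by
  have := continuous_sqn_inv hf h
  unfold prj
  fun_prop

/-- The vector spanning the line over a point of the cell. -/
noncomputable def vec (z : Bl 2) : ℂ × ℂ := (z.1 0 + z.1 1 * Complex.I, ((1 - ‖z.1‖ : ℝ) : ℂ))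

theorem continuous_vec : Continuous vec := by
  have h : ∀ i, Continuous fun z : Bl 2 => (z.1 i : ℂ) := fun i =>
    Complex.continuous_ofReal.comp ((continuous_apply i).comp continuous_subtype_val)
  exact ((h 0).add ((h 1).mul continuous_const)).prodMk
    (Complex.continuous_ofReal.comp (continuous_const.sub continuous_subtype_val.norm))

theorem vec_fst_ne {z : Bl 2} (h : ‖z.1‖ = 1) : (vec z).1 ≠ 0 := by
  intro e
  have h0 := congrArg Complex.re e
  have h1 := congrArg Complex.im e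
  simp only [vec, Complex.add_re, Complex.ofReal_re, Complex.mul_re, Complex.I_re, mul_zero,
    Complex.ofReal_im, Complex.I_im, mul_one, sub_self, add_zero, Complex.zero_re, Complex.add_im,
    Complex.mul_im, zero_add, Complex.zero_im] at h0 h1
  have : z.1 = 0 := by
    funext i
    fin_cases i
    · exact h0
    · exact h1
  rw [this, norm_zero] at h
  exact zero_ne_one h

theorem vec_ne (z : Bl 2) : vec z ≠ 0 := by
  intro e
  have h2 : ((1 - ‖z.1‖ : ℝ) : ℂ) = 0 := congrArg Prod.snd e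
  rw [Complex.ofReal_eq_zero] at h2
  exact vec_fst_ne (by linarith) (congrArg Prod.fst e)

theorem prj_vec {z : Bl 2} (h : ¬‖z.1‖ < 1) : prj (vec z) = prj (1, 0) := by
  have h1 : ‖z.1‖ = 1 := le_antisymm z.norm_le (not_lt.1 h)
  rw [← prj_left (vec_fst_ne h1)]
  simp [vec, h1]

theorem exists_prj {Y : Type*} [TopologicalSpace Y] [T2Space Y] (Ψ : C(Bl 2, Y))
    (hinj : ∀ z z', ‖z.1‖ < 1 → Ψ z = Ψ z' → z = z') (hop : IsOpen (Ψ '' {z | ‖z.1‖ < 1})) :
    ∃ P : C(Y, ℂ × ℂ →L[ℂ] ℂ × ℂ), (∀ z, P (Ψ z) = prj (vec z)) ∧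
      ∀ y, y ∉ Ψ '' {z | ‖z.1‖ < 1} → P y = prj (1, 0) := by
  classical
  let P : Y → ℂ × ℂ →L[ℂ] ℂ × ℂ := fun y =>
    if h : ∃ z, Ψ z = y then prj (vec h.choose) else prj (1, 0)
  have h1 : ∀ z, P (Ψ z) = prj (vec z) := fun z => by
    have h : ∃ z', Ψ z' = Ψ z := ⟨z, rfl⟩
    simp only [P, dif_pos h]
    by_cases a : ‖h.choose.1‖ < 1
    · rw [hinj _ _ a h.choose_spec]
    · by_cases b : ‖z.1‖ < 1
      · rw [← hinj _ _ b h.choose_spec.symm]
      · rw [prj_vec a, prj_vec b]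
  have h2 : ∀ y, y ∉ Ψ '' {z | ‖z.1‖ < 1} → P y = prj (1, 0) := fun y hy => by
    by_cases h : ∃ z, Ψ z = y
    · obtain ⟨z, rfl⟩ := h
      rw [h1, prj_vec fun a => hy ⟨z, a, rfl⟩]
    · simp only [P, dif_neg h]
  refine ⟨⟨P, continuous_iff_isClosed.2 fun C hC => ?_⟩, h1, h2⟩
  have : P ⁻¹' C = Ψ '' ((fun z => prj (vec z)) ⁻¹' C) ∪
      (Ψ '' {z | ‖z.1‖ < 1})ᶜ ∩ (fun _ => prj (1, 0)) ⁻¹' C := by
    ext y
    constructor
    · intro hy
      by_cases h : y ∈ Ψ '' {z | ‖z.1‖ < 1}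
      · obtain ⟨z, -, rfl⟩ := h
        exact Or.inl ⟨z, by rwa [mem_preimage, h1] at hy, rfl⟩
      · exact Or.inr ⟨h, by rwa [mem_preimage, h2 y h] at hy⟩
    · rintro (⟨z, hz, rfl⟩ | ⟨h, hy⟩)
      · rwa [mem_preimage, h1]
      · rwa [mem_preimage, h2 y h]
  rw [this]
  exact (Ψ.continuous.isClosedMap _ (hC.preimage (continuous_prj continuous_vec vec_ne))).union
    (hop.isClosed_compl.inter (hC.preimage continuous_const))

/-- The times of the subdivision, running from one to zero. -/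
noncomputable def tm (N i : ℕ) : I := projIcc 0 1 zero_le_one (1 - (i : ℝ) / N)

theorem tm_zero (N : ℕ) : tm N 0 = 1 := by simp [tm]

theorem tm_self {N : ℕ} (h : N ≠ 0) : tm N N = 0 := by simp [tm, h]

theorem dist_tm (N i : ℕ) : dist (tm N (i + 1)) (tm N i) ≤ 1 / N := by
  refine (abs_projIcc_sub_projIcc zero_le_one).trans (le_of_eq ?_)
  push_cast
  rw [show 1 - ((i : ℝ) + 1) / N - (1 - i / N) = -(1 / N) by ring, abs_neg,
    abs_of_nonneg (by positivity)]

/-- Iterated projection of a fixed vector. -/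
noncomputable def sect {Y : Type*} (Q : I × Y → ℂ × ℂ →L[ℂ] ℂ × ℂ) (s : ℂ × ℂ) (N : ℕ) (y : Y) :
    ℕ → ℂ × ℂ
  | 0 => s
  | i + 1 => Q (tm N (i + 1), y) (sect Q s N y i)

theorem continuous_sect {Y : Type*} [TopologicalSpace Y] {Q : I × Y → ℂ × ℂ →L[ℂ] ℂ × ℂ}
    (hQ : Continuous Q) (s : ℂ × ℂ) (N i : ℕ) : Continuous fun y => sect Q s N y i := by
  induction i with
  | zero => exact continuous_const
  | succ i ih => exact (hQ.comp (Continuous.prodMk_right _)).clm_apply ih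

theorem sect_fix {Y : Type*} {Q : I × Y → ℂ × ℂ →L[ℂ] ℂ × ℂ} {s : ℂ × ℂ}
    (hQ : ∀ a x, Q a (Q a x) = Q a x) (hs : ∀ y, Q (1, y) s = s) (N : ℕ) (y : Y) (i : ℕ) :
    Q (tm N i, y) (sect Q s N y i) = sect Q s N y i := by
  cases i with
  | zero => rw [tm_zero]; exact hs y
  | succ i => exact hQ _ _

theorem ev_close {Y V : Type*} [TopologicalSpace Y] [MetricSpace V] {Q : I × Y → V}
    (hc : Continuous Q) {K : Set Y} (hK : IsCompact K) :
    ∀ᶠ N in atTop, ∀ y ∈ K, ∀ i, dist (Q (tm N (i + 1), y)) (Q (tm N i, y)) < 1 := by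
  have := isCompact_iff_compactSpace.1 hK
  let G : C(I × K, V) := ⟨fun a => Q (a.1, a.2.1), by fun_prop⟩
  obtain ⟨δ, hδ, hu⟩ := Metric.uniformContinuous_iff.1
    (CompactSpace.uniformContinuous_of_continuous G.curry.continuous) 1 one_pos
  filter_upwards [(tendsto_one_div_atTop_nhds_zero_nat (𝕜 := ℝ)).eventually (gt_mem_nhds hδ)]
    with N hN y hy i
  exact (ContinuousMap.dist_apply_le_dist (f := G.curry (tm N (i + 1))) (g := G.curry (tm N i))
    ⟨y, hy⟩).trans_lt (hu ((dist_tm N i).trans_lt hN))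

theorem sect_ne {Y : Type*} [TopologicalSpace Y] {Q : I × Y → ℂ × ℂ →L[ℂ] ℂ × ℂ}
    (hc : Continuous Q) {s : ℂ × ℂ} (h0 : s ≠ 0) (hQ : ∀ a x, Q a (Q a x) = Q a x)
    (hs : ∀ y, Q (1, y) s = s) {K : Set Y} (hK : IsCompact K) :
    ∀ᶠ N in atTop, ∀ y ∈ K, ∀ i, sect Q s N y i ≠ 0 := by
  filter_upwards [ev_close (V := ℂ × ℂ →L[ℂ] ℂ × ℂ) hc hK] with N hN y hy i
  induction i with
  | zero => exact h0
  | succ i ih =>
    intro e
    have h1 := hN y hy i
    have h2 := (Q (tm N (i + 1), y) - Q (tm N i, y)).le_opNorm (sect Q s N y i)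
    rw [sub_apply, sect_fix hQ hs, show Q (tm N (i + 1), y) _ = 0 from e,
      zero_sub, norm_neg, ← dist_eq_norm] at h2
    have h3 := norm_pos_iff.2 ih
    nlinarith

theorem exists_gN {Y : Type*} [TopologicalSpace Y] [T2Space Y] [ContractibleSpace Y]
    (Ψ : C(Bl 2, Y)) (hinj : ∀ z z', ‖z.1‖ < 1 → Ψ z = Ψ z' → z = z')
    (hop : IsOpen (Ψ '' {z | ‖z.1‖ < 1})) :
    ∃ g : ℕ → C(Y, ℂ),
      (∀ K : Set Y, IsCompact K → Disjoint K (Ψ '' {z | ‖z.1‖ < 1}) →
        ∀ᶠ N in atTop, ∀ y ∈ K, g N y ≠ 0) ∧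
      ∀ᶠ N in atTop, ∃ lam : C(Bl 2, ℂ), (∀ z, lam z ≠ 0) ∧
        ∀ z, g N (Ψ z) = lam z * (z.1 0 + z.1 1 * Complex.I) := by
  obtain ⟨P, h1, h2⟩ := exists_prj Ψ hinj hop
  obtain ⟨y₁, ⟨H⟩⟩ := id_nullhomotopic Y
  have hP : ∀ y, ∃ v, v ≠ 0 ∧ P y = prj v := fun y => by
    by_cases h : y ∈ Ψ '' {z | ‖z.1‖ < 1}
    · obtain ⟨z, -, rfl⟩ := h
      exact ⟨_, vec_ne z, h1 z⟩
    · exact ⟨_, by simp, h2 y h⟩
  obtain ⟨s, s0, hs⟩ := hP y₁
  have hc : Continuous fun a => P (H a) := by fun_prop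
  have hQ : ∀ a x, P (H a) (P (H a) x) = P (H a) x := fun a x => by
    obtain ⟨v, h, e⟩ := hP (H a)
    rw [e, prj_prj h]
  have hs' : ∀ y, P (H (1, y)) s = s := fun y => by
    rw [H.apply_one, ContinuousMap.const_apply, hs, prj_self s0]
  have hf : ∀ N, N ≠ 0 → ∀ y, P y (sect (fun a => P (H a)) s N y N) =
      sect (fun a => P (H a)) s N y N := fun N hN y => by
    have := sect_fix (Q := fun a => P (H a)) hQ hs' N y N
    rwa [tm_self hN, H.apply_zero] at this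
  refine ⟨fun N => ⟨fun y => (sect (fun a => P (H a)) s N y N).1,
    (continuous_sect hc s N N).fst⟩, fun K hK hd => ?_, ?_⟩
  · filter_upwards [sect_ne hc s0 hQ hs' hK, eventually_ne_atTop 0] with N hN h0 y hy e
    have := hf N h0 y
    rw [h2 y (disjoint_left.1 hd hy), prj_apply] at this
    refine hN y hy N (Prod.ext e ?_)
    rw [← this]
    simp
  · filter_upwards [sect_ne hc s0 hQ hs' (isCompact_range Ψ.continuous), eventually_ne_atTop 0]
      with N hN h0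
    have e : ∀ z, _ := fun z => hf N h0 (Ψ z)
    simp only [h1, prj_apply] at e
    have c1 := continuous_sqn_inv continuous_vec vec_ne
    have c2 := (continuous_sect hc s N N).comp Ψ.continuous
    have c3 := continuous_vec
    refine ⟨⟨fun z => (sqn (vec z))⁻¹ * (conj (vec z).1 * (sect (fun a => P (H a)) s N (Ψ z) N).1
      + conj (vec z).2 * (sect (fun a => P (H a)) s N (Ψ z) N).2), ?_⟩, fun z h => ?_, fun z => ?_⟩
    · exact c1.mul (((Complex.continuous_conj.comp c3.fst).mul c2.fst).add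
        ((Complex.continuous_conj.comp c3.snd).mul c2.snd))
    · refine hN _ ⟨z, rfl⟩ N ?_
      rw [ContinuousMap.coe_mk] at h
      rw [← e z, h, zero_smul]
    · exact (congrArg Prod.fst (e z)).symm

end Vale.Agent.P173
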