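import Vale.Agent.P173.Ker
import Vale.Agent.P173.Sect
import Vale.Agent.P173.IndepAux

/-! The lifted relators are independent. -/

open Set Topology unitInterval Filter

namespace Vale.Agent.P173

variable {X Y : Type*} {Γ : Type} [TopologicalSpace X] [TopologicalSpace Y] [Group Γ]
  (S : Setup X Y Γ)

/-- The coboundary of a function on the vertices of the covering. -/
noncomputable def Setup.cob (χ : Γ × S.A → ℂ) : (Γ × S.C₁ →₀ ℤ) →ₗ[ℤ] ℂ :=
  Finsupp.linearCombination ℤ fun p =>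
    χ (p.1 * S.a p.2, S.Φ₁ p.2 (seg 1)) - χ (p.1, S.Φ₁ p.2 (seg 0))

theorem Setup.cob_fox (χ : Γ × S.A → ℂ) {u v : S.A} {γ : Path u v} {w : FreeGroup S.C₁}
    (h : EP S.Φ₁ γ w) (g : Γ) :
    S.cob χ (fox S.a w g) = χ (g * FreeGroup.lift S.a w, v) - χ (g, u) := by
  induction h generalizing g with
  | refl u => simp
  | edge e => simp [Setup.cob]
  | symm _ ih => rw [fox_inv', map_neg, ih, inv_mul_cancel_right, map_inv, neg_sub]
  | trans _ _ ih ih' => rw [fox_mul, map_add, ih, ih', map_mul, mul_assoc]; ring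
  | htpy _ _ ih => exact ih g

/-- The map is the lift of the 2-cell `c` labelled by `g`. -/
def Setup.Cell (g : Γ) (c : S.C₂) (F : C(Bl 2, Y)) : Prop :=
  (∀ z, S.p (F z) = S.Φ₂ c z) ∧
    ∃ y, S.κ y = g ∧ En S.p (fun t => (S.pc c t).1) y (F (circF 0))

theorem Setup.cell_ex (g : Γ) (c : S.C₂) : ∃ F, S.Cell g c F := by
  obtain ⟨y₀, h0, k0⟩ := S.ex S.x₀.1.1 g
  obtain ⟨y₁, h1⟩ := en_ex S.cov (continuous_subtype_val.comp (S.pc c).continuous) (y := y₀)
    (by simpa using h0)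
  obtain ⟨F, f1, f2⟩ := S.lift_ball c (y := y₁) (by simpa using h1.tgt)
  exact ⟨F, f2, y₀, k0, f1 ▸ h1⟩

variable {S}

theorem Setup.Cell.disj {g g' : Γ} {c c' : S.C₂} {F F' : C(Bl 2, Y)} (h : S.Cell g c F)
    (h' : S.Cell g' c' F') {z z' : Bl 2} (hz : ‖z.1‖ < 1) (e : F z = F' z') :
    g = g' ∧ c = c' ∧ z = z' := by
  obtain ⟨rfl, rfl⟩ := S.att₂.inj c z c' z' hz (by rw [← h.1, ← h'.1, e])
  have e2 : (F : Bl 2 → Y) = F' := S.cov.eq_of_comp_eq F.continuous F'.continuous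
    (funext fun a => (h.1 a).trans (h'.1 a).symm) z e
  obtain ⟨y, rfl, k⟩ := h.2
  obtain ⟨y', rfl, k'⟩ := h'.2
  rw [← e2] at k'
  exact ⟨congrArg _ ((En.symm k).uniq S.cov (En.symm k')), rfl, rfl⟩

theorem Setup.Cell.isOpen {g : Γ} {c : S.C₂} {F : C(Bl 2, Y)} (h : S.Cell g c F) :
    IsOpen (F '' {z | ‖z.1‖ < 1}) := by
  refine isOpen_iff_mem_nhds.2 ?_
  rintro _ ⟨z, hz, rfl⟩
  obtain ⟨U, hU, hzU, hi⟩ := S.cov.isLocalHomeomorph.isLocallyInjective (F z)
  have h1 : {z : Bl 2 | ‖z.1‖ < 1} ∩ F ⁻¹' U ∈ 𝓝 z :=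
    ((isOpen_lt continuous_subtype_val.norm continuous_const).inter
      (hU.preimage F.continuous)).mem_nhds ⟨hz, hzU⟩
  have h2 := image_mem_map (m := S.Φ₂ c) h1
  rw [S.att₂.map_nhds c hz, ← h.1] at h2
  filter_upwards [S.cov.continuous.continuousAt.preimage_mem_nhds h2, hU.mem_nhds hzU]
  rintro y ⟨a, ⟨a1, a2⟩, a3⟩ hy
  exact ⟨a, a1, hi a2 hy ((h.1 a).trans a3)⟩

variable (S) in
/-- The winding numbers along the lifted edges. -/
noncomputable def Setup.wind (f : Y → ℂ) : (Γ × S.C₁ →₀ ℤ) →ₗ[ℤ] ℂ :=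
  Finsupp.linearCombination ℤ fun q => Classical.epsilon fun z => ∃ (y y' : Y) (δ : Path y y'),
    S.κ y = q.1 ∧ (∀ t, S.p (δ t) = (edge S.Φ₁ q.2 t).1) ∧ Wn (fun t => f (δ t)) z

theorem Setup.wind_fox {f : ℕ → C(Y, ℂ)}
    (hf : ∀ K : Set Y, IsCompact K → (∀ y ∈ K, S.p y ∈ S.A) → ∀ᶠ N in atTop, ∀ y ∈ K, f N y ≠ 0)
    {u v : S.A} {γ : Path u v} {w : FreeGroup S.C₁} (h : EP S.Φ₁ γ w) {y y' : Y} (δ : Path y y')
    (hδ : ∀ t, S.p (δ t) = (γ t).1) :
    ∀ᶠ N in atTop, Wn (fun t => f N (δ t)) (S.wind (f N) (fox S.a w (S.κ y))) := by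
  induction h generalizing y y' with
  | refl u =>
    have e : ∀ t, δ t = y := lift_eq S.cov δ (Path.refl y) fun t => by
      rw [hδ, Path.refl_apply, Path.refl_apply, ← δ.source, hδ, Path.refl_apply]
    filter_upwards [hf {y} isCompact_singleton (by
      rintro _ rfl; rw [← δ.source, hδ]; exact Subtype.coe_prop _)] with N hN
    rw [fox_one, map_zero, ← sub_self (Complex.log (f N y))]
    exact wn_of_log (L := fun _ => Complex.log (f N y)) continuous_const fun t => by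
      rw [e, Complex.exp_log (hN y rfl)]
  | edge e =>
    filter_upwards [hf _ (isCompact_range δ.continuous) (by
      rintro _ ⟨t, rfl⟩; rw [hδ]; exact Subtype.coe_prop _)] with N hN
    obtain ⟨z, hz⟩ := wn_ex ((f N).continuous.comp δ.continuous) fun t => hN _ ⟨t, rfl⟩
    rw [fox_of, Setup.wind, Finsupp.linearCombination_single, one_smul]
    obtain ⟨y₂, y₂', δ₂, h1, h2, h3⟩ := Classical.epsilon_spec (p := fun z =>
      ∃ (y₂ y₂' : Y) (δ₂ : Path y₂ y₂'), S.κ y₂ = S.κ y ∧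
        (∀ t, S.p (δ₂ t) = (edge S.Φ₁ e t).1) ∧ Wn (fun t => f N (δ₂ t)) z)
      ⟨z, y, y', δ, rfl, hδ, hz⟩
    obtain rfl : y₂ = y := S.uniq (by rw [← δ.source, ← δ₂.source, hδ, h2]) h1
    simp only [lift_eq S.cov δ δ₂ fun t => (hδ t).trans (h2 t).symm]
    exact h3
  | @symm u v γ w h ih =>
    have h1 : ∀ t, S.p (δ.symm t) = (γ t).1 := fun t => by
      rw [Path.symm_apply, Function.comp_apply, hδ, Path.symm_apply, Function.comp_apply,
        unitInterval.symm_symm]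
    filter_upwards [ih δ.symm h1] with N hN
    rw [En.rule ⟨δ.symm, h1⟩ (S.ep_rule h), fox_inv, map_neg]
    have := hN.symm
    rwa [Path.symm_symm] at this
  | @trans u v x γ γ' w w' h h' ih ih' =>
    obtain ⟨y₁, ⟨δ₁, h1⟩, δ₂, h2⟩ := En.split S.cov continuous_subtype_val ⟨δ, hδ⟩
    filter_upwards [ih δ₁ h1, ih' δ₂ h2] with N a1 a2
    rw [fox_mul, map_add, ← En.rule ⟨δ₁, h1⟩ (S.ep_rule h)]
    simp only [lift_eq S.cov δ (δ₁.trans δ₂) fun t => (hδ t).trans (lift_trans h1 h2 t).symm]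
    exact a1.trans a2
  | @htpy u v γ γ' w h hh ih =>
    obtain ⟨F⟩ := hh
    have hy : S.p y = u.1 := by rw [← δ.source, hδ, γ'.source]
    obtain ⟨y₁, δ₁, h1⟩ := en_ex S.cov (continuous_subtype_val.comp γ.continuous) (y := y)
      (by simpa using hy)
    let H : C(I × I, X) := ⟨fun a => (F a).1, continuous_subtype_val.comp F.continuous⟩
    have H0 : ∀ t, H (0, t) = S.p (δ₁.toContinuousMap t) := fun t =>
      (congrArg Subtype.val (F.apply_zero t)).trans (h1 t).symm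
    let G := S.cov.liftHomotopy H δ₁.toContinuousMap H0
    have g1 : ∀ a, S.p (G a) = (F a).1 := congrFun (S.cov.liftHomotopy_lifts H _ H0)
    have g2 : ∀ t, G (0, t) = δ₁ t := S.cov.liftHomotopy_zero H _ H0
    have g3 : ∀ s s', G (s, 0) = G (s', 0) := S.cov.const_of_comp (g := fun s => G (s, 0))
      (by fun_prop) fun s s' => by rw [g1, g1, F.source, F.source]
    have g4 : ∀ s s', G (s, 1) = G (s', 1) := S.cov.const_of_comp (g := fun s => G (s, 1))
      (by fun_prop) fun s s' => by rw [g1, g1, F.target, F.target]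
    have g5 : (fun t => G (1, t)) = δ := S.cov.eq_of_comp_eq (by fun_prop) δ.continuous
      (funext fun t => (g1 _).trans ((congrArg Subtype.val (F.apply_one t)).trans (hδ t).symm)) 0
      (by rw [g3 1 0, g2, δ₁.source, δ.source])
    filter_upwards [ih δ₁ h1, hf _ (isCompact_range G.continuous) (by
      rintro _ ⟨a, rfl⟩; rw [g1]; exact Subtype.coe_prop _)] with N a1 a2
    have := Wn.htpy (H := fun a => f N (G a)) (by fun_prop) (fun a => a2 _ ⟨a, rfl⟩)
      (fun s s' => by rw [g3 s s']) (fun s s' => by rw [g4 s s']) (by simpa only [g2] using a1)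
    simpa only [fun t => congrFun g5 t] using this

theorem Setup.Cell.wind {f : ℕ → C(Y, ℂ)}
    (hf : ∀ K : Set Y, IsCompact K → (∀ y ∈ K, S.p y ∈ S.A) → ∀ᶠ N in atTop, ∀ y ∈ K, f N y ≠ 0)
    {g : Γ} {c : S.C₂} {F : C(Bl 2, Y)} (h : S.Cell g c F) :
    ∀ᶠ N in atTop, ∀ z, Wn (fun t : I => f N (F (circF t))) z →
      S.wind (f N) (fox S.a (S.w c) g) = z := by
  obtain ⟨h1, y, rfl, δ, hδ⟩ := h
  have h2 : ∀ t, S.p (circ.map F.continuous t) = (S.att₂.loop c t).1 := fun t => h1 _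
  have h3 : ∀ t, S.p (δ.symm t) = ((S.pc c).symm t).1 := fun t => hδ _
  filter_upwards [S.wind_fox hf (S.epw c) _ (lift_trans (lift_trans hδ h2) h3),
    hf _ (isCompact_range δ.continuous) (by
      rintro _ ⟨t, rfl⟩; rw [hδ]; exact Subtype.coe_prop _)] with N a1 a2 z hz
  obtain ⟨b, hb⟩ := wn_ex ((f N).continuous.comp δ.continuous) fun t => a2 _ ⟨t, rfl⟩
  rw [a1.uniq ((Wn.trans (δ' := circ.map F.continuous) hb hz).trans (Wn.symm hb))]
  ring

variable (S) [ContractibleSpace Y] [T2Space Y]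

theorem Setup.inj : Function.Injective (d2 S.a S.r) := by
  classical
  refine (injective_iff_map_eq_zero _).2 fun x hx => ?_
  have ha : ∀ g v, x (g, .inr v) = 0 := fun g₀ v₀ => by
    have hne : ∀ g : Γ, (g, S.x₀.1) ≠ (g₀, v₀.1.1) := fun g e =>
      v₀.2 (Subtype.ext (congrArg Prod.snd e).symm)
    refine coef_zero hx (S.cob fun q => if q = (g₀, v₀.1.1) then 1 else 0) ?_ ?_
    · show S.cob _ (fox S.a (S.q v₀.1) g₀) ≠ 0
      rw [S.cob_fox _ (S.epq _), S.aq, mul_one, if_pos rfl, if_neg (hne _)]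
      simp
    · rintro ⟨g, c | v⟩ - hj
      · show S.cob _ (fox S.a (S.w c) g) = 0
        rw [S.cob_fox _ (S.epw _), S.aw, mul_one, sub_self]
      · show S.cob _ (fox S.a (S.q v.1) g) = 0
        rw [S.cob_fox _ (S.epq _), S.aq, mul_one, if_neg (hne _), if_neg, sub_self]
        intro e
        obtain ⟨e1, e2⟩ := Prod.ext_iff.1 e
        exact hj (Prod.ext e1 (congrArg Sum.inr (Subtype.ext (Subtype.ext e2))))
  ext ⟨g₀, c₀ | v₀⟩
  swap
  · exact ha _ _
  obtain ⟨F₀, hF₀⟩ := S.cell_ex g₀ c₀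
  obtain ⟨f, hf, hl⟩ := exists_gN F₀ (fun z z' hz e => (hF₀.disj hF₀ hz e).2.2) hF₀.isOpen
  have hf' : ∀ K : Set Y, IsCompact K → (∀ y ∈ K, S.p y ∈ S.A) →
      ∀ᶠ N in atTop, ∀ y ∈ K, f N y ≠ 0 := fun K hK h => hf K hK (disjoint_left.2 (by
    rintro _ hy ⟨z, hz, rfl⟩
    have := h _ hy
    rw [hF₀.1, S.att₂.mem] at this
    exact ne_of_lt hz this))
  have h1 : ∀ j ∈ x.support, ∀ᶠ N in atTop, j ≠ (g₀, .inl c₀) →
      S.wind (f N) (fox S.a (S.r j.2) j.1) = 0 := by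
    rintro ⟨g, c | v⟩ hj
    swap
    · exact absurd (ha g v) (Finsupp.mem_support_iff.1 hj)
    by_cases e : (g, Sum.inl c) = (g₀, (.inl c₀ : S.C₂ ⊕ {v : S.B // v ≠ S.x₀}))
    · exact Eventually.of_forall fun N h => absurd e h
    obtain ⟨F, hF⟩ := S.cell_ex g c
    filter_upwards [hF.wind hf', hf _ (isCompact_range F.continuous) (disjoint_left.2 (by
      rintro _ ⟨z, rfl⟩ ⟨z', hz, k⟩
      obtain ⟨rfl, rfl, -⟩ := hF₀.disj hF hz k
      exact e rfl))] with N a1 a2 _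
    obtain ⟨L, hL⟩ := exists_log ((f N).continuous.comp F.continuous) fun z => a2 _ ⟨z, rfl⟩
    have := wn_of_log (L := fun t : I => L (circ t)) (L.continuous.comp circ.continuous)
      (f := fun t : I => f N (F (circF t))) fun t => hL _
    rw [circ.target, circ.source, sub_self] at this
    exact a1 0 this
  obtain ⟨N, a1, a2, lam, l1, l2⟩ :=
    (((eventually_all_finset _).2 h1).and ((hF₀.wind hf').and hl)).exists
  obtain ⟨L, hL, hne⟩ := circ_log
  obtain ⟨M, hM⟩ := exists_log lam.continuous l1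
  have := wn_of_log (L := fun t : I => M (circ t) + L t)
    ((M.continuous.comp circ.continuous).add L.continuous)
    (f := fun t : I => f N (F₀ (circF t))) fun t => by rw [Complex.exp_add, hM, hL, l2]; rfl
  rw [circ.target, circ.source, add_sub_add_left_eq_sub] at this
  refine coef_zero hx (S.wind (f N)) ?_ a1
  show S.wind (f N) (fox S.a (S.w c₀) g₀) ≠ 0
  rw [a2 _ this]
  exact sub_ne_zero.2 hne

end Vale.Agent.P173
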