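import Vale.Agent.P173.Top
import Mathlib.AlgebraicTopology.FundamentalGroupoid.SimplyConnected

/-! End points of lifted paths. -/

open Set Topology unitInterval

namespace Vale.Agent.P173

variable {X T : Type*} [TopologicalSpace X] [TopologicalSpace T] {p : T → X}

/-- Some lift of `f` runs from `y` to `y'`. -/
def En (p : T → X) (f : I → X) (y y' : T) : Prop := ∃ δ : Path y y', ∀ t, p (δ t) = f t

omit [TopologicalSpace X] in
theorem En.src {f : I → X} {y y' : T} (h : En p f y y') : p y = f 0 := by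
  obtain ⟨δ, h⟩ := h
  rw [← h 0, δ.source]

omit [TopologicalSpace X] in
theorem En.tgt {f : I → X} {y y' : T} (h : En p f y y') : p y' = f 1 := by
  obtain ⟨δ, h⟩ := h
  rw [← h 1, δ.target]

theorem en_ex (cov : IsCoveringMap p) {f : I → X} (hf : Continuous f) {y : T} (hy : p y = f 0) :
    ∃ y', En p f y y' := by
  obtain ⟨δ, h1, h2⟩ := cov.exists_path_lifts ⟨f, hf⟩ y hy.symm
  exact ⟨δ 1, ⟨δ, h2, rfl⟩, fun t => congrFun h1 t⟩

theorem lift_eq (cov : IsCoveringMap p) {y y₁ y₂ : T} (δ₁ : Path y y₁) (δ₂ : Path y y₂)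
    (h : ∀ t, p (δ₁ t) = p (δ₂ t)) (t : I) : δ₁ t = δ₂ t :=
  congrFun (cov.eq_of_comp_eq δ₁.continuous δ₂.continuous (funext h) 0
    (δ₁.source.trans δ₂.source.symm)) t

theorem En.uniq (cov : IsCoveringMap p) {f : I → X} {y y₁ y₂ : T} (h₁ : En p f y y₁)
    (h₂ : En p f y y₂) : y₁ = y₂ := by
  obtain ⟨δ₁, h₁⟩ := h₁
  obtain ⟨δ₂, h₂⟩ := h₂
  rw [← δ₁.target, ← δ₂.target]
  exact lift_eq cov δ₁ δ₂ (fun t => (h₁ t).trans (h₂ t).symm) 1

section

variable {Z : Type*} [TopologicalSpace Z] {ι : Z → X} {u v x : Z}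

omit [TopologicalSpace X] in
theorem En.symm {γ : Path u v} {y y' : T} (h : En p (fun t => ι (γ t)) y y') :
    En p (fun t => ι (γ.symm t)) y' y := by
  obtain ⟨δ, h⟩ := h
  exact ⟨δ.symm, fun t => h _⟩

omit [TopologicalSpace X] in
theorem lift_trans {γ : Path u v} {γ' : Path v x} {y y' y'' : T} {δ : Path y y'}
    {δ' : Path y' y''} (h : ∀ t, p (δ t) = ι (γ t)) (h' : ∀ t, p (δ' t) = ι (γ' t)) (t : I) :
    p (δ.trans δ' t) = ι (γ.trans γ' t) := by
  rw [Path.trans_apply, Path.trans_apply]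
  split_ifs
  · exact h _
  · exact h' _

omit [TopologicalSpace X] in
theorem En.trans {γ : Path u v} {γ' : Path v x} {y y' y'' : T}
    (h : En p (fun t => ι (γ t)) y y') (h' : En p (fun t => ι (γ' t)) y' y'') :
    En p (fun t => ι (γ.trans γ' t)) y y'' := by
  obtain ⟨δ, h⟩ := h
  obtain ⟨δ', h'⟩ := h'
  exact ⟨δ.trans δ', lift_trans h h'⟩

theorem En.split (cov : IsCoveringMap p) (hι : Continuous ι) {γ : Path u v} {γ' : Path v x}
    {y y'' : T} (h : En p (fun t => ι (γ.trans γ' t)) y y'') :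
    ∃ y', En p (fun t => ι (γ t)) y y' ∧ En p (fun t => ι (γ' t)) y' y'' := by
  obtain ⟨y', h1⟩ := en_ex cov (hι.comp γ.continuous) (y := y) (by simpa using h.src)
  obtain ⟨y₂, h2⟩ := en_ex cov (hι.comp γ'.continuous) (y := y') (by simpa using h1.tgt)
  exact ⟨y', h1, (h1.trans h2).uniq cov h ▸ h2⟩

omit [TopologicalSpace X] in
theorem En.rule {H : Type*} [Group H] {κ : T → H} {γ : Path u v} {g : H} {y y' : T}
    (h : En p (fun t => ι (γ t)) y y') (hr : Rule p ι κ γ g) : κ y' = κ y * g := by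
  obtain ⟨δ, h⟩ := h
  have := hr δ.toContinuousMap h
  simpa using this

end

theorem En.htpy (cov : IsCoveringMap p) {a b : X} {γ γ' : Path a b} (hh : γ.Homotopic γ')
    {y y' : T} (h : En p γ y y') : En p γ' y y' := by
  have h0 : γ.toContinuousMap 0 = p y := h.src.symm
  have h1 : γ'.toContinuousMap 0 = p y := by simpa using h0
  have e := cov.liftPath_apply_one_eq_of_homotopicRel hh y h0 h1
  have a0 : En p γ y (cov.liftPath _ y h0 1) :=
    ⟨⟨_, cov.liftPath_zero _ y h0, rfl⟩, fun t => congrFun (cov.liftPath_lifts _ y h0) t⟩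
  rw [h.uniq cov a0, e]
  exact ⟨⟨_, cov.liftPath_zero _ y h1, rfl⟩, fun t => congrFun (cov.liftPath_lifts _ y h1) t⟩

theorem norm_seg_zero : ‖(seg 0).1‖ = 1 := by simp [seg]

theorem norm_seg_one : ‖(seg 1).1‖ = 1 := by
  simp only [seg, Icc.coe_one, pi_norm_const]
  norm_num

end Vale.Agent.P173
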