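import Vale.Agent.P173.Gen
import Vale.Agent.P173.Cech
import Vale.Agent.P173.Ext
import Vale.Agent.P173.KerAux

/-! The 1-cells generate the group and the relators generate the relations. -/

open Set Topology unitInterval

namespace Vale.Agent.P173

variable {X Y : Type*} {Γ : Type} [TopologicalSpace X] [TopologicalSpace Y] [Group Γ]
  (S : Setup X Y Γ)

theorem Setup.ex (x : X) (g : Γ) : ∃ y, S.p y = x ∧ S.κ y = g := by
  obtain ⟨y, h⟩ := S.bij.2 (x, g)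
  exact ⟨y, congrArg Prod.fst h, congrArg Prod.snd h⟩

theorem Setup.uniq {y y' : Y} (h : S.p y = S.p y') (h' : S.κ y = S.κ y') : y = y' :=
  S.bij.1 (Prod.ext h h')

theorem Setup.ep_rule {u v : S.A} {γ : Path u v} {w : FreeGroup S.C₁} (h : EP S.Φ₁ γ w) :
    Rule S.p Subtype.val S.κ γ (FreeGroup.lift S.a w) :=
  h.rule S.cov continuous_subtype_val S.rule

/-- The initial vertex of a 1-cell. -/
def Setup.src (e : S.C₁) : S.B := ⟨S.Φ₁ e (seg 0), (S.att₁.mem _ _).2 norm_seg_zero⟩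

/-- The final vertex of a 1-cell. -/
def Setup.tgt (e : S.C₁) : S.B := ⟨S.Φ₁ e (seg 1), (S.att₁.mem _ _).2 norm_seg_one⟩

theorem Setup.lift_ball (c : S.C₂) {y : Y} (hy : S.p y = S.Φ₂ c (circF 0)) :
    ∃ F : C(Bl 2, Y), F (circF 0) = y ∧ ∀ z, S.p (F z) = S.Φ₂ c z := by
  obtain ⟨F, ⟨h1, h2⟩, -⟩ := S.cov.existsUnique_continuousMap_lifts (S.Φ₂ c) (circF 0) y hy
  exact ⟨F, h1, fun z => congrFun h2 z⟩

theorem Setup.loop_ep (w : FreeGroup S.C₁) : ∃ γ : Path S.x₀.1 S.x₀.1, EP S.Φ₁ γ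
    (FreeGroup.lift (fun e => S.q (S.src e) * .of e * (S.q (S.tgt e))⁻¹) w) := by
  induction w using FreeGroup.induction_on with
  | C1 => exact ⟨_, by rw [map_one]; exact EP.refl _⟩
  | of e =>
    rw [FreeGroup.lift_apply_of]
    exact ⟨_, ((S.epq (S.src e)).trans (EP.edge e)).trans (S.epq (S.tgt e)).symm⟩
  | inv_of e h =>
    obtain ⟨γ, h⟩ := h
    exact ⟨_, by rw [map_inv]; exact h.symm⟩
  | mul u v hu hv =>
    obtain ⟨γ, h⟩ := hu
    obtain ⟨γ', h'⟩ := hv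
    exact ⟨_, by rw [map_mul]; exact h.trans h'⟩

variable [ContractibleSpace Y]

theorem Setup.surj : Function.Surjective (FreeGroup.lift S.a) := by
  intro g
  obtain ⟨y₀, h0, k0⟩ := S.ex S.x₀.1.1 1
  obtain ⟨y₁, h1, k1⟩ := S.ex S.x₀.1.1 g
  let δ := PathConnectedSpace.somePath y₀ y₁
  let γ : Path S.x₀.1.1 S.x₀.1.1 := (δ.map S.cov.continuous).cast h0.symm h1.symm
  obtain ⟨γ', hh⟩ := exists_path_in S.att₂ _ _ γ
  obtain ⟨w, hw⟩ := exists_EP S.att₁ S.disc S.x₀.2 S.x₀.2 γ'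
  have e : En S.p γ y₀ y₁ := ⟨δ, fun _ => rfl⟩
  have := En.rule (γ := γ') (e.htpy S.cov hh) (S.ep_rule hw)
  rw [k0, k1, one_mul] at this
  exact ⟨w, this.symm⟩

theorem Setup.aw (c : S.C₂) : FreeGroup.lift S.a (S.w c) = 1 := by
  obtain ⟨y₀, h0, -⟩ := S.ex S.x₀.1.1 1
  obtain ⟨y₁, h1⟩ := en_ex S.cov (continuous_subtype_val.comp (S.pc c).continuous) (y := y₀)
    (by simpa using h0)
  obtain ⟨F, f1, f2⟩ := S.lift_ball c (y := y₁) (by simpa using h1.tgt)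
  have h2 : En S.p (fun t => (S.att₂.loop c t).1) y₁ y₁ :=
    ⟨(circ.map F.continuous).cast f1.symm f1.symm, fun t => f2 _⟩
  have := ((En.trans h1 h2).trans (En.symm h1)).rule (S.ep_rule (S.epw c))
  exact (mul_eq_left.1 this.symm)

theorem Setup.ker : (FreeGroup.lift S.a).ker = Subgroup.normalClosure (Set.range S.r) := by
  refine le_antisymm (fun w hw => ?_) (Subgroup.normalClosure_le_normal ?_)
  swap
  · rintro _ ⟨c | v, rfl⟩
    · exact S.aw c
    · exact S.aq v.1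
  set N := Subgroup.normalClosure (Set.range S.r)
  let lab : S.C₁ → FreeGroup S.C₁ ⧸ N := fun e => QuotientGroup.mk' N (.of e)
  have hlab : FreeGroup.lift lab = QuotientGroup.mk' N := FreeGroup.ext_hom _ _ fun e => by
    rw [FreeGroup.lift_apply_of]
  have hr : ∀ i, QuotientGroup.mk' N (S.r i) = 1 := fun i =>
    (QuotientGroup.eq_one_iff _).2 (Subgroup.subset_normalClosure ⟨i, rfl⟩)
  have hq : ∀ v, QuotientGroup.mk' N (S.q v) = 1 := fun v => by
    by_cases h : v = S.x₀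
    · rw [h, S.q₀, map_one]
    · exact hr (.inr ⟨v, h⟩)
  obtain ⟨K, hB, hK⟩ := S.att₁.exists_coc lab
  obtain ⟨T₁, _, p₁, κ₁, c₁⟩ := K.exists_cov
  have hl : ∀ c, ∃ δ : C(I, T₁), (∀ t, p₁ (δ t) = S.att₂.loop c t) ∧ δ 1 = δ 0 := by
    intro c
    obtain ⟨y₀, h0, -⟩ := c₁.ex false S.x₀.1 1 (hB S.x₀.2)
    obtain ⟨y', h1⟩ := en_ex c₁.cov
      (((S.pc c).trans (S.att₂.loop c)).trans (S.pc c).symm).continuous (y := y₀)
      (by simpa using h0)
    have h2 := En.rule (ι := id) h1 ((S.epw c).rule c₁.cov continuous_id (c₁.rule_edge hK))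
    rw [hlab, show QuotientGroup.mk' N (S.w c) = 1 from hr (.inl c), mul_one] at h2
    obtain rfl : y₀ = y' := c₁.uniq false _ _ (h0 ▸ hB S.x₀.2)
      (h0.trans (by simpa using h1.tgt.symm)) h2.symm
    obtain ⟨y₂, h3, h4⟩ := En.split (ι := id) c₁.cov continuous_id h1
    obtain ⟨y₁, h5, h6⟩ := En.split (ι := id) c₁.cov continuous_id h3
    have h7 := h4.symm
    rw [Path.symm_symm] at h7
    obtain rfl := h5.uniq c₁.cov h7
    obtain ⟨δ, hδ⟩ := h6
    exact ⟨δ.toContinuousMap, hδ, δ.target.trans δ.source.symm⟩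
  obtain ⟨K', hU, hc⟩ := S.att₂.extend c₁ hl
  have hK' : K'.Lab Subtype.val S.Φ₁ lab (some false) (some true) :=
    ⟨fun e t h => (hU _ _).2 (hK.left e t h), fun e t h h' => (hU _ _).2 (hK.mid e t h h'),
      fun e t h h' => (hc _ _ _).trans (hK.lo e t h h'),
      fun e t h h' => (hc _ _ _).trans (hK.hi e t h h')⟩
  obtain ⟨T, _, p, κ, c₂⟩ := K'.exists_cov
  obtain ⟨γ, hγ⟩ := S.loop_ep w
  have e1 : (FreeGroup.lift S.a).comp (FreeGroup.lift
      fun e => S.q (S.src e) * .of e * (S.q (S.tgt e))⁻¹) = FreeGroup.lift S.a :=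
    FreeGroup.ext_hom _ _ fun e => by simp [S.aq]
  have e2 : (QuotientGroup.mk' N).comp (FreeGroup.lift
      fun e => S.q (S.src e) * .of e * (S.q (S.tgt e))⁻¹) = QuotientGroup.mk' N :=
    FreeGroup.ext_hom _ _ fun e => by
      rw [MonoidHom.comp_apply, FreeGroup.lift_apply_of, map_mul, map_mul, map_inv, hq, hq,
        one_mul, inv_one, mul_one]
  obtain ⟨y₀, h0, -⟩ := S.ex S.x₀.1.1 1
  obtain ⟨y₁, h1⟩ := en_ex S.cov (continuous_subtype_val.comp γ.continuous) (y := y₀)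
    (by simpa using h0)
  have h2 := En.rule h1 (S.ep_rule hγ)
  rw [← MonoidHom.comp_apply, e1, MonoidHom.mem_ker.1 hw, mul_one] at h2
  obtain rfl : y₀ = y₁ := S.uniq (h0.trans (by simpa using h1.tgt.symm)) h2.symm
  obtain ⟨δ, hδ⟩ := h1
  have hh : ((Path.refl y₀).map S.cov.continuous).Homotopic (δ.map S.cov.continuous) :=
    (SimplyConnectedSpace.paths_homotopic _ _).map ⟨S.p, S.cov.continuous⟩
  obtain ⟨t₀, k0, -⟩ := c₂.ex (some false) S.x₀.1.1 1 ((hU _ _).2 (hB S.x₀.2))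
  have h3 : En p ((Path.refl y₀).map S.cov.continuous) t₀ t₀ :=
    ⟨Path.refl _, fun _ => k0.trans h0.symm⟩
  obtain ⟨δ', hδ'⟩ := h3.htpy c₂.cov hh
  have h4 := En.rule (γ := γ) ⟨δ', fun t => (hδ' t).trans (hδ t)⟩
    (hγ.rule c₂.cov continuous_subtype_val (c₂.rule_edge hK'))
  rw [hlab, ← MonoidHom.comp_apply, e2] at h4
  exact (QuotientGroup.eq_one_iff _).1 (mul_eq_left.1 h4.symm)

end Vale.Agent.P173
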