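import Vale.Agent.P173.Gen
import Vale.Agent.P173.Cech
import Mathlib.AlgebraicTopology.FundamentalGroupoid.FundamentalGroup

/-! Coordinates on the contractible covering, and the choice of base paths and relators. -/

open Set Topology unitInterval

namespace Vale.Agent.P173

universe u v

theorem lemY_unique {Z X T H : Type*} [TopologicalSpace Z] [TopologicalSpace X]
    [TopologicalSpace T] [Group H] {p : T → X} (cov : IsCoveringMap p)
    (hs : Function.Surjective p) {ι : Z → X} (hι : Continuous ι) {κ : T → H} {u v : Z}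
    {γ : Path u v} {g g' : H} (h : Rule p ι κ γ g) (h' : Rule p ι κ γ g') : g = g' := by
  obtain ⟨y, hy⟩ := hs (ι (γ 0))
  obtain ⟨y', δ, hδ⟩ := cech_lift cov (hι.comp γ.continuous) y hy
  exact mul_left_cancel ((h δ.toContinuousMap hδ).symm.trans (h' δ.toContinuousMap hδ))

theorem exists_kappa {X Y Γ : Type*} [TopologicalSpace X] [TopologicalSpace Y] [Group Γ]
    [ContractibleSpace Y] {p : Y → X} (cov : IsCoveringMap p) (hs : Function.Surjective p)
    (x : X) (φ : FundamentalGroup X x ≃* Γ) :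
    ∃ κ : Y → Γ, (Function.Bijective fun y => (p y, κ y)) ∧
      ∀ (u v : X) (γ : Path u v), ∃ g, Rule p id κ γ g := by
  obtain ⟨y₀, rfl⟩ := hs x
  let L : ∀ y, Path.Homotopic.Quotient (p y₀) (p y) := fun y =>
    (Path.Homotopic.Quotient.mk (PathConnectedSpace.somePath y₀ y)).map ⟨p, cov.continuous⟩
  have hL : ∀ y (q : Path.Homotopic.Quotient y₀ y), q.map ⟨p, cov.continuous⟩ = L y :=
    fun y q => congrArg (fun q : Path.Homotopic.Quotient y₀ y => q.map ⟨p, cov.continuous⟩)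
      (Subsingleton.elim _ _)
  have hb : ∀ u, Nonempty (Path.Homotopic.Quotient (p y₀) u) := fun u => by
    obtain ⟨y, rfl⟩ := hs u
    exact ⟨L y⟩
  let b : ∀ u, Path.Homotopic.Quotient (p y₀) u := fun u => (hb u).some
  let K : Y → FundamentalGroup X (p y₀) := fun y => .fromPath ((L y).trans (b (p y)).symm)
  let ψ : X × Γ → Y := fun z =>
    (cov.monodromy ((φ.symm z.2⁻¹).toPath.trans (b z.1)) ⟨y₀, rfl⟩).1
  refine ⟨fun y => (φ (K y))⁻¹, ⟨Function.LeftInverse.injective (g := ψ) fun y => ?_,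
    fun z => ⟨ψ z, ?_⟩⟩, fun u v γ =>
      ⟨(φ (.fromPath ((b u).trans ((Path.Homotopic.Quotient.mk γ).trans (b v).symm))))⁻¹, fun δ hδ => ?_⟩⟩
  · have h1 : (K y).toPath.trans (b (p y)) = L y := by simp [K]
    simp only [ψ, inv_inv, MulEquiv.symm_apply_apply, h1]
    exact congrArg Subtype.val (cov.monodromy_map _)
  · have h1 : ∀ u y (h : p y = u) (q : Path.Homotopic.Quotient (p y₀) u),
        L y = q.cast rfl h → K y = .fromPath (q.trans (b u).symm) := by
      rintro _ y rfl q hq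
      simp [K, hq]
    have h2 := h1 z.1 (ψ z) (cov.monodromy _ _).2 _
      ((hL _ _).symm.trans (cov.map_liftPathQuotient _ ⟨y₀, rfl⟩))
    refine Prod.ext (cov.monodromy _ _).2 ?_
    simp [h2]
  · obtain rfl : u = p (δ 0) := by simpa using (hδ 0).symm
    obtain rfl : v = p (δ 1) := by simpa using (hδ 1).symm
    let δ' : Path (δ 0) (δ 1) := ⟨δ, rfl, rfl⟩
    obtain rfl : γ = δ'.map cov.continuous := Path.ext (funext fun t => (hδ t).symm)
    have h1 : L (δ 1) = (L (δ 0)).trans (Path.Homotopic.Quotient.mk (δ'.map cov.continuous)) := by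
      rw [← hL _ (Path.Homotopic.Quotient.mk ((PathConnectedSpace.somePath y₀ (δ 0)).trans δ')),
        ← Path.Homotopic.Quotient.mk_map, Path.map_trans]
      rfl
    rw [← mul_inv_rev, ← map_mul, FundamentalGroup.mul_def]
    simp only [K, h1, Path.Homotopic.Quotient.trans_assoc, gen_cancel₂]

theorem exists_setup {X : Type u} {Y : Type v} {Γ : Type} [TopologicalSpace X]
    [TopologicalSpace Y] [Group Γ] [ContractibleSpace Y] {p : Y → X} (cov : IsCoveringMap p)
    (hs : Function.Surjective p) (x : X) (φ : FundamentalGroup X x ≃* Γ)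
    {A : Set X} {C₂ : Type u} {Φ₂ : C₂ → C(Bl 2, X)} {B : Set A} {C₁ : Type u}
    {Φ₁ : C₁ → C(Bl 1, A)} (h₂ : Att 2 A Φ₂) (h₁ : Att 1 B Φ₁) (hd : IsDiscrete B) :
    Nonempty (Setup X Y Γ) := by
  classical
  obtain ⟨κ₀, hbij, hrule⟩ := exists_kappa cov hs x φ
  obtain ⟨a₀, ha₀, -⟩ := h₂.joined two_ne_zero x
  obtain ⟨b₀, hb₀, -⟩ := h₁.joined one_ne_zero ⟨a₀, ha₀⟩
  have hpath : ∀ u v : A, Nonempty (Path u v) := fun u v => by
    obtain ⟨y, hy⟩ := hs u.1
    obtain ⟨y', hy'⟩ := hs v.1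
    obtain ⟨γ, -⟩ := exists_path_in h₂ u v
      (((PathConnectedSpace.somePath y y').map cov.continuous).cast hy.symm hy'.symm)
    exact ⟨γ⟩
  have hpv : ∀ v : B, ∃ (γ : Path b₀ v.1) (w : FreeGroup C₁), EP Φ₁ γ w ∧
      (v = ⟨b₀, hb₀⟩ → w = 1) := fun v => by
    by_cases hv : v = ⟨b₀, hb₀⟩
    · subst hv
      exact ⟨_, _, .refl _, fun _ => rfl⟩
    · obtain ⟨γ⟩ := hpath b₀ v.1
      obtain ⟨w, hw⟩ := exists_EP h₁ hd hb₀ v.2 γ
      exact ⟨γ, w, hw, fun h => absurd h hv⟩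
  choose pv q epq hq using hpv
  let pc := fun c => (hpath b₀ ⟨Φ₂ c (circF 0), (h₂.mem _ _).2 (norm_circF 0)⟩).some
  choose w epw using fun c =>
    exists_EP h₁ hd hb₀ hb₀ (((pc c).trans (h₂.loop c)).trans (pc c).symm)
  choose G hG using fun v => hrule _ _ ((pv v).map continuous_subtype_val)
  let g : X → Γ := fun u => if h : ∃ v : B, v.1.1 = u then G h.choose else 1
  have hg : ∀ v : B, g v.1.1 = G v := fun v => by
    have h : ∃ v' : B, v'.1.1 = v.1.1 := ⟨v, rfl⟩
    simp only [g, dif_pos h]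
    rw [show h.choose = v from Subtype.ext (Subtype.ext h.choose_spec)]
  have hκ : ∀ {u v : A} {γ : Path u v} {a : Γ}, Rule p id κ₀ (γ.map continuous_subtype_val) a →
      Rule p Subtype.val (fun y => κ₀ y * (g (p y))⁻¹) γ (g u * a * (g v)⁻¹) :=
    fun {u v γ a} h δ hδ => by
      simp only [h δ hδ, hδ, Path.source, Path.target]
      group
  choose a ha using fun e => hrule _ _ ((edge Φ₁ e).map continuous_subtype_val)
  have haq : ∀ v, FreeGroup.lift (fun e => g (Φ₁ e (seg 0)) * a e * (g (Φ₁ e (seg 1)))⁻¹) (q v) =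
      G ⟨b₀, hb₀⟩ := fun v => by
    rw [lemY_unique cov hs continuous_subtype_val
      ((epq v).rule cov continuous_subtype_val fun e => hκ (ha e)) (hκ (hG v)), hg v,
      mul_inv_cancel_right]
    exact hg ⟨b₀, hb₀⟩
  have h1 := haq ⟨b₀, hb₀⟩
  rw [hq _ rfl, map_one] at h1
  refine ⟨⟨A, C₂, Φ₂, h₂, B, C₁, Φ₁, h₁, hd, p, cov, fun y => κ₀ y * (g (p y))⁻¹, ?_, _,
    fun e => hκ (ha e), ⟨b₀, hb₀⟩, pv, q, epq, hq _ rfl, fun v => (haq v).trans h1.symm, pc, w,
    epw⟩⟩
  exact (Equiv.prodShear (Equiv.refl X) fun u => Equiv.mulRight (g u)⁻¹).bijective.comp hbij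

end Vale.Agent.P173
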