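import Vale.Agent.P173.Alg

/-! The uniform second order estimate for holonomies with prescribed curvature. -/

open Quaternion

namespace Vale.Agent.P173

/-- Conjugation by a unit quaternion. -/
noncomputable def Ad (q : S3) (y : ℍ[ℝ]) : ℍ[ℝ] := q * y * (q : ℍ[ℝ])⁻¹

lemma norm_Ad (q : S3) (y : ℍ[ℝ]) : ‖Ad q y‖ = ‖y‖ := by
  rw [Ad, norm_mul, norm_mul, norm_inv, q.norm_coe, inv_one, one_mul, mul_one]

lemma re_mul_comm (x y : ℍ[ℝ]) : (x * y).re = (y * x).re := by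
  simp only [Quaternion.re_mul]; ring

lemma Ad_re (q : S3) (y : ℍ[ℝ]) : (Ad q y).re = y.re := by
  rw [Ad, re_mul_comm, ← mul_assoc, inv_mul_cancel₀ q.coe_ne_zero, one_mul]

@[simp] lemma Ad_one (y : ℍ[ℝ]) : Ad 1 y = y := by simp [Ad]

lemma Ad_mul (p q : S3) (y : ℍ[ℝ]) : Ad (p * q) y = Ad p (Ad q y) := by
  simp [Ad, mul_assoc]

@[simp] lemma Ad_zero (q : S3) : Ad q 0 = 0 := by simp [Ad]

lemma Ad_add (q : S3) (x y : ℍ[ℝ]) : Ad q (x + y) = Ad q x + Ad q y := by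
  simp [Ad, mul_add, add_mul]

lemma Ad_sub (q : S3) (x y : ℍ[ℝ]) : Ad q (x - y) = Ad q x - Ad q y := by
  simp [Ad, mul_sub, sub_mul]

lemma Ad_zsmul (q : S3) (n : ℤ) (x : ℍ[ℝ]) : Ad q (n • x) = n • Ad q x := by
  rw [Ad, Ad, mul_smul_comm, smul_mul_assoc]

lemma Ad_unit (q : S3) : Ad q 1 = 1 := by
  rw [Ad, mul_one, mul_inv_cancel₀ q.coe_ne_zero]

lemma Ad_coe (q k : S3) : Ad q k = ((q * k * q⁻¹ : S3) : ℍ[ℝ]) := rfl

lemma norm_Ad_sub (k : S3) (y : ℍ[ℝ]) : ‖Ad k y - y‖ ≤ 2 * (‖(k : ℍ[ℝ]) - 1‖ * ‖y‖) := by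
  have h : Ad k y - y = (((k : ℍ[ℝ]) - 1) * y - y * ((k : ℍ[ℝ]) - 1)) * (k : ℍ[ℝ])⁻¹ := by
    have : ((k : ℍ[ℝ]) - 1) * y - y * ((k : ℍ[ℝ]) - 1) = k * y - y * k := by noncomm_ring
    rw [this, sub_mul, mul_assoc y, mul_inv_cancel₀ k.coe_ne_zero, mul_one, Ad]
  rw [h, norm_mul, norm_inv, k.norm_coe, inv_one, mul_one]
  refine (norm_sub_le _ _).trans (le_of_eq ?_)
  rw [norm_mul, norm_mul]; ring

lemma continuous_Ad {X : Type*} [TopologicalSpace X] {q : X → S3} {y : X → ℍ[ℝ]}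
    (hq : Continuous q) (hy : Continuous y) : Continuous fun x => Ad (q x) (y x) :=
  ((continuous_subtype_val.comp hq).mul hy).mul
    ((continuous_subtype_val.comp hq).inv₀ fun x => (q x).coe_ne_zero)

lemma norm_inv_sub_one (x : S3) : ‖(x : ℍ[ℝ])⁻¹ - 1‖ = ‖(x : ℍ[ℝ]) - 1‖ := by
  have : (x : ℍ[ℝ])⁻¹ - 1 = -((x : ℍ[ℝ])⁻¹ * (x - 1)) := by
    rw [mul_sub, inv_mul_cancel₀ x.coe_ne_zero, mul_one, neg_sub]
  rw [this, norm_neg, norm_mul, norm_inv, x.norm_coe, inv_one, one_mul]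

lemma normSq_one_add {y : ℍ[ℝ]} (hy : y.re = 0) : ‖1 + y‖ ^ 2 = 1 + ‖y‖ ^ 2 := by
  rw [sq, sq, ← Quaternion.normSq_eq_norm_mul_self, ← Quaternion.normSq_eq_norm_mul_self,
    Quaternion.normSq_def', Quaternion.normSq_def']
  simp [hy]; ring

lemma one_add_ne_zero {y : ℍ[ℝ]} (hy : y.re = 0) : 1 + y ≠ 0 := by
  intro h
  have := congrArg (fun z : ℍ[ℝ] => z.re) h
  simp [hy] at this

lemma norm_nrm_one_add {y : ℍ[ℝ]} (hy : y.re = 0) :
    ‖((nrm (1 + y) : S3) : ℍ[ℝ]) - 1 - y‖ ≤ ‖y‖ ^ 2 := by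
  rw [sub_sub, norm_nrm_sub (one_add_ne_zero hy), abs_le]
  have h := normSq_one_add hy
  have h0 := norm_nonneg (1 + y)
  have h1 : 1 ≤ ‖1 + y‖ := by nlinarith [sq_nonneg ‖y‖]
  constructor <;> nlinarith [sq_nonneg ‖y‖]

variable {Γ E R T : Type*} [Group Γ]

/-- The transported curvature of a 2-chain. -/
noncomputable def Lin (a : E → Γ) (u : Γ → FreeGroup E) (A : Γ × E → S3) (ζ : Γ × T → ℍ[ℝ])
    (g : Γ) : (Γ × T →₀ ℤ) →ₗ[ℤ] ℍ[ℝ] :=
  Finsupp.linearCombination ℤ fun p => Ad (hol a A (u p.1) g) (ζ (g * p.1, p.2))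

lemma Lin_single (a : E → Γ) (u : Γ → FreeGroup E) (A : Γ × E → S3) (ζ : Γ × T → ℍ[ℝ])
    (g : Γ) (p : Γ × T) (n : ℤ) :
    Lin a u A ζ g (Finsupp.single p n) = n • Ad (hol a A (u p.1) g) (ζ (g * p.1, p.2)) := by
  simp only [Lin, Finsupp.linearCombination_single]

lemma Lin_re (a : E → Γ) (u : Γ → FreeGroup E) (A : Γ × E → S3) {ζ : Γ × T → ℍ[ℝ]}
    (h : ∀ p, (ζ p).re = 0) (g : Γ) (c : Γ × T →₀ ℤ) : (Lin a u A ζ g c).re = 0 := by
  induction c using Finsupp.induction_linear with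
  | zero => simp
  | add x y hx hy => rw [map_add, Quaternion.re_add, hx, hy, add_zero]
  | single p n => rw [Lin_single, Quaternion.re_smul, Ad_re, h, smul_zero]

lemma Lin_zero (a : E → Γ) (u : Γ → FreeGroup E) (A : Γ × E → S3) (g : Γ) (c : Γ × T →₀ ℤ) :
    Lin a u A 0 g c = 0 := by
  induction c using Finsupp.induction_linear with
  | zero => simp
  | add x y hx hy => rw [map_add, hx, hy, add_zero]
  | single p n => simp [Lin_single]

lemma continuous_Lin {X : Type*} [TopologicalSpace X] (a : E → Γ) (u : Γ → FreeGroup E)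
    {A : X → Γ × E → S3} {ζ : X → Γ × T → ℍ[ℝ]} (hA : ∀ p, Continuous fun x => A x p)
    (hζ : ∀ p, Continuous fun x => ζ x p) (g : Γ) (c : Γ × T →₀ ℤ) :
    Continuous fun x => Lin a u (A x) (ζ x) g c := by
  induction c using Finsupp.induction_linear with
  | zero => simpa using continuous_const
  | add x y hx hy => simp only [map_add]; exact hx.add hy
  | single p n =>
    simp only [Lin_single]
    exact (continuous_Ad (continuous_hol a hA _ _) (hζ _)).const_smul n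

lemma ker_induction {a : E → Γ} {r : R → FreeGroup E}
    (hker : (FreeGroup.lift a).ker = Subgroup.normalClosure (Set.range r))
    {P : FreeGroup E → Prop} (h1 : P 1) (hr : ∀ f, P (r f))
    (hmul : ∀ u v, FreeGroup.lift a u = 1 → FreeGroup.lift a v = 1 → P u → P v → P (u * v))
    (hinv : ∀ u, FreeGroup.lift a u = 1 → P u → P u⁻¹)
    (hconj : ∀ v w, FreeGroup.lift a w = 1 → P w → P (v * w * v⁻¹))
    (w : FreeGroup E) (hw : FreeGroup.lift a w = 1) : P w := by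
  let N : Subgroup (FreeGroup E) :=
    { carrier := {w | FreeGroup.lift a w = 1 ∧ P w}
      one_mem' := ⟨map_one _, h1⟩
      mul_mem' := fun {x y} hx hy =>
        ⟨by rw [map_mul, hx.1, hy.1, one_mul], hmul x y hx.1 hy.1 hx.2 hy.2⟩
      inv_mem' := fun {x} hx => ⟨by rw [map_inv, hx.1, inv_one], hinv x hx.1 hx.2⟩ }
  have : N.Normal := ⟨fun x hx v => ⟨by simp [hx.1], hconj v x hx.1 hx.2⟩⟩
  have hle : Subgroup.normalClosure (Set.range r) ≤ N := by
    refine Subgroup.normalClosure_le_normal ?_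
    rintro _ ⟨f, rfl⟩
    refine ⟨?_, hr f⟩
    have : r f ∈ (FreeGroup.lift a).ker :=
      hker ▸ Subgroup.subset_normalClosure (Set.mem_range_self f)
    exact this
  exact (hle (hker ▸ (hw : w ∈ (FreeGroup.lift a).ker))).2

section est

variable (a : E → Γ) (r : R → FreeGroup E) (κ : FreeGroup E → Γ × T →₀ ℤ) (u : Γ → FreeGroup E)

/-- The standing hypotheses of the estimate. -/
structure EHyp (K : Finset (Γ × R)) (A : Γ × E → S3) (ζ : Γ × T → ℍ[ℝ]) (δ : ℝ) (g : Γ) :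
    Prop where
  h0 : 0 ≤ δ
  h1 : δ ≤ 1
  re : ∀ p, (ζ p).re = 0
  le : ∀ p, ‖ζ p‖ ≤ δ
  cur : ∀ q ∈ K, hol a A (r q.2) (g * q.1) = nrm (1 + Lin a u A ζ (g * q.1) (κ (r q.2)))

/-- A quantity of order `n`, uniformly. -/
def Est (n : ℕ) (F : (Γ × E → S3) → (Γ × T → ℍ[ℝ]) → Γ → ℝ) : Prop :=
  ∃ (C : ℝ) (K : Finset (Γ × R)), 0 ≤ C ∧
    ∀ A ζ δ g, EHyp a r κ u K A ζ δ g → F A ζ g ≤ C * δ ^ n

variable {a r κ u}

lemma EHyp.mono {K K' : Finset (Γ × R)} {A : Γ × E → S3} {ζ : Γ × T → ℍ[ℝ]} {δ : ℝ} {g : Γ}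
    (h : EHyp a r κ u K' A ζ δ g) (hK : K ⊆ K') : EHyp a r κ u K A ζ δ g :=
  ⟨h.h0, h.h1, h.re, h.le, fun q hq => h.cur q (hK hq)⟩

variable {n m : ℕ} {F G : (Γ × E → S3) → (Γ × T → ℍ[ℝ]) → Γ → ℝ}

lemma Est.of_le (h : Est a r κ u n G) (hF : ∀ A ζ g, F A ζ g ≤ G A ζ g) : Est a r κ u n F := by
  obtain ⟨C, K, hC, h⟩ := h
  exact ⟨C, K, hC, fun A ζ δ g H => (hF A ζ g).trans (h A ζ δ g H)⟩

lemma Est.zero : Est a r κ u n fun _ _ _ => 0 :=
  ⟨0, ∅, le_rfl, fun _ _ _ _ _ => by simp⟩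

lemma Est.add (hF : Est a r κ u n F) (hG : Est a r κ u n G) :
    Est a r κ u n fun A ζ g => F A ζ g + G A ζ g := by
  classical
  obtain ⟨C, K, hC, h⟩ := hF
  obtain ⟨C', K', hC', h'⟩ := hG
  refine ⟨C + C', K ∪ K', add_nonneg hC hC', fun A ζ δ g H => ?_⟩
  rw [add_mul]
  exact add_le_add (h A ζ δ g (H.mono Finset.subset_union_left))
    (h' A ζ δ g (H.mono Finset.subset_union_right))

lemma Est.smul (hF : Est a r κ u n F) {c : ℝ} (hc : 0 ≤ c) :
    Est a r κ u n fun A ζ g => c * F A ζ g := by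
  obtain ⟨C, K, hC, h⟩ := hF
  refine ⟨c * C, K, mul_nonneg hc hC, fun A ζ δ g H => ?_⟩
  rw [mul_assoc]
  exact mul_le_mul_of_nonneg_left (h A ζ δ g H) hc

lemma Est.mul (hF : Est a r κ u n F) (hG : Est a r κ u m G) (h0 : ∀ A ζ g, 0 ≤ G A ζ g) :
    Est a r κ u (n + m) fun A ζ g => F A ζ g * G A ζ g := by
  classical
  obtain ⟨C, K, hC, h⟩ := hF
  obtain ⟨C', K', hC', h'⟩ := hG
  refine ⟨C * C', K ∪ K', mul_nonneg hC hC', fun A ζ δ g H => ?_⟩
  rw [pow_add, mul_mul_mul_comm]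
  exact mul_le_mul (h A ζ δ g (H.mono Finset.subset_union_left))
    (h' A ζ δ g (H.mono Finset.subset_union_right)) (h0 _ _ _)
    (mul_nonneg hC (pow_nonneg H.h0 _))

lemma Est.shift (hF : Est a r κ u n F) (d : Γ) : Est a r κ u n fun A ζ g => F A ζ (g * d) := by
  classical
  obtain ⟨C, K, hC, h⟩ := hF
  refine ⟨C, K.image fun q => (d * q.1, q.2), hC, fun A ζ δ g H => h A ζ δ _
    ⟨H.h0, H.h1, H.re, H.le, fun q hq => ?_⟩⟩
  rw [mul_assoc]
  exact H.cur _ (Finset.mem_image_of_mem _ hq)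

lemma Est.weaken (hF : Est a r κ u 2 F) : Est a r κ u 1 F := by
  obtain ⟨C, K, hC, h⟩ := hF
  refine ⟨C, K, hC, fun A ζ δ g H => (h A ζ δ g H).trans (mul_le_mul_of_nonneg_left ?_ hC)⟩
  exact pow_le_pow_of_le_one H.h0 H.h1 one_le_two

lemma Est.zeta (p : Γ × T) : Est a r κ u 1 fun _ ζ g => ‖ζ (g * p.1, p.2)‖ :=
  ⟨1, ∅, zero_le_one, fun _ _ _ _ H => by simpa using H.le _⟩

lemma Est.lin (c : Γ × T →₀ ℤ) : Est a r κ u 1 fun A ζ g => ‖Lin a u A ζ g c‖ := by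
  induction c using Finsupp.induction_linear with
  | zero => exact Est.zero.of_le (by simp)
  | add x y hx hy => exact (hx.add hy).of_le fun A ζ g => by rw [map_add]; exact norm_add_le _ _
  | single p k =>
    refine ((Est.zeta p).smul (norm_nonneg k)).of_le fun A ζ g => ?_
    rw [Lin_single]
    exact (norm_zsmul_le _ _).trans (by rw [norm_Ad])

lemma Est.gen (f : R) : Est a r κ u 2 fun A ζ g =>
    ‖((hol a A (r f) g : S3) : ℍ[ℝ]) - 1 - Lin a u A ζ g (κ (r f))‖ := by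
  obtain ⟨C, K, hC, h⟩ := Est.lin (a := a) (r := r) (κ := κ) (u := u) (κ (r f))
  classical
  refine ⟨C ^ 2, insert (1, f) K, sq_nonneg C, fun A ζ δ g H => ?_⟩
  have h1 := H.cur (1, f) (Finset.mem_insert_self _ _)
  have h2 := h A ζ δ g (H.mono (Finset.subset_insert _ _))
  simp only [mul_one] at h1
  beta_reduce
  rw [h1]
  refine (norm_nrm_one_add (Lin_re a u A H.re g _)).trans ?_
  rw [← mul_pow]
  exact pow_le_pow_left₀ (norm_nonneg _) (by simpa using h2) 2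

lemma est_one (hker : (FreeGroup.lift a).ker = Subgroup.normalClosure (Set.range r))
    (w : FreeGroup E) (hw : FreeGroup.lift a w = 1) :
    Est a r κ u 1 fun A _ g => ‖((hol a A w g : S3) : ℍ[ℝ]) - 1‖ := by
  refine ker_induction hker
    (P := fun w => Est a r κ u 1 fun A _ g => ‖((hol a A w g : S3) : ℍ[ℝ]) - 1‖)
    (Est.zero.of_le (by simp)) (fun f => ?_) (fun x y hx _ h h' => ?_) (fun x hx h => ?_)
    (fun v x hx h => ?_) w hw
  · refine ((Est.gen f).weaken.add (Est.lin (κ (r f)))).of_le fun A ζ g => ?_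
    exact (le_of_eq (by rw [sub_add_cancel])).trans (norm_add_le _ _)
  · refine (h.add h').of_le fun A ζ g => ?_
    rw [hol_mul, hx, mul_one, S3.coe_mul]
    set X := hol a A x g
    set Y := hol a A y g
    have : (X : ℍ[ℝ]) * Y - 1 = (X - 1) + X * (Y - 1) := by noncomm_ring
    rw [this]
    refine (norm_add_le _ _).trans (le_of_eq ?_)
    rw [norm_mul, X.norm_coe, one_mul]
  · refine h.of_le fun A ζ g => ?_
    rw [hol_inv', hx, inv_one, mul_one, S3.coe_inv, norm_inv_sub_one]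
  · refine (h.shift (FreeGroup.lift a v)).of_le fun A ζ g => ?_
    rw [← norm_Ad (hol a A v g) (((hol a A x _ : S3) : ℍ[ℝ]) - 1), Ad_sub, Ad_unit,
      hol_conj a A hx, ← Ad_coe]

lemma est_lin (hker : (FreeGroup.lift a).ker = Subgroup.normalClosure (Set.range r))
    (hu : ∀ d, FreeGroup.lift a (u d) = d) (v : FreeGroup E) (c : Γ × T →₀ ℤ) :
    Est a r κ u 2 fun A ζ g => ‖Ad (hol a A v g) (Lin a u A ζ (g * FreeGroup.lift a v) c) -
      Lin a u A ζ g (sh (FreeGroup.lift a v) c)‖ := by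
  induction c using Finsupp.induction_linear with
  | zero => exact Est.zero.of_le (by simp)
  | add x y hx hy =>
    refine (hx.add hy).of_le fun A ζ g => ?_
    rw [map_add, map_add, map_add, Ad_add, add_sub_add_comm]
    exact norm_add_le _ _
  | single p k =>
    have hl : FreeGroup.lift a (v * u p.1 * (u (FreeGroup.lift a v * p.1))⁻¹) = 1 := by
      simp [hu]
    refine ((((est_one hker _ hl).mul (Est.zeta (FreeGroup.lift a v * p.1, p.2))
      (fun _ _ _ => norm_nonneg _)).smul zero_le_two).smul (norm_nonneg k)).of_le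
      fun A ζ g => ?_
    rw [sh_single, Lin_single, Lin_single, Ad_zsmul, ← smul_sub, ← Ad_mul, ← hol_mul]
    refine (norm_zsmul_le _ _).trans (mul_le_mul_of_nonneg_left ?_ (norm_nonneg k))
    have h1 : hol a A (v * u p.1) g = hol a A (v * u p.1 * (u (FreeGroup.lift a v * p.1))⁻¹) g *
        hol a A (u (FreeGroup.lift a v * p.1)) g := by
      conv_lhs => rw [← inv_mul_cancel_right (v * u p.1) (u (FreeGroup.lift a v * p.1)), hol_mul,
        hl, mul_one]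
    rw [h1, Ad_mul, mul_assoc g]
    exact (norm_Ad_sub _ _).trans (by rw [norm_Ad])

lemma est_two {t : T → FreeGroup E}
    (hker : (FreeGroup.lift a).ker = Subgroup.normalClosure (Set.range r)) (hK : Kap a t κ)
    (hu : ∀ d, FreeGroup.lift a (u d) = d) (w : FreeGroup E) (hw : FreeGroup.lift a w = 1) :
    Est a r κ u 2 fun A ζ g => ‖((hol a A w g : S3) : ℍ[ℝ]) - 1 - Lin a u A ζ g (κ w)‖ := by
  have k1 : κ 1 = 0 := by
    have := hK.mul 1 1 (map_one _) (map_one _)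
    rw [mul_one] at this
    exact left_eq_add.1 this
  refine ker_induction hker (P := fun w => Est a r κ u 2 fun A ζ g =>
    ‖((hol a A w g : S3) : ℍ[ℝ]) - 1 - Lin a u A ζ g (κ w)‖)
    (Est.zero.of_le (by simp [k1])) Est.gen (fun x y hx hy h h' => ?_) (fun x hx h => ?_)
    (fun v x hx h => ?_) w hw
  · refine ((((est_one hker x hx).mul (est_one hker y hy) fun _ _ _ => norm_nonneg _).add h).add
      h').of_le fun A ζ g => ?_
    rw [hol_mul, hx, mul_one, S3.coe_mul, hK.mul x y hx hy, map_add, ← norm_mul]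
    refine (le_of_eq (congrArg _ ?_)).trans norm_add₃_le
    noncomm_ring
  · have kx : κ x⁻¹ = -κ x := by
      have := hK.mul x x⁻¹ hx (by rw [map_inv, hx, inv_one])
      rw [mul_inv_cancel, k1] at this
      exact eq_neg_of_add_eq_zero_right this.symm
    refine (((est_one hker x hx).mul (est_one hker x hx) fun _ _ _ => norm_nonneg _).add
      h).of_le fun A ζ g => ?_
    rw [hol_inv', hx, inv_one, mul_one, S3.coe_inv, kx, map_neg]
    set X := hol a A x g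
    set l := Lin a u A ζ g (κ x)
    have : (X : ℍ[ℝ])⁻¹ - 1 - -l = -(((X : ℍ[ℝ]) - 1) * ((X : ℍ[ℝ])⁻¹ - 1)) - (X - 1 - l) := by
      rw [sub_mul, mul_sub, mul_inv_cancel₀ X.coe_ne_zero]
      noncomm_ring
    rw [this]
    refine (norm_sub_le _ _).trans (le_of_eq ?_)
    rw [norm_neg, norm_mul, norm_inv_sub_one]
  · refine ((h.shift (FreeGroup.lift a v)).add (est_lin hker hu v (κ x))).of_le fun A ζ g => ?_
    rw [← norm_Ad (hol a A v g) (((hol a A x _ : S3) : ℍ[ℝ]) - 1 - _), Ad_sub,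
      Ad_sub, Ad_unit, hol_conj a A hx, ← Ad_coe, hK.conj v x hx]
    refine (le_of_eq (congrArg _ ?_)).trans (norm_add_le _ _)
    abel

end est

theorem local_est {a : E → Γ} {r : R → FreeGroup E} {t : T → FreeGroup E}
    {κ : FreeGroup E → Γ × T →₀ ℤ}
    (hker : (FreeGroup.lift a).ker = Subgroup.normalClosure (Set.range r)) (hK : Kap a t κ)
    {u : Γ → FreeGroup E} (hu : ∀ d, FreeGroup.lift a (u d) = d)
    (w : FreeGroup E) (hw : FreeGroup.lift a w = 1) :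
    ∃ (C : ℝ) (K : Finset (Γ × R)), 0 ≤ C ∧
      ∀ (A : Γ × E → S3) (ζ : Γ × T → ℍ[ℝ]) (δ : ℝ) (g : Γ), 0 ≤ δ → δ ≤ 1 →
        (∀ p, (ζ p).re = 0) → (∀ p, ‖ζ p‖ ≤ δ) →
        (∀ q ∈ K, hol a A (r q.2) (g * q.1) = nrm (1 + Lin a u A ζ (g * q.1) (κ (r q.2)))) →
        ‖((hol a A w g : S3) : ℍ[ℝ]) - 1‖ ≤ C * δ ∧
          ‖((hol a A w g : S3) : ℍ[ℝ]) - 1 - Lin a u A ζ g (κ w)‖ ≤ C * δ ^ 2 := by
  classical
  obtain ⟨C, K, hC, h⟩ := est_one (κ := κ) (u := u) hker w hw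
  obtain ⟨C', K', hC', h'⟩ := est_two hker hK hu w hw
  refine ⟨C + C', K ∪ K', add_nonneg hC hC', fun A ζ δ g h0 h1 h2 h3 h4 => ?_⟩
  have H : EHyp a r κ u (K ∪ K') A ζ δ g := ⟨h0, h1, h2, h3, h4⟩
  have e1 := h A ζ δ g (H.mono Finset.subset_union_left)
  have e2 := h' A ζ δ g (H.mono Finset.subset_union_right)
  rw [pow_one] at e1
  exact ⟨e1.trans (mul_le_mul_of_nonneg_right (by linarith) h0),
    e2.trans (mul_le_mul_of_nonneg_right (by linarith) (sq_nonneg δ))⟩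

end Vale.Agent.P173
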