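import Vale.Agent.P173.Salv
import Mathlib.Data.Finset.NoncommProd

/-! The slab of heights between zero and two is acyclic. -/

namespace Vale.Agent.P173

open Finsupp

lemma push_down {α : Type*} (K : Set α) (wt : α → ℤ) (m : ℤ)
    (d₀ d₁ H : (α →₀ ℤ) →ₗ[ℤ] (α →₀ ℤ))
    (h0 : ∀ c ∈ K, d₀ (single c 1) ∈ supported ℤ ℤ {c' | c' ∈ K ∧ wt c' = wt c})
    (h1 : ∀ c ∈ K, d₁ (single c 1) ∈ supported ℤ ℤ {c' | c' ∈ K ∧ wt c' = wt c - 1})
    (hH : ∀ c ∈ K, m < wt c → H (single c 1) ∈ supported ℤ ℤ {c' | c' ∈ K ∧ wt c' = wt c})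
    (hid : ∀ c ∈ K, d₀ (H (single c 1)) + H (d₀ (single c 1)) = single c 1)
    (hdd : ∀ z ∈ supported ℤ ℤ K, (d₀ + d₁) ((d₀ + d₁) z) = 0)
    {y : α →₀ ℤ} (hy : y ∈ supported ℤ ℤ K)
    (hz : (d₀ + d₁) y ∈ supported ℤ ℤ {c | wt c ≤ m}) :
    ∃ y' ∈ supported ℤ ℤ {c | c ∈ K ∧ wt c ≤ m}, (d₀ + d₁) y' = (d₀ + d₁) y := by
  have key : ∀ n : ℕ, ∀ y ∈ supported ℤ ℤ {c | c ∈ K ∧ wt c ≤ m + n},
      (d₀ + d₁) y ∈ supported ℤ ℤ {c | wt c ≤ m} →
      ∃ y' ∈ supported ℤ ℤ {c | c ∈ K ∧ wt c ≤ m}, (d₀ + d₁) y' = (d₀ + d₁) y := by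
    intro n
    induction n with
    | zero => intro y hy _; exact ⟨y, by simpa using hy, rfl⟩
    | succ n ih =>
      intro y hy hz
      obtain ⟨P, hP⟩ : ∃ P : (α →₀ ℤ) →ₗ[ℤ] (α →₀ ℤ), ∀ c, P (single c 1) =
          if wt c = m + n + 1 then single c 1 else 0 :=
        ⟨linearCombination ℤ fun c => if wt c = m + n + 1 then single c 1 else 0,
          fun c => lc_single _ c⟩
      have a1 : P y ∈ supported ℤ ℤ {c | c ∈ K ∧ wt c = m + n + 1} :=
        map_mem_of_supported _ _ (fun c hc => by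
          rw [hP]
          split_ifs with h
          · exact single_mem_supported _ _ ⟨hc.1, h⟩
          · exact Submodule.zero_mem _) hy
      have a2 : y - P y ∈ supported ℤ ℤ {c | c ∈ K ∧ wt c ≤ m + n} :=
        map_mem_of_supported (LinearMap.id - P) _ (fun c hc => by
          rw [LinearMap.sub_apply, LinearMap.id_apply, hP]
          split_ifs with h
          · simp
          · rw [sub_zero]
            have := hc.2
            push_cast at this
            exact single_mem_supported _ _ ⟨hc.1, by omega⟩) hy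
      have a3 : ∀ x ∈ supported ℤ ℤ {c | wt c ≤ m + n}, P x = 0 := fun x hx =>
        eq_of_supported P 0 (fun c hc => by
          have : wt c ≤ m + n := hc
          rw [hP, if_neg (by omega)]; rfl) hx
      have a4 : ∀ x ∈ supported ℤ ℤ {c | c ∈ K ∧ wt c = m + n + 1}, P x = x := fun x hx =>
        eq_of_supported P LinearMap.id (fun c hc => by rw [hP, if_pos hc.2]; rfl) hx
      have b0 : ∀ x ∈ supported ℤ ℤ {c | c ∈ K ∧ wt c = m + n + 1},
          d₀ x ∈ supported ℤ ℤ {c | c ∈ K ∧ wt c = m + n + 1} := fun x hx =>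
        map_mem_of_supported _ _ (fun c hc => hc.2 ▸ h0 c hc.1) hx
      have bH : ∀ x ∈ supported ℤ ℤ {c | c ∈ K ∧ wt c = m + n + 1},
          H x ∈ supported ℤ ℤ {c | c ∈ K ∧ wt c = m + n + 1} := fun x hx =>
        map_mem_of_supported _ _ (fun c hc => hc.2 ▸ hH c hc.1 (by have := hc.2; omega)) hx
      have b1 : ∀ x ∈ supported ℤ ℤ {c | c ∈ K ∧ wt c = m + n + 1},
          d₁ x ∈ supported ℤ ℤ {c | c ∈ K ∧ wt c ≤ m + n} := fun x hx =>
        map_mem_of_supported _ _ (fun c hc => supported_mono (R := ℤ) (M := ℤ)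
          (t := {c | c ∈ K ∧ wt c ≤ m + n})
          (fun c' hc' => ⟨hc'.1, by have := hc.2; have := hc'.2; omega⟩) (h1 c hc.1)) hx
      have b2 : (d₀ + d₁) (y - P y) ∈ supported ℤ ℤ {c | wt c ≤ m + n} :=
        map_mem_of_supported _ _ (fun c hc => Submodule.add_mem _
          (supported_mono (R := ℤ) (M := ℤ) (t := {c | wt c ≤ m + n})
            (fun c' hc' => by have := hc.2; have := hc'.2; change wt c' ≤ _; omega) (h0 c hc.1))
          (supported_mono (R := ℤ) (M := ℤ) (t := {c | wt c ≤ m + n})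
            (fun c' hc' => by have := hc.2; have := hc'.2; change wt c' ≤ _; omega) (h1 c hc.1)))
          a2
      have c1 : d₀ (P y) = 0 := by
        have e : (d₀ + d₁) y = d₀ (P y) + d₁ (P y) + (d₀ + d₁) (y - P y) := by
          rw [map_sub, LinearMap.add_apply _ _ (P y)]; abel
        have e1 := a3 _ (supported_mono (R := ℤ) (M := ℤ) (t := {c | wt c ≤ m + n})
          (fun c hc => by have : wt c ≤ m := hc; change wt c ≤ _; omega) hz)
        rw [e, map_add, map_add, a4 _ (b0 _ a1), a3 _ b2, a3 _ (supported_mono (R := ℤ) (M := ℤ)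
          (t := {c | wt c ≤ m + n}) (fun c hc => hc.2) (b1 _ a1))] at e1
        simpa using e1
      have c2 : d₀ (H (P y)) = P y := by
        have := eq_of_supported (d₀ ∘ₗ H + H ∘ₗ d₀) LinearMap.id (fun c hc => hid c hc.1) a1
        simpa [c1] using this
      have c3 : (d₀ + d₁) (y - (d₀ + d₁) (H (P y))) = (d₀ + d₁) y := by
        rw [map_sub, hdd _ (supported_mono (R := ℤ) (M := ℤ) (t := K)
          (fun c hc => hc.1) (bH _ a1)), sub_zero]
      obtain ⟨y', hy', e⟩ := ih (y - (d₀ + d₁) (H (P y))) (by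
        rw [LinearMap.add_apply, c2, ← sub_sub]
        exact Submodule.sub_mem _ a2 (b1 _ (bH _ a1))) (by rw [c3]; exact hz)
      exact ⟨y', hy', e.trans c3⟩
  refine key (y.support.sup fun c => (wt c - m).toNat) y (fun c hc => ⟨hy hc, ?_⟩) hz
  have : (wt c - m).toNat ≤ y.support.sup fun c => (wt c - m).toNat :=
    Finset.le_sup (f := fun c => (wt c - m).toNat) hc
  omega

variable {V : Type} [LinearOrder V] {G : SimpleGraph V}

/-- One half of the boundary. -/
noncomputable def dE (e : V → RA G) : (RA G × Finset V →₀ ℤ) →ₗ[ℤ] (RA G × Finset V →₀ ℤ) :=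
  linearCombination ℤ fun c => ∑ v ∈ c.2, sg v c.2 • single (c.1 * e v, c.2.erase v) 1

/-- The embedding of the link at a vertex. -/
noncomputable def lk (π : Finset V → RA G) (g : RA G) :
    (Finset V →₀ ℤ) →ₗ[ℤ] (RA G × Finset V →₀ ℤ) :=
  linearCombination ℤ fun t => single (g * (π t)⁻¹, t) 1

/-- The contraction of the links. -/
noncomputable def opH (π : Finset V → RA G) (h : Finset V → (Finset V →₀ ℤ)) :
    (RA G × Finset V →₀ ℤ) →ₗ[ℤ] (RA G × Finset V →₀ ℤ) :=
  linearCombination ℤ fun c => lk π (c.1 * π c.2) (h c.2)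

lemma dS_eq_dE : dS G = dE (gen G) + -dE fun _ => 1 := by
  refine LinearMap.ext fun z => eq_of_single _ _ (fun c => ?_) z
  rw [dS_single, LinearMap.add_apply, LinearMap.neg_apply, dE, dE, lc_single, lc_single,
    ← sub_eq_add_neg, ← Finset.sum_sub_distrib]
  refine Finset.sum_congr rfl fun v _ => ?_
  rw [smul_sub, mul_one]

lemma opH_id {e : V → RA G} {π : Finset V → RA G} {h : Finset V → (Finset V →₀ ℤ)}
    (hπ : ∀ t : Finset V, G.IsClique (t : Set V) → ∀ v ∈ t, π t = e v * π (t.erase v))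
    (hh : ∀ σ : Finset V, G.IsClique (σ : Set V) →
      (∀ τ ∈ (h σ).support, G.IsClique (τ : Set V)) ∧
        dl (h σ) + linearCombination ℤ h (dl (single σ 1)) = single σ 1)
    (c : RA G × Finset V) (hc : G.IsClique (c.2 : Set V)) :
    dE e (opH π h (single c 1)) + opH π h (dE e (single c 1)) = single c 1 := by
  have e1 : ∀ g, ∀ x ∈ supported ℤ ℤ {t : Finset V | G.IsClique (t : Set V)},
      dE e (lk π g x) = lk π g (dl x) := fun g x hx =>
    eq_of_supported (dE e ∘ₗ lk π g) (lk π g ∘ₗ dl) (fun t ht => by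
      rw [LinearMap.comp_apply, LinearMap.comp_apply, lk, lc_single, dE, dl, lc_single, lc_single,
        map_sum]
      refine Finset.sum_congr rfl fun v hv => ?_
      rw [map_smul, lc_single, hπ t ht v hv]
      simp [mul_assoc]) hx
  have e2 : ∀ g x, opH π h (lk π g x) = lk π g (linearCombination ℤ h x) := fun g x =>
    eq_of_single (opH π h ∘ₗ lk π g) (lk π g ∘ₗ linearCombination ℤ h) (fun t => by
      rw [LinearMap.comp_apply, LinearMap.comp_apply, lc_single, lk, lc_single, opH, lc_single,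
        inv_mul_cancel_right, lk]) x
  have e3 : (single c 1 : RA G × Finset V →₀ ℤ) = lk π (c.1 * π c.2) (single c.2 1) := by
    rw [lk, lc_single, mul_inv_cancel_right]
  rw [e3, e2, lc_single, e1 _ _ (fun τ hτ => (hh _ hc).1 τ hτ),
    e1 _ _ (single_mem_supported _ _ hc), e2, ← map_add, (hh _ hc).2]

lemma exists_pi : ∃ π : Finset V → RA G,
    (∀ t : Finset V, G.IsClique (t : Set V) → ∀ v ∈ t, π t = gen G v * π (t.erase v)) ∧
      ∀ t : Finset V, G.IsClique (t : Set V) → ht G (π t) = t.card := by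
  classical
  have hc : ∀ t : Finset V, G.IsClique (t : Set V) →
      (t : Set V).Pairwise fun u v => Commute (gen G u) (gen G v) :=
    fun t ht u hu v hv huv => gen_comm G (ht hu hv huv)
  obtain ⟨π, h0, hπ⟩ : ∃ π : Finset V → RA G, π ∅ = 1 ∧
      ∀ t : Finset V, G.IsClique (t : Set V) → ∀ v ∈ t, π t = gen G v * π (t.erase v) := by
    refine ⟨fun t => if h : G.IsClique (t : Set V) then t.noncommProd (gen G) (hc t h) else 1,
      by simp, fun t ht v hv => ?_⟩
    simp only
    rw [dif_pos ht, dif_pos (clique_mono G (Finset.erase_subset v t) ht)]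
    exact (Finset.mul_noncommProd_erase t hv (gen G) (hc t ht)).symm
  refine ⟨π, hπ, fun t => ?_⟩
  induction t using Finset.induction_on with
  | empty => intro _; simp [h0]
  | insert a s ha ih =>
    intro hs
    rw [hπ _ hs a (Finset.mem_insert_self _ _), Finset.erase_insert ha, ht_mul, ht_gen,
      ih (clique_mono G (Finset.subset_insert a s) hs), Finset.card_insert_of_notMem ha]
    push_cast
    ring

lemma dE_mem (e : V → RA G) (c : RA G × Finset V) (s : Set (RA G × Finset V))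
    (h : ∀ v ∈ c.2, (c.1 * e v, c.2.erase v) ∈ s) : dE e (single c 1) ∈ supported ℤ ℤ s := by
  rw [dE, lc_single]
  exact Submodule.sum_mem _ fun v hv => Submodule.smul_mem _ _ (single_mem_supported _ _ (h v hv))

omit [LinearOrder V] in
lemma opH_mem (π : Finset V → RA G) (h : Finset V → (Finset V →₀ ℤ)) (c : RA G × Finset V)
    (s : Set (RA G × Finset V)) (hs : ∀ t ∈ (h c.2).support, (c.1 * π c.2 * (π t)⁻¹, t) ∈ s) :
    opH π h (single c 1) ∈ supported ℤ ℤ s := by
  rw [opH, lc_single]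
  refine map_mem_of_supported (s := (h c.2).support) _ _ (fun t ht => ?_) (mem_supported_support _ _)
  rw [lk, lc_single]
  exact single_mem_supported _ _ (hs t ht)

lemma card_erase_int {v : V} {s : Finset V} (h : v ∈ s) : ((s.erase v).card : ℤ) = s.card - 1 := by
  have := Finset.card_erase_add_one h
  omega

theorem slab_exact [Fintype V] (hG : Good G) {z : RA G × Finset V →₀ ℤ} (hz : z ∈ Slab G)
    (hd : dS G z = 0) (ha : aug G z = 0) : ∃ y ∈ Slab G, dS G y = z := by
  obtain ⟨h, hh⟩ := hG.acyc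
  obtain ⟨π, hπ, hπ'⟩ := exists_pi (G := G)
  have hSl : Slab G ≤ Cl G := supported_mono fun _ hc => hc.1
  obtain ⟨y, hy, rfl⟩ := salv_exact G (hSl hz) hd ha
  have hcl : ∀ {c : RA G × Finset V} (v : V), G.IsClique (c.2 : Set V) →
      G.IsClique ((c.2.erase v : Finset V) : Set V) := fun v hc =>
    clique_mono G (Finset.erase_subset _ _) hc
  obtain ⟨y₁, hy₁, e₁⟩ := push_down {c : RA G × Finset V | G.IsClique (c.2 : Set V)}
    (fun c => ht G c.1 + c.2.card) 2 (dE (gen G)) (-dE fun _ => 1) (opH π h)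
    (fun c hc => dE_mem _ _ _ fun v hv => ⟨hcl v hc, by
      simp only [ht_mul, ht_gen, card_erase_int hv]; ring⟩)
    (fun c hc => Submodule.neg_mem _ (dE_mem _ _ _ fun v hv => ⟨hcl v hc, by
      simp only [mul_one, card_erase_int hv]; ring⟩))
    (fun c hc _ => opH_mem _ _ _ _ fun t htt => ⟨(hh _ hc).1 t htt, by
      simp only [ht_mul, ht_inv, hπ' _ hc, hπ' _ ((hh _ hc).1 t htt)]; ring⟩)
    (opH_id hπ hh) (fun z hz => by rw [← dS_eq_dE]; exact dS_dS G hz) hy
    (by
      rw [← dS_eq_dE]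
      exact supported_mono (R := ℤ) (M := ℤ)
        (t := {c : RA G × Finset V | ht G c.1 + c.2.card ≤ 2}) (fun c hc => hc.2.2) hz)
  rw [← dS_eq_dE] at e₁
  have e : (-dE fun _ => 1) + dE (gen G) = dS G := by rw [dS_eq_dE, add_comm]
  obtain ⟨y₂, hy₂, e₂⟩ := push_down
    {c : RA G × Finset V | G.IsClique (c.2 : Set V) ∧ ht G c.1 + c.2.card ≤ 2}
    (fun c => -ht G c.1) 0 (-dE fun _ => 1) (dE (gen G)) (-opH (fun _ => 1) h)
    (fun c hc => Submodule.neg_mem _ (dE_mem _ _ _ fun v hv => ⟨⟨hcl v hc.1, by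
      have := hc.2
      simp only [mul_one, card_erase_int hv]; omega⟩, by simp only [mul_one]⟩))
    (fun c hc => dE_mem _ _ _ fun v hv => ⟨⟨hcl v hc.1, by
      have := hc.2
      simp only [ht_mul, ht_gen, card_erase_int hv]; omega⟩, by
      simp only [ht_mul, ht_gen]; ring⟩)
    (fun c hc hw => Submodule.neg_mem _ (opH_mem _ _ _ _ fun t htt =>
      ⟨⟨(hh _ hc.1).1 t htt, by
        have := hG.dim t ((hh _ hc.1).1 t htt)
        simp only [mul_one, inv_one] at hw ⊢
        omega⟩, by simp only [mul_one, inv_one]⟩))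
    (fun c hc => by
      have := opH_id (e := fun _ => 1) (π := fun _ => 1) (fun _ _ _ _ => (mul_one _).symm) hh c hc.1
      simpa using this)
    (fun z hz => by
      rw [e]
      exact dS_dS G (supported_mono (R := ℤ) (M := ℤ)
        (t := {c : RA G × Finset V | G.IsClique (c.2 : Set V)}) (fun c hc => hc.1) hz)) hy₁
    (by
      rw [e, e₁]
      exact supported_mono (R := ℤ) (M := ℤ) (t := {c : RA G × Finset V | -ht G c.1 ≤ 0})
        (fun c hc => neg_nonpos.2 hc.2.1) hz)
  rw [e, e₁] at e₂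
  exact ⟨y₂, supported_mono (R := ℤ) (M := ℤ) (t := {c : RA G × Finset V |
    G.IsClique (c.2 : Set V) ∧ 0 ≤ ht G c.1 ∧ ht G c.1 + c.2.card ≤ 2})
    (fun c hc => ⟨hc.1.1, neg_nonpos.1 hc.2, hc.1.2⟩) hy₂, e₂⟩

end Vale.Agent.P173
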