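import Vale.Agent.P173.Raag
import Mathlib.NumberTheory.Zsqrtd.ToReal
import Mathlib.Data.Finset.Sort

/-! The barycentric subdivision of the 2-skeleton of the Poincare sphere. -/

open Quaternion

namespace Vale.Agent.P173

section chains

variable {V : Type} [LinearOrder V]

/-- Evaluation of formal chains. -/
noncomputable def evc (c : List (List V × ℤ)) : Finset V →₀ ℤ :=
  (c.map fun p => Finsupp.single p.1.toFinset p.2).sum

@[simp] lemma evc_nil : evc ([] : List (List V × ℤ)) = 0 := rfl

@[simp] lemma evc_cons (p : List V × ℤ) (c : List (List V × ℤ)) :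
    evc (p :: c) = Finsupp.single p.1.toFinset p.2 + evc c := by simp [evc]

@[simp] lemma evc_append (c c' : List (List V × ℤ)) : evc (c ++ c') = evc c + evc c' := by
  simp [evc]

/-- Scaling of formal chains. -/
def scl (n : ℤ) (c : List (List V × ℤ)) : List (List V × ℤ) := c.map fun p => (p.1, n * p.2)

lemma evc_scl (n : ℤ) (c : List (List V × ℤ)) : evc (scl n c) = n • evc c := by
  induction c with
  | nil => simp [scl]
  | cons p c ih => rw [scl, List.map_cons, evc_cons, ← scl, ih]; simp

/-- Insertion with cancellation. -/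
def insc (p : List V × ℤ) : List (List V × ℤ) → List (List V × ℤ)
  | [] => [p]
  | q :: c => if p.1 = q.1 then (if p.2 + q.2 = 0 then c else (q.1, p.2 + q.2) :: c)
      else q :: insc p c

lemma evc_insc (p : List V × ℤ) (c : List (List V × ℤ)) : evc (insc p c) = evc (p :: c) := by
  induction c with
  | nil => rfl
  | cons q c ih =>
    rw [insc]
    split_ifs with h1 h2
    · rw [evc_cons, evc_cons, ← add_assoc, h1, ← Finsupp.single_add, h2]; simp
    · rw [evc_cons, evc_cons, evc_cons, ← add_assoc, h1, ← Finsupp.single_add]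
    · rw [evc_cons, ih, evc_cons, evc_cons, evc_cons]; abel

lemma evc_foldr (c : List (List V × ℤ)) : evc (c.foldr insc []) = evc c := by
  induction c with
  | nil => rfl
  | cons p c ih => rw [List.foldr_cons, evc_insc, evc_cons, evc_cons, ih]

/-- The faces of a sorted list with signs. -/
def dLs : List V → List (List V × ℤ)
  | [] => []
  | a :: l => (l, (-1) ^ l.length) :: (dLs l).map fun p => (a :: p.1, p.2)

lemma evc_map_cons (a : V) (c : List (List V × ℤ)) :
    evc (c.map fun p => (a :: p.1, p.2)) = (evc c).mapDomain (insert a) := by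
  induction c with
  | nil => simp
  | cons p c ih => simp [ih, Finsupp.mapDomain_add, Finsupp.mapDomain_single]

lemma dl_single (σ : Finset V) :
    dl (Finsupp.single σ 1) = ∑ v ∈ σ, sg v σ • Finsupp.single (σ.erase v) 1 := by simp [dl]

lemma dl_list {l : List V} (h : l.Pairwise (· < ·)) :
    dl (Finsupp.single l.toFinset 1) = evc (dLs l) := by
  induction l with
  | nil => simp [dl_single, dLs]
  | cons a l ih =>
    rw [List.pairwise_cons] at h
    have ha : a ∉ l.toFinset := fun e => (h.1 a (List.mem_toFinset.1 e)).false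
    rw [dLs, evc_cons, evc_map_cons, ← ih h.2, dl_single, dl_single, List.toFinset_cons,
      Finset.sum_insert ha, Finset.erase_insert ha, Finsupp.mapDomain_finsetSum]
    congr 1
    · rw [sg, Finset.filter_insert, if_neg (lt_irrefl a), Finset.filter_true_of_mem
        fun x hx => h.1 x (List.mem_toFinset.1 hx), List.toFinset_card_of_nodup
        (h.2.imp ne_of_lt)]
      simp
    · refine Finset.sum_congr rfl fun v hv => ?_
      have hav := h.1 v (List.mem_toFinset.1 hv)
      rw [sg, sg, Finset.filter_insert, if_neg hav.not_gt, Finset.erase_insert_of_ne hav.ne,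
        Finsupp.mapDomain_smul, Finsupp.mapDomain_single]

lemma dl_evc {c : List (List V × ℤ)} (h : ∀ p ∈ c, p.1.Pairwise (· < ·)) :
    dl (evc c) = evc (c.flatMap fun p => scl p.2 (dLs p.1)) := by
  induction c with
  | nil => simp
  | cons p c ih =>
    rw [evc_cons, map_add, List.flatMap_cons, evc_append, evc_scl,
      ih fun q hq => h q (List.mem_cons_of_mem _ hq), ← dl_list (h p List.mem_cons_self),
      ← map_smul, Finsupp.smul_single, smul_eq_mul, mul_one]

lemma lc_evc (H : List V → List (List V × ℤ)) {c : List (List V × ℤ)}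
    (h : ∀ p ∈ c, p.1.Pairwise (· < ·)) :
    Finsupp.linearCombination ℤ (fun σ : Finset V => evc (H (σ.sort (· ≤ ·)))) (evc c) =
      evc (c.flatMap fun p => scl p.2 (H p.1)) := by
  induction c with
  | nil => simp
  | cons p c ih =>
    have hp := h p List.mem_cons_self
    rw [evc_cons, map_add, List.flatMap_cons, evc_append, evc_scl,
      ih fun q hq => h q (List.mem_cons_of_mem _ hq), Finsupp.linearCombination_single,
      (List.toFinset_sort (· ≤ ·) (hp.imp ne_of_lt)).2 (hp.imp le_of_lt)]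

lemma mem_evc {c : List (List V × ℤ)} {τ : Finset V} (h : τ ∈ (evc c).support) :
    ∃ p ∈ c, p.1.toFinset = τ := by
  induction c with
  | nil => simp at h
  | cons p c ih =>
    rw [evc_cons] at h
    rcases Finset.mem_union.1 (Finsupp.support_add h) with h | h
    · exact ⟨p, List.mem_cons_self, (Finset.mem_singleton.1 (Finsupp.support_single_subset h)).symm⟩
    · obtain ⟨q, hq, e⟩ := ih h
      exact ⟨q, List.mem_cons_of_mem _ hq, e⟩

end chains

/-- Adjacency masks. -/
def masks : List ℕ :=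
  [2074912, 2085408, 2083008, 2074176, 2069888, 622595, 1146892, 688148, 1343505, 425994, 851992,
   458757, 1245202, 1703945, 1835014, 1023, 7295, 15007, 20255, 25791, 29023]

/-- Adjacency. -/
def adjB (u v : Fin 21) : Bool := (masks.getD u 0).testBit v

/-- The graph. -/
def GP : SimpleGraph (Fin 21) where
  Adj u v := adjB u v = true
  symm := ⟨by decide +kernel⟩
  loopless := ⟨by decide +kernel⟩

/-- The triangles. -/
def trisP : List (List (Fin 21)) :=
  [[0, 5, 15], [0, 5, 16], [0, 5, 19], [0, 8, 15], [0, 8, 18], [0, 8, 20], [0, 11, 16], [0, 11,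
   17], [0, 11, 18], [0, 13, 17], [0, 13, 19], [0, 13, 20], [1, 5, 15], [1, 5, 16], [1, 5, 19], [1,
   9, 15], [1, 9, 17], [1, 9, 18], [1, 12, 16], [1, 12, 17], [1, 12, 20], [1, 14, 18], [1, 14, 19],
   [1, 14, 20], [2, 6, 15], [2, 6, 16], [2, 6, 20], [2, 7, 15], [2, 7, 17], [2, 7, 19], [2, 11,
   16], [2, 11, 17], [2, 11, 18], [2, 14, 18], [2, 14, 19], [2, 14, 20], [3, 6, 15], [3, 6, 16],
   [3, 6, 20], [3, 9, 15], [3, 9, 17], [3, 9, 18], [3, 10, 16], [3, 10, 18], [3, 10, 19], [3, 13,
   17], [3, 13, 19], [3, 13, 20], [4, 7, 15], [4, 7, 17], [4, 7, 19], [4, 8, 15], [4, 8, 18], [4,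
   8, 20], [4, 10, 16], [4, 10, 18], [4, 10, 19], [4, 12, 16], [4, 12, 17], [4, 12, 20]]

/-- Tree paths. -/
def h0P : List (List (List (Fin 21) × ℤ)) :=
  [[([0, 20], 1), ([4, 20], -1)], [([1, 12], 1), ([4, 12], -1)], [([2, 20], 1), ([4, 20], -1)],
   [([3, 10], 1), ([4, 10], -1)], [], [([5, 15], 1), ([4, 15], -1)], [([6, 20], 1), ([4, 20], -1)],
   [([4, 7], -1)], [([4, 8], -1)], [([9, 18], 1), ([4, 18], -1)], [([4, 10], -1)], [([11, 18], 1),
   ([4, 18], -1)], [([4, 12], -1)], [([13, 20], 1), ([4, 20], -1)], [([14, 20], 1), ([4, 20], -1)],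
   [([4, 15], -1)], [([4, 16], -1)], [([4, 17], -1)], [([4, 18], -1)], [([4, 19], -1)], [([4, 20],
   -1)]]

/-- Fillings of the fundamental cycles, in base three. -/
def rowsP : List (ℕ × ℕ) :=
  [(5, 40920185298435597559904491), (8, 38766491335360039793593689), (11,
   45227573224586713092532653), (13, 177147), (15, 40920185298435597559904490), (16,
   11909466171658687518133351512), (17, 30472201406761192099250912688), (18,
   45227573224586713092526092), (19, 11671283289960680612295343912), (26,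
   5947567910990922087452446849), (30, 15393374188497085371348253087), (35,
   14130386091738734605881558696), (36, 5947567910990922087453509731), (37,
   1570042899082081612415375541), (38, 4710128697246244837246126623), (39,
   15393374188497085371606533413), (40, 1876745684304555940997734597), (41,
   14130386091738734511738379869), (48, 2541865828329), (49, 30136799969827550329594212691), (53,
   1262988096671258827309291393), (56, 50031545098999707), (57, 30136640436941388958977000982),
   (58, 11031651831643823080109863474), (59, 30137039269156826700708712696), (60,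
   1262988096669405807120439552), (61, 30137517867815379442937712706), (69,
   7932669612358912400753810492), (72, 174449903996051345316112164), (76,
   7932616433379342768074242829), (78, 33178270717239514768273891059), (79,
   58149955841018322715108587), (80, 33519518749974410470704244007), (81,
   174449867523054968145325761), (82, 523349602569164904435977283), (83,
   7932669611008060683080818403), (121, 11875007068249478593872379340), (124,
   11630363104662245014735439430), (141, 30136640436941393477849584678), (142,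
   11031651831643821385532644588), (162, 79766443076872509863361), (164, 239299329230617529590083),
   (166, 717897987691852588770249), (183, 2153693963075557766310747), (186,
   6461081889226673298932241), (188, 19383245667680019896796723), (204,
   33003820817296018575976755162), (206, 33868417548880280059611377852), (226,
   58149737003040059690390169), (228, 174449211009120179071170507), (229,
   523347633027360537213511521), (247, 11864238598434100805040819588), (248,
   30504506816207325465745583208), (268, 1570042899082081611640534563), (269,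
   4710128697246244834921603689), (272, 14130386091738734504764811067), (290,
   30472201406761192099250755224), (292, 11671283289960680612295580108), (312,
   1262988096758350776185327920), (313, 30137517867782025079538379568)]

/-- Decoding of a filling. -/
def decP : List (List (Fin 21)) → ℕ → List (List (Fin 21) × ℤ)
  | [], _ => []
  | t :: l, n => if n % 3 = 0 then decP l (n / 3) else
      (t, if n % 3 = 1 then 1 else -1) :: decP l (n / 3)

/-- The contracting homotopy. -/
def hP : List (Fin 21) → List (List (Fin 21) × ℤ)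
  | [] => [([4], 1)]
  | [v] => h0P.getD v []
  | [u, v] => decP trisP ((rowsP.lookup (u * 21 + v : ℕ)).getD 0)
  | _ => []

/-- The certificate at one simplex. -/
def okP (l : List (Fin 21)) : Prop :=
  (∀ p ∈ hP l, p.1.Pairwise fun a b => a < b ∧ adjB a b = true) ∧
  (∀ p ∈ dLs l, p.1.Pairwise (· < ·)) ∧
  ((l, -1) :: ((hP l).flatMap fun p => scl p.2 (dLs p.1)) ++
    (dLs l).flatMap fun p => scl p.2 (hP p.1)).foldr insc [] = []

instance : DecidablePred okP := fun l => by unfold okP; infer_instance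

lemma ok0 : okP [] := by decide +kernel
lemma ok1 : ∀ a, okP [a] := by decide +kernel
lemma ok2 : ∀ a b, adjB a b = true → a < b → okP [a, b] := by decide +kernel
lemma ok3 : ∀ a b, adjB a b = true → a < b → ∀ c, adjB a c = true → adjB b c = true → b < c →
    okP [a, b, c] := by decide +kernel
lemma no4 : ∀ a b, adjB a b = true → ∀ c, adjB a c = true → adjB b c = true →
    ∀ d, adjB a d = true → adjB b d = true → adjB c d = false := by decide +kernel

lemma sort_spec {σ : Finset (Fin 21)} (h : GP.IsClique (σ : Set (Fin 21))) :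
    (σ.sort (· ≤ ·)).Pairwise fun a b => a < b ∧ adjB a b = true :=
  (List.Pairwise.and_mem.1 σ.sortedLT_sort.pairwise).imp fun ⟨ha, hb, hab⟩ =>
    ⟨hab, h (by simpa using ha) (by simpa using hb) hab.ne⟩

lemma ok_list {l : List (Fin 21)} (h : l.Pairwise fun a b => a < b ∧ adjB a b = true) :
    l.length ≤ 3 ∧ okP l := by
  match l, h with
  | [], _ => exact ⟨by simp, ok0⟩
  | [a], _ => exact ⟨by simp, ok1 a⟩
  | [a, b], h => simp at h; exact ⟨by simp, ok2 a b h.2 h.1⟩
  | [a, b, c], h => simp at h; exact ⟨by simp, ok3 a b h.1.1.2 h.1.1.1 c h.1.2.2 h.2.2 h.2.1⟩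
  | a :: b :: c :: d :: l, h =>
    simp at h
    have := no4 a b h.1.1.2 c h.1.2.1.2 h.2.1.1.2 d h.1.2.2.1.2 h.2.1.2.1.2
    simp [h.2.2.1.1.2] at this

/-- The values of the connection, multiplied by four. -/
def valsP : List ℍ[ℤ√5] :=
  [⟨⟨4, 0⟩, ⟨0, 0⟩, ⟨0, 0⟩, ⟨0, 0⟩⟩, ⟨⟨1, 1⟩, ⟨-2, 0⟩, ⟨0, 0⟩, ⟨-1, 1⟩⟩, ⟨⟨1, 1⟩, ⟨-2, 0⟩, ⟨0, 0⟩,
   ⟨1, -1⟩⟩, ⟨⟨1, 1⟩, ⟨-1, 1⟩, ⟨-2, 0⟩, ⟨0, 0⟩⟩, ⟨⟨1, 1⟩, ⟨-1, 1⟩, ⟨2, 0⟩, ⟨0, 0⟩⟩, ⟨⟨1, 1⟩, ⟨0,
   0⟩, ⟨-1, 1⟩, ⟨-2, 0⟩⟩, ⟨⟨1, 1⟩, ⟨0, 0⟩, ⟨-1, 1⟩, ⟨2, 0⟩⟩, ⟨⟨1, 1⟩, ⟨0, 0⟩, ⟨1, -1⟩, ⟨-2, 0⟩⟩,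
   ⟨⟨1, 1⟩, ⟨0, 0⟩, ⟨1, -1⟩, ⟨2, 0⟩⟩, ⟨⟨1, 1⟩, ⟨1, -1⟩, ⟨-2, 0⟩, ⟨0, 0⟩⟩, ⟨⟨1, 1⟩, ⟨1, -1⟩, ⟨2, 0⟩,
   ⟨0, 0⟩⟩, ⟨⟨1, 1⟩, ⟨2, 0⟩, ⟨0, 0⟩, ⟨-1, 1⟩⟩, ⟨⟨1, 1⟩, ⟨2, 0⟩, ⟨0, 0⟩, ⟨1, -1⟩⟩]

/-- Indices of the values, in base sixteen. -/
def tabP : List ℕ :=
  [10998981843420961663090688, 2501083420547429884231680, 642648246606198778888192,
   461131753397184714768384, 11527739308803168902578176, 75557863725914323419136,
   110680464442257309696, 604758057712493940178944, 10922833674877489379278848,
   7673845534663173472256, 9444732965739290783744, 43091594156185512576768,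
   2420803118281051877998592, 4231240368651202111483915, 6044629098073145873532352, 0, 117798656,
   1038148357078075, 83305185985988, 22517999491970508, 624592990501077172]

/-- The connection, multiplied by four. -/
def XP (u v : Fin 21) : ℍ[ℤ√5] := valsP.getD (tabP.getD u 0 / 16 ^ (v : ℕ) % 16) 0

/-- Componentwise equality. -/
def eq4 (x y : ℍ[ℤ√5]) : Prop :=
  x.re = 4 * y.re ∧ x.imI = 4 * y.imI ∧ x.imJ = 4 * y.imJ ∧ x.imK = 4 * y.imK

instance (x y : ℍ[ℤ√5]) : Decidable (eq4 x y) := by unfold eq4; infer_instance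

lemma X_norm : ∀ u v, (XP u v).re ^ 2 + (XP u v).imI ^ 2 + (XP u v).imJ ^ 2 + (XP u v).imK ^ 2 = 16 ∧
    0 ≤ (XP u v).re.re ∧ 0 ≤ (XP u v).re.im := by decide +kernel

lemma X_mul : ∀ u v, (u = v ∨ adjB u v = true) → ∀ w, (v = w ∨ adjB v w = true) →
    (u = w ∨ adjB u w = true) → eq4 (XP u v * XP v w) (XP u w) := by decide +kernel

lemma X_cyc : (XP 0 5 * XP 5 1 * XP 1 17 * XP 17 0).imJ = 128 := by decide +kernel

/-- The real embedding. -/
noncomputable def tR : ℤ√5 →+* ℝ := Zsqrtd.toReal (by norm_num)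

/-- The real quaternion. -/
noncomputable def toH (x : ℍ[ℤ√5]) : ℍ[ℝ] := ⟨tR x.re, tR x.imI, tR x.imJ, tR x.imK⟩

lemma toH_re (x : ℍ[ℤ√5]) : (toH x).re = tR x.re := rfl
lemma toH_imI (x : ℍ[ℤ√5]) : (toH x).imI = tR x.imI := rfl
lemma toH_imJ (x : ℍ[ℤ√5]) : (toH x).imJ = tR x.imJ := rfl
lemma toH_imK (x : ℍ[ℤ√5]) : (toH x).imK = tR x.imK := rfl

lemma toH_mul (x y : ℍ[ℤ√5]) : toH (x * y) = toH x * toH y := by
  ext <;> simp [toH_re, toH_imI, toH_imJ, toH_imK]

lemma toH_eq4 {x y : ℍ[ℤ√5]} (h : eq4 x y) : toH x = (4 : ℝ) • toH y := by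
  obtain ⟨h1, h2, h3, h4⟩ := h
  ext <;> simp [toH_re, toH_imI, toH_imJ, toH_imK, h1, h2, h3, h4, map_ofNat]

/-- The connection. -/
noncomputable def rhoP (u v : Fin 21) : S3 := ⟨(4 : ℝ)⁻¹ • toH (XP u v), by
  have h := congrArg tR (X_norm u v).1
  simp only [map_add, map_pow, map_ofNat] at h
  have h2 : ‖toH (XP u v)‖ * ‖toH (XP u v)‖ = 4 * 4 := by
    rw [← normSq_eq_norm_mul_self, normSq_def']
    simp only [toH_re, toH_imI, toH_imJ, toH_imK]
    linarith
  rw [mem_sphere_zero_iff_norm, norm_smul, (mul_self_inj (norm_nonneg _) (by norm_num)).1 h2]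
  norm_num⟩

theorem exists_good : ∃ G : SimpleGraph (Fin 21), Good G := by
  refine ⟨GP, fun σ hσ => ?_, ⟨fun σ => evc (hP (σ.sort (· ≤ ·))), fun σ hσ => ?_⟩,
    ⟨0, 5, 15, by decide, by decide, by change adjB _ _ = true; decide +kernel,
      by change adjB _ _ = true; decide +kernel, by change adjB _ _ = true; decide +kernel⟩,
    rhoP, fun u v w h1 h2 h3 => ?_, fun u v _ => ?_, ?_⟩
  · simpa using (ok_list (sort_spec hσ)).1
  · obtain ⟨h1, h2, h3⟩ := (ok_list (sort_spec hσ)).2
    refine ⟨fun τ hτ => ?_, ?_⟩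
    · obtain ⟨p, hp, rfl⟩ := mem_evc hτ
      rw [List.coe_toFinset]
      have : Std.Symm GP.Adj := GP.symm
      exact List.Pairwise.set_pairwise (R := GP.Adj) ((h1 p hp).imp fun h => h.2)
    · have e := evc_foldr ((σ.sort (· ≤ ·), -1) :: ((hP (σ.sort (· ≤ ·))).flatMap
        fun p => scl p.2 (dLs p.1)) ++ (dLs (σ.sort (· ≤ ·))).flatMap fun p => scl p.2 (hP p.1))
      rw [h3, List.cons_append, evc_cons, evc_append, ← lc_evc hP h2,
        ← dl_evc fun p hp => (h1 p hp).imp fun h => h.1,
        ← dl_list ((sort_spec hσ).imp fun h => h.1), Finset.sort_toFinset, evc_nil,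
        Finsupp.single_neg, eq_comm, neg_add_eq_zero] at e
      exact e.symm
  · apply Subtype.ext
    have := toH_eq4 (X_mul u v h1 w h2 h3)
    rw [toH_mul] at this
    simp only [S3.coe_mul, rhoP, smul_mul_smul_comm, this, smul_smul]
    norm_num
  · obtain ⟨-, h1, h2⟩ := X_norm u v
    simp only [rhoP, toH_re, tR, re_smul, Zsqrtd.toReal_apply, smul_eq_mul]
    positivity
  · rintro ⟨k, hk⟩
    have h1 := hk 0 5 (by change adjB _ _ = true; decide +kernel)
    have h2 := hk 5 1 (by change adjB _ _ = true; decide +kernel)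
    have h3 := hk 1 17 (by change adjB _ _ = true; decide +kernel)
    have h4 := hk 17 0 (by change adjB _ _ = true; decide +kernel)
    have h5 : rhoP 0 5 * rhoP 5 1 * rhoP 1 17 * rhoP 17 0 = 1 := by
      rw [← mul_left_inj (k 0), mul_assoc, mul_assoc, mul_assoc, ← h4, ← h3, ← h2, ← h1, one_mul]
    have h6 := congrArg (fun q : S3 => (q : ℍ[ℝ]).imJ) h5
    simp only [S3.coe_mul, rhoP, smul_mul_smul_comm, ← toH_mul] at h6
    simp [toH_imJ, -imJ_mul, X_cyc, map_ofNat] at h6

end Vale.Agent.P173
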