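import Vale.Agent.P173.Alg
import Mathlib.GroupTheory.PresentedGroup
import Mathlib.Combinatorics.SimpleGraph.Clique

/-! Right-angled Artin groups, the Salvetti chain complex and the Bestvina-Brady group. -/

open Quaternion

namespace Vale.Agent.P173

variable {V : Type} [LinearOrder V] (G : SimpleGraph V)

/-- The commutation relators. -/
def rels : Set (FreeGroup V) :=
  {w | ∃ u v, G.Adj u v ∧ w = .of u * .of v * (.of u)⁻¹ * (.of v)⁻¹}

/-- The right-angled Artin group. -/
abbrev RA : Type := PresentedGroup (rels G)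

/-- The standard generators. -/
def gen (v : V) : RA G := PresentedGroup.of v

omit [LinearOrder V] in
lemma gen_comm {u v : V} (h : G.Adj u v) : Commute (gen G u) (gen G v) := by
  have : (PresentedGroup.mk (rels G)) (.of u * .of v * (.of u)⁻¹ * (.of v)⁻¹) = 1 :=
    PresentedGroup.one_of_mem ⟨u, v, h, rfl⟩
  simp only [map_mul, map_inv] at this
  exact (commutatorElement_eq_one_iff_commute.1 this :)

/-- Homomorphisms out of the right-angled Artin group. -/
def RA.lift {H : Type*} [Group H] (f : V → H) (h : ∀ u v, G.Adj u v → Commute (f u) (f v)) :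
    RA G →* H :=
  PresentedGroup.toGroup (f := f) (by
    rintro _ ⟨u, v, huv, rfl⟩
    simp only [map_mul, map_inv, FreeGroup.lift_apply_of]
    exact commutatorElement_eq_one_iff_commute.2 (h u v huv))

omit [LinearOrder V] in
@[simp] lemma RA.lift_gen {H : Type*} [Group H] (f : V → H)
    (h : ∀ u v, G.Adj u v → Commute (f u) (f v)) (v : V) : RA.lift G f h (gen G v) = f v :=
  PresentedGroup.toGroup.of _

/-- The height homomorphism. -/
def htH : RA G →* Multiplicative ℤ :=
  RA.lift G (fun _ => Multiplicative.ofAdd 1) fun _ _ _ => Commute.refl _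

/-- The height function. -/
def ht (g : RA G) : ℤ := (htH G g).toAdd

omit [LinearOrder V] in
@[simp] lemma ht_gen (v : V) : ht G (gen G v) = 1 := by simp [ht, htH]

omit [LinearOrder V] in
@[simp] lemma ht_one : ht G 1 = 0 := by simp [ht]

omit [LinearOrder V] in
@[simp] lemma ht_mul (g h : RA G) : ht G (g * h) = ht G g + ht G h := by simp [ht]

omit [LinearOrder V] in
@[simp] lemma ht_inv (g : RA G) : ht G g⁻¹ = -ht G g := by simp [ht]

omit [LinearOrder V] in
@[simp] lemma ht_pow (g : RA G) (n : ℕ) : ht G (g ^ n) = n * ht G g := by simp [ht]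

omit [LinearOrder V] in
@[simp] lemma ht_zpow (g : RA G) (n : ℤ) : ht G (g ^ n) = n * ht G g := by simp [ht]

/-- The Bestvina-Brady group. -/
abbrev BB : Type := (htH G).ker

omit [LinearOrder V] in
lemma mem_BB {g : RA G} : g ∈ (htH G).ker ↔ ht G g = 0 := Iff.rfl

/-- The incidence sign. -/
def sg (v : V) (σ : Finset V) : ℤ := (-1) ^ (σ.filter (v < ·)).card

/-- The augmented simplicial boundary. -/
noncomputable def dl : (Finset V →₀ ℤ) →ₗ[ℤ] (Finset V →₀ ℤ) :=
  Finsupp.linearCombination ℤ fun σ => ∑ v ∈ σ, sg v σ • Finsupp.single (σ.erase v) 1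

/-- The boundary of the Salvetti complex. -/
noncomputable def dS : (RA G × Finset V →₀ ℤ) →ₗ[ℤ] (RA G × Finset V →₀ ℤ) :=
  Finsupp.linearCombination ℤ fun c => ∑ v ∈ c.2, sg v c.2 •
    (Finsupp.single (c.1 * gen G v, c.2.erase v) 1 - Finsupp.single (c.1, c.2.erase v) 1)

/-- The augmentation. -/
noncomputable def aug : (RA G × Finset V →₀ ℤ) →ₗ[ℤ] ℤ :=
  Finsupp.linearCombination ℤ fun c => if c.2 = ∅ then 1 else 0

/-- Chains supported on cubes. -/
def Cl : Submodule ℤ (RA G × Finset V →₀ ℤ) :=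
  Finsupp.supported ℤ ℤ {c | G.IsClique (c.2 : Set V)}

/-- Chains supported on cubes of the slab of heights between zero and two. -/
def Slab : Submodule ℤ (RA G × Finset V →₀ ℤ) :=
  Finsupp.supported ℤ ℤ {c | G.IsClique (c.2 : Set V) ∧ 0 ≤ ht G c.1 ∧ ht G c.1 + c.2.card ≤ 2}

/-- Equal or adjacent. -/
def Nb (u v : V) : Prop := u = v ∨ G.Adj u v

/-- The flag complex has dimension two, is acyclic, and carries a nontrivial flat connection. -/
structure Good : Prop where
  dim : ∀ σ : Finset V, G.IsClique (σ : Set V) → σ.card ≤ 3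
  acyc : ∃ h : Finset V → (Finset V →₀ ℤ), ∀ σ : Finset V, G.IsClique (σ : Set V) →
    (∀ τ ∈ (h σ).support, G.IsClique (τ : Set V)) ∧
      dl (h σ) + Finsupp.linearCombination ℤ h (dl (Finsupp.single σ 1)) = Finsupp.single σ 1
  tri : ∃ u v w, u < v ∧ v < w ∧ G.Adj u v ∧ G.Adj v w ∧ G.Adj u w
  rho : ∃ ρ : V → V → S3, (∀ u v w, Nb G u v → Nb G v w → Nb G u w → ρ u v * ρ v w = ρ u w) ∧
    (∀ u v, G.Adj u v → 0 ≤ (ρ u v : ℍ[ℝ]).re) ∧ ¬∃ k : V → S3, ∀ u v, G.Adj u v → k u = ρ u v * k v

/-- The generators of the Bestvina-Brady group: edges of the slab. -/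
def bS (v₀ : V) (s : Fin 2 × V) : BB G :=
  ⟨gen G v₀ ^ (s.1 : ℕ) * gen G s.2 * (gen G v₀ ^ ((s.1 : ℕ) + 1))⁻¹, by
    rw [mem_BB]; simp⟩

/-- The index type of the 2-cells: edges of the graph and two trivial generators. -/
abbrev TT : Type := {p : V × V // p.1 < p.2 ∧ G.Adj p.1 p.2} ⊕ Fin 2

/-- The boundary words of the 2-cells. -/
def tS (v₀ : V) : TT G → FreeGroup (Fin 2 × V)
  | .inl p => .of (0, p.1.1) * .of (1, p.1.2) * (.of (1, p.1.1))⁻¹ * (.of (0, p.1.2))⁻¹
  | .inr j => .of (j, v₀)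

end Vale.Agent.P173
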