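import Vale.Agent.P173.Raag
import Mathlib.LinearAlgebra.Finsupp.Supported

/-! Exactness of the Salvetti chain complex. -/

namespace Vale.Agent.P173

open Finsupp

section general

variable {α N : Type*} [AddCommGroup N]

lemma map_mem_of_supported {s : Set α} (f : (α →₀ ℤ) →ₗ[ℤ] N) (P : Submodule ℤ N)
    (h : ∀ c ∈ s, f (single c 1) ∈ P) {z : α →₀ ℤ} (hz : z ∈ supported ℤ ℤ s) : f z ∈ P := by
  rw [supported_eq_span_single] at hz
  refine (Submodule.span_le (p := P.comap f)).2 ?_ hz
  rintro _ ⟨c, hc, rfl⟩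
  exact h c hc

lemma eq_of_supported {s : Set α} (f g : (α →₀ ℤ) →ₗ[ℤ] N)
    (h : ∀ c ∈ s, f (single c 1) = g (single c 1)) {z : α →₀ ℤ} (hz : z ∈ supported ℤ ℤ s) :
    f z = g z := by
  have := map_mem_of_supported (f - g) ⊥ (fun c hc => by simp [h c hc]) hz
  simpa [sub_eq_zero] using this

lemma map_mem_of_single (f : (α →₀ ℤ) →ₗ[ℤ] N) (P : Submodule ℤ N)
    (h : ∀ c, f (single c 1) ∈ P) (z : α →₀ ℤ) : f z ∈ P :=
  map_mem_of_supported (s := Set.univ) f P (fun c _ => h c) (by simp)

lemma eq_of_single (f g : (α →₀ ℤ) →ₗ[ℤ] N) (h : ∀ c, f (single c 1) = g (single c 1))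
    (z : α →₀ ℤ) : f z = g z :=
  eq_of_supported (s := Set.univ) f g (fun c _ => h c) (by simp)

lemma lc_single (f : α → N) (c : α) : linearCombination ℤ f (single c 1) = f c := by simp

lemma sum_antisymm [DecidableEq α] (s : Finset α) (a : α → α → N)
    (h : ∀ u ∈ s, ∀ w ∈ s, u ≠ w → a u w = -a w u) : ∑ u ∈ s, ∑ w ∈ s.erase u, a u w = 0 := by
  have e : ∑ u ∈ s, ∑ w ∈ s.erase u, a u w =
      ∑ p ∈ s ×ˢ s, if p.2 ≠ p.1 then a p.1 p.2 else 0 := by
    rw [Finset.sum_product]
    refine Finset.sum_congr rfl fun u _ => ?_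
    rw [← Finset.sum_filter, Finset.filter_ne']
  rw [e]
  refine Finset.sum_involution (fun p _ => p.swap) (fun p hp => ?_) (fun p _ hp e => ?_)
    (fun p hp => ?_) fun p _ => rfl
  · obtain ⟨h1, h2⟩ := Finset.mem_product.1 hp
    by_cases h3 : p.2 = p.1
    · simp [h3]
    · simp [h3, Ne.symm h3, h p.1 h1 p.2 h2 (Ne.symm h3)]
  · exact hp (if_neg fun h3 => h3 (congrArg Prod.fst e))
  · obtain ⟨h1, h2⟩ := Finset.mem_product.1 hp
    exact Finset.mem_product.2 ⟨h2, h1⟩

end general

variable {V : Type} [LinearOrder V] (G : SimpleGraph V)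

lemma sg_erase_of_le {u w : V} (h : u ≤ w) (s : Finset V) : sg w (s.erase u) = sg w s := by
  unfold sg
  rw [Finset.filter_erase, Finset.erase_eq_of_notMem]
  simp [h]

lemma sg_insert_of_lt {u v : V} (h : u < v) {s : Finset V} (hv : v ∉ s) :
    sg u (insert v s) = -sg u s := by
  unfold sg
  rw [Finset.filter_insert, if_pos h, Finset.card_insert_of_notMem (by simp [hv]), pow_succ]
  ring

lemma sg_of_max {v : V} {s : Finset V} (h : ∀ u ∈ s, u ≤ v) : sg v s = 1 := by
  unfold sg
  rw [Finset.filter_eq_empty_iff.2 fun u hu => not_lt.2 (h u hu)]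
  simp

lemma sg_swap {u w : V} {s : Finset V} (hu : u ∈ s) (hw : w ∈ s) (h : u ≠ w) :
    sg u s * sg w (s.erase u) = -(sg w s * sg u (s.erase w)) := by
  have key : ∀ u w : V, w ∈ s → u < w →
      sg u s * sg w (s.erase u) = -(sg w s * sg u (s.erase w)) := by
    intro u w hw h
    have := sg_insert_of_lt h (Finset.notMem_erase w s)
    rw [Finset.insert_erase hw] at this
    rw [sg_erase_of_le h.le, this]
    ring
  rcases lt_or_gt_of_ne h with h | h
  · exact key u w hw h
  · rw [key w u hu h, neg_neg]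

lemma dS_single (g : RA G) (s : Finset V) : dS G (single (g, s) 1) = ∑ v ∈ s, sg v s •
    (single (g * gen G v, s.erase v) 1 - single (g, s.erase v) 1) := lc_single _ _

omit [LinearOrder V] in
lemma clique_mono {s t : Finset V} (h : s ⊆ t) (ht : G.IsClique (t : Set V)) :
    G.IsClique (s : Set V) := ht.subset (Finset.coe_subset.2 h)

/-- The boundary preserves chains supported on a family of faces closed under erasing. -/
lemma dS_mem_faces (p : Finset V → Prop) (hp : ∀ s v, p s → p (s.erase v))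
    {z : RA G × Finset V →₀ ℤ} (hz : z ∈ supported ℤ ℤ {c : RA G × Finset V | p c.2}) :
    dS G z ∈ supported ℤ ℤ {c : RA G × Finset V | p c.2} := by
  refine map_mem_of_supported _ _ (fun c hc => ?_) hz
  rw [dS_single]
  exact Submodule.sum_mem _ fun v _ => Submodule.smul_mem _ _ (Submodule.sub_mem _
    (single_mem_supported _ _ (hp _ v hc)) (single_mem_supported _ _ (hp _ v hc)))

theorem dS_mem_Cl {z : RA G × Finset V →₀ ℤ} (hz : z ∈ Cl G) : dS G z ∈ Cl G :=
  dS_mem_faces G (fun s => G.IsClique (s : Set V))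
    (fun s v hs => clique_mono G (Finset.erase_subset v s) hs) hz

theorem dS_dS {z : RA G × Finset V →₀ ℤ} (hz : z ∈ Cl G) : dS G (dS G z) = 0 := by
  refine eq_of_supported (dS G ∘ₗ dS G) 0 ?_ hz
  rintro ⟨g, s⟩ hc
  rw [LinearMap.comp_apply, LinearMap.zero_apply, dS_single, map_sum]
  refine Eq.trans (Finset.sum_congr rfl fun u _ => ?_) (sum_antisymm s (fun u w =>
    (sg u s * sg w (s.erase u)) • ((single (g * gen G u * gen G w, (s.erase u).erase w) 1 -
      single (g * gen G u, (s.erase u).erase w) 1) -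
      (single (g * gen G w, (s.erase u).erase w) 1 - single (g, (s.erase u).erase w) 1) :
        RA G × Finset V →₀ ℤ)) fun u hu w hw h => ?_)
  · rw [map_smul, map_sub, dS_single, dS_single, ← Finset.sum_sub_distrib, Finset.smul_sum]
    refine Finset.sum_congr rfl fun w _ => ?_
    rw [← smul_sub, smul_smul]
  · have hc' : Commute (gen G u) (gen G w) := gen_comm G (hc hu hw h)
    rw [sg_swap hu hw h, neg_smul, Finset.erase_right_comm (a := w), mul_assoc g, hc'.eq,
      ← mul_assoc g]
    congr 2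
    abel

/-- The standard subgroup spanned by a set of vertices. -/
def stdA (S : Finset V) : Subgroup (RA G) := Subgroup.closure (gen G '' S)

omit [LinearOrder V] in
lemma gen_mem_stdA {S : Finset V} {v : V} (h : v ∈ S) : gen G v ∈ stdA G S :=
  Subgroup.subset_closure ⟨v, h, rfl⟩

omit [LinearOrder V] in
lemma stdA_mono {S T : Finset V} (h : S ⊆ T) : stdA G S ≤ stdA G T :=
  Subgroup.closure_mono (Set.image_mono (Finset.coe_subset.2 h))

/-- The augmentation relative to a standard subgroup. -/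
noncomputable def augS (S : Finset V) :
    (RA G × Finset V →₀ ℤ) →ₗ[ℤ] (RA G ⧸ stdA G S →₀ ℤ) :=
  linearCombination ℤ fun c => if c.2 = ∅ then single (c.1 : RA G ⧸ stdA G S) 1 else 0

/-- Chains on cubes with directions in `S`. -/
def CS (S : Finset V) : Submodule ℤ (RA G × Finset V →₀ ℤ) :=
  supported ℤ ℤ {c | G.IsClique (c.2 : Set V) ∧ c.2 ⊆ S}

/-- Chains on cubes of positive dimension with directions in `S`. -/
def CP (S : Finset V) : Submodule ℤ (RA G × Finset V →₀ ℤ) :=
  supported ℤ ℤ {c | (G.IsClique (c.2 : Set V) ∧ c.2 ⊆ S) ∧ c.2 ≠ ∅}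

omit [LinearOrder V] in
lemma CP_le_CS (S : Finset V) : CP G S ≤ CS G S := supported_mono fun _ h => h.1

omit [LinearOrder V] in
lemma CS_le_Cl (S : Finset V) : CS G S ≤ Cl G := supported_mono fun _ h => h.1

omit [LinearOrder V] in
lemma CS_mono {S T : Finset V} (h : S ⊆ T) : CS G S ≤ CS G T :=
  supported_mono fun _ hc => ⟨hc.1, hc.2.trans h⟩

lemma dS_mem_CS {S : Finset V} {z : RA G × Finset V →₀ ℤ} (hz : z ∈ CS G S) : dS G z ∈ CS G S :=
  dS_mem_faces G (fun s => G.IsClique (s : Set V) ∧ s ⊆ S)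
    (fun s v hs => ⟨clique_mono G (Finset.erase_subset v s) hs.1,
      (Finset.erase_subset v s).trans hs.2⟩) hz

lemma augS_dS {S : Finset V} {z : RA G × Finset V →₀ ℤ} (hz : z ∈ CS G S) :
    augS G S (dS G z) = 0 := by
  refine eq_of_supported (augS G S ∘ₗ dS G) 0 ?_ hz
  rintro ⟨g, s⟩ hc
  rw [LinearMap.comp_apply, LinearMap.zero_apply, dS_single, map_sum]
  refine Finset.sum_eq_zero fun v hv => ?_
  rw [map_smul, map_sub, augS, lc_single, lc_single]
  have : ((g * gen G v : RA G) : RA G ⧸ stdA G S) = g :=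
    QuotientGroup.mk_mul_of_mem g (gen_mem_stdA G (hc.2 hv))
  simp [this]

/-- The part of dimension zero. -/
noncomputable def prZ : (RA G × Finset V →₀ ℤ) →ₗ[ℤ] (RA G × Finset V →₀ ℤ) :=
  linearCombination ℤ fun c => if c.2 = ∅ then single c 1 else 0

lemma dS_prZ (z : RA G × Finset V →₀ ℤ) : dS G (prZ G z) = 0 := by
  refine eq_of_single (dS G ∘ₗ prZ G) 0 ?_ z
  rintro ⟨g, s⟩
  rw [LinearMap.comp_apply, LinearMap.zero_apply, prZ, lc_single]
  split_ifs with h
  · obtain rfl : s = ∅ := h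
    rw [dS_single, Finset.sum_empty]
  · exact map_zero _

lemma sub_prZ_mem {S : Finset V} {z : RA G × Finset V →₀ ℤ} (hz : z ∈ CS G S) :
    z - prZ G z ∈ CP G S := by
  refine map_mem_of_supported (LinearMap.id - prZ G) _ (fun c hc => ?_) hz
  rw [LinearMap.sub_apply, LinearMap.id_apply, prZ, lc_single]
  split_ifs with h
  · simp
  · rw [sub_zero]
    exact single_mem_supported _ _ ⟨hc, h⟩

lemma vertex_diff (S : Finset V) {k : RA G} (hk : k ∈ stdA G S) : ∀ g : RA G,
    (single (g * k, ∅) 1 - single (g, ∅) 1 : RA G × Finset V →₀ ℤ) ∈ (CS G S).map (dS G) := by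
  induction hk using Subgroup.closure_induction with
  | mem x hx =>
    obtain ⟨v, hv, rfl⟩ := hx
    intro g
    refine ⟨single (g, {v}) 1, single_mem_supported _ _ ⟨by simp, by simpa using hv⟩, ?_⟩
    rw [dS_single, Finset.sum_singleton, sg_of_max (by simp), one_smul, Finset.erase_singleton]
  | one => intro g; simp
  | mul x y _ _ hx hy =>
    intro g
    have := Submodule.add_mem _ (hy (g * x)) (hx g)
    rwa [sub_add_sub_cancel, mul_assoc] at this
  | inv x _ hx =>
    intro g
    have := Submodule.neg_mem _ (hx (g * x⁻¹))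
    rwa [neg_sub, inv_mul_cancel_right] at this

lemma prZ_mem (S : Finset V) {z : RA G × Finset V →₀ ℤ} (hz : augS G S z = 0) :
    prZ G z ∈ (CS G S).map (dS G) := by
  have := map_mem_of_single (prZ G - (linearCombination ℤ fun q : RA G ⧸ stdA G S =>
    (single (q.out, ∅) 1 : RA G × Finset V →₀ ℤ)) ∘ₗ augS G S) ((CS G S).map (dS G)) (by
      rintro ⟨g, s⟩
      rw [LinearMap.sub_apply, LinearMap.comp_apply, prZ, augS, lc_single, lc_single]
      split_ifs with h
      · obtain rfl : s = ∅ := h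
        obtain ⟨k, hk⟩ := QuotientGroup.mk_out_eq_mul (stdA G S) g
        rw [lc_single, hk, ← neg_sub]
        exact Submodule.neg_mem _ (vertex_diff G S k.2 g)
      · simp) z
  rwa [LinearMap.sub_apply, LinearMap.comp_apply, hz, map_zero, sub_zero] at this

/-- The tree lemma. -/
lemma exists_tree (S B : Finset V) (v : V) (hv : v ∉ S) (hB : ∀ u ∈ S, G.Adj v u → u ∈ B) :
    ∃ h : RA G ⧸ stdA G S → (RA G ⧸ stdA G B →₀ ℤ), ∀ g : RA G,
      h (g * gen G v : RA G) - h g = single (g : RA G ⧸ stdA G B) 1 := by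
  let W := Multiplicative (RA G ⧸ stdA G B →₀ ℤ)
  let f : V → (RA G → W) ⋊[wr (RA G) W] RA G := fun u =>
    if u = v then ⟨fun g => Multiplicative.ofAdd (single (g : RA G ⧸ stdA G B) 1), gen G v⟩
    else if u ∈ S then ⟨1, gen G u⟩ else 1
  have hfv : f v = ⟨fun g => Multiplicative.ofAdd (single (g : RA G ⧸ stdA G B) 1), gen G v⟩ :=
    if_pos rfl
  have hfS : ∀ u ∈ S, f u = ⟨1, gen G u⟩ := fun u hu =>
    (if_neg fun e : u = v => hv (e ▸ hu)).trans (if_pos hu)
  have hfo : ∀ u, u ≠ v → u ∉ S → f u = 1 := fun u h1 h2 => (if_neg h1).trans (if_neg h2)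
  have hvS : ∀ u ∈ S, G.Adj v u → Commute (f v) (f u) := by
    intro u hu ha
    rw [hfv, hfS u hu]
    refine SemidirectProduct.ext ?_ (gen_comm G ha).eq
    funext g
    have : ((g * gen G u : RA G) : RA G ⧸ stdA G B) = g :=
      QuotientGroup.mk_mul_of_mem g (gen_mem_stdA G (hB u hu ha))
    change Multiplicative.ofAdd (single (g : RA G ⧸ stdA G B) (1 : ℤ)) * 1 =
      1 * Multiplicative.ofAdd (single ((g * gen G u : RA G) : RA G ⧸ stdA G B) (1 : ℤ))
    rw [this, mul_one, one_mul]
  have hcomm : ∀ u w, G.Adj u w → Commute (f u) (f w) := by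
    intro u w ha
    by_cases hu : u ∈ S
    · by_cases hw : w ∈ S
      · rw [hfS u hu, hfS w hw]
        exact SemidirectProduct.ext (by simp [SemidirectProduct.mul_left]) (gen_comm G ha).eq
      · by_cases hw' : w = v
        · subst hw'
          exact (hvS u hu ha.symm).symm
        · rw [hfo w hw' hw]; exact Commute.one_right _
    · by_cases hu' : u = v
      · subst hu'
        by_cases hw : w ∈ S
        · exact hvS w hw ha
        · rw [hfo w ha.ne.symm hw]; exact Commute.one_right _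
      · rw [hfo u hu' hu]; exact Commute.one_left _
  let Θ := RA.lift G f hcomm
  have hΘ : ∀ u, Θ (gen G u) = f u := RA.lift_gen G f hcomm
  have hr : ∀ k ∈ stdA G (insert v S), (Θ k).right = k := by
    intro k hk
    induction hk using Subgroup.closure_induction with
    | mem x hx =>
      obtain ⟨u, hu, rfl⟩ := hx
      rw [hΘ]
      rcases Finset.mem_insert.1 (Finset.mem_coe.1 hu) with rfl | hu
      · rw [hfv]
      · rw [hfS u hu]
    | one => simp
    | mul x y _ _ hx hy => rw [map_mul, SemidirectProduct.mul_right, hx, hy]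
    | inv x _ hx => rw [map_inv, SemidirectProduct.inv_right, hx]
  have hl : ∀ k ∈ stdA G S, (Θ k).left = 1 := by
    intro k hk
    induction hk using Subgroup.closure_induction with
    | mem x hx =>
      obtain ⟨u, hu, rfl⟩ := hx
      rw [hΘ, hfS u hu]
    | one => simp
    | mul x y _ _ hx hy => rw [map_mul, SemidirectProduct.mul_left, hx, hy, map_one, one_mul]
    | inv x _ hx => rw [map_inv, SemidirectProduct.inv_left, hx, inv_one, map_one]
  let r : RA G → RA G := fun g => (g : RA G ⧸ stdA G (insert v S)).out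
  let h₀ : RA G → W := fun g => (Θ ((r g)⁻¹ * g)).left (r g)
  have hstep : ∀ g, ∀ k ∈ stdA G (insert v S), h₀ (g * k) = h₀ g * (Θ k).left g := by
    intro g k hk
    have e : r (g * k) = r g := congrArg Quotient.out (QuotientGroup.mk_mul_of_mem g hk)
    have hm : (r g)⁻¹ * g ∈ stdA G (insert v S) :=
      QuotientGroup.eq.1 (QuotientGroup.out_eq' _)
    simp only [h₀]
    rw [e, ← mul_assoc, map_mul, SemidirectProduct.mul_left, hr _ hm]
    simp [wr]
  have hout : ∀ g : RA G, h₀ (g : RA G ⧸ stdA G S).out = h₀ g := by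
    intro g
    obtain ⟨k, hk⟩ := QuotientGroup.mk_out_eq_mul (stdA G S) g
    rw [hk, hstep g k (stdA_mono G (Finset.subset_insert v S) k.2), hl k k.2]
    simp
  refine ⟨fun q => (h₀ q.out).toAdd, fun g => ?_⟩
  simp only [hout]
  rw [hstep g _ (gen_mem_stdA G (Finset.mem_insert_self v S)), hΘ, hfv]
  exact add_sub_cancel_left (Multiplicative.toAdd (h₀ g)) _

/-- The prism over a chain in the direction `v`. -/
noncomputable def opJ (v : V) : (RA G × Finset V →₀ ℤ) →ₗ[ℤ] (RA G × Finset V →₀ ℤ) :=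
  linearCombination ℤ fun c => single (c.1, insert v c.2) 1

/-- The translate of a chain in the direction `v`. -/
noncomputable def opR (v : V) : (RA G × Finset V →₀ ℤ) →ₗ[ℤ] (RA G × Finset V →₀ ℤ) :=
  linearCombination ℤ fun c => single (c.1 * gen G v, c.2) 1

/-- The base of the part of a chain containing the direction `v`. -/
noncomputable def opY (v : V) : (RA G × Finset V →₀ ℤ) →ₗ[ℤ] (RA G × Finset V →₀ ℤ) :=
  linearCombination ℤ fun c => if v ∈ c.2 then single (c.1, c.2.erase v) 1 else 0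

lemma dS_opJ {S : Finset V} {v : V} (hv : ∀ u ∈ S, u < v) {y : RA G × Finset V →₀ ℤ}
    (hy : y ∈ CS G S) : dS G (opJ G v y) = opR G v y - y - opJ G v (dS G y) := by
  refine eq_of_supported (dS G ∘ₗ opJ G v) (opR G v - LinearMap.id - opJ G v ∘ₗ dS G) ?_ hy
  rintro ⟨g, s⟩ hc
  have hs : ∀ u ∈ s, u < v := fun u hu => hv u (hc.2 hu)
  have hvs : v ∉ s := fun h => lt_irrefl _ (hs v h)
  simp only [LinearMap.comp_apply, LinearMap.sub_apply, LinearMap.id_apply]
  rw [opJ, opR, lc_single, lc_single, dS_single, dS_single, Finset.sum_insert hvs,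
    Finset.erase_insert hvs, sg_of_max (fun u hu => by
      rcases Finset.mem_insert.1 hu with rfl | hu
      · exact le_rfl
      · exact (hs u hu).le), one_smul, map_sum, sub_eq_add_neg (_ - _), ← Finset.sum_neg_distrib]
  congr 1
  refine Finset.sum_congr rfl fun u hu => ?_
  rw [map_smul, map_sub, lc_single, lc_single, sg_insert_of_lt (hs u hu) hvs, neg_smul,
    Finset.erase_insert_of_ne (hs u hu).ne']

lemma cycle_exact (S : Finset V) : ∀ z ∈ CS G S, dS G z = 0 → augS G S z = 0 →
    ∃ y ∈ CS G S, dS G y = z := by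
  induction S using Finset.strongInduction with
  | H S ih =>
  suffices hP : ∀ z ∈ CP G S, dS G z = 0 → ∃ y ∈ CS G S, dS G y = z by
    intro z hz hd ha
    obtain ⟨y, hy, e⟩ := hP _ (sub_prZ_mem G hz) (by rw [map_sub, hd, dS_prZ, sub_zero])
    obtain ⟨y₀, hy₀, e₀⟩ := prZ_mem G S ha
    exact ⟨y + y₀, Submodule.add_mem _ hy hy₀, by rw [map_add, e, e₀, sub_add_cancel]⟩
  intro z hz hd
  rcases S.eq_empty_or_nonempty with rfl | hne
  · refine ⟨0, Submodule.zero_mem _, ?_⟩
    rw [map_zero]
    exact (eq_of_supported LinearMap.id 0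
      (fun c hc => absurd (Finset.subset_empty.1 hc.1.2) hc.2) hz).symm
  obtain ⟨v, hvS, hv⟩ : ∃ v ∈ S, ∀ u ∈ S.erase v, u < v :=
    ⟨S.max' hne, S.max'_mem hne, fun u hu => lt_of_le_of_ne
      (S.le_max' u (Finset.mem_of_mem_erase hu)) (Finset.ne_of_mem_erase hu)⟩
  obtain ⟨B, hB⟩ : ∃ B : Finset V, ∀ u, u ∈ B ↔ u ∈ S.erase v ∧ G.Adj v u := by
    classical
    exact ⟨(S.erase v).filter (G.Adj v), fun u => Finset.mem_filter⟩
  have hBS : B ⊆ S.erase v := fun u hu => ((hB u).1 hu).1
  have hss : S.erase v ⊂ S := Finset.erase_ssubset hvS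
  have hy : opY G v z ∈ CS G B := by
    refine map_mem_of_supported _ _ (fun c hc => ?_) hz
    rw [opY, lc_single]
    split_ifs with h
    · refine single_mem_supported _ _ ⟨clique_mono G (Finset.erase_subset _ _) hc.1.1,
        fun u hu => (hB u).2 ⟨Finset.erase_subset_erase v hc.1.2 hu, ?_⟩⟩
      exact hc.1.1 h (Finset.mem_of_mem_erase hu) (Finset.ne_of_mem_erase hu).symm
    · exact Submodule.zero_mem _
  have hx : z - opJ G v (opY G v z) ∈ CP G (S.erase v) := by
    refine map_mem_of_supported (LinearMap.id - opJ G v ∘ₗ opY G v) _ (fun c hc => ?_) hz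
    rw [LinearMap.sub_apply, LinearMap.id_apply, LinearMap.comp_apply, opY, lc_single]
    split_ifs with h
    · rw [opJ, lc_single]
      simp [Finset.insert_erase h]
    · rw [map_zero, sub_zero]
      exact single_mem_supported _ _ ⟨⟨hc.1.1, Finset.subset_erase.2 ⟨hc.1.2, h⟩⟩, hc.2⟩
  have hY0 : ∀ x ∈ CS G (S.erase v), opY G v x = 0 := fun x hx =>
    eq_of_supported (opY G v) 0 (fun c hc => by
      rw [opY, lc_single, if_neg fun h => Finset.notMem_erase v S (hc.2 h)]; rfl) hx
  have hYJ : ∀ x ∈ CS G (S.erase v), opY G v (opJ G v x) = x := fun x hx =>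
    eq_of_supported (opY G v ∘ₗ opJ G v) LinearMap.id (fun c hc => by
      rw [LinearMap.comp_apply, opJ, opY, lc_single, lc_single,
        if_pos (Finset.mem_insert_self _ _),
        Finset.erase_insert fun h => Finset.notMem_erase v S (hc.2 h)]; rfl) hx
  have hR : ∀ x ∈ CS G (S.erase v), opR G v x ∈ CS G (S.erase v) := fun x hx =>
    map_mem_of_supported _ _ (fun c hc => by
      rw [opR, lc_single]; exact single_mem_supported _ _ hc) hx
  have hRP : ∀ x ∈ CP G (S.erase v), opR G v x ∈ CP G (S.erase v) := fun x hx =>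
    map_mem_of_supported _ _ (fun c hc => by
      rw [opR, lc_single]; exact single_mem_supported _ _ hc) hx
  have hJ : ∀ x ∈ CS G B, opJ G v x ∈ CS G S := fun x hx =>
    map_mem_of_supported _ _ (fun c hc => by
      rw [opJ, lc_single]
      refine single_mem_supported _ _ ⟨?_, Finset.insert_subset hvS
        (hc.2.trans (hBS.trans hss.subset))⟩
      rw [Finset.coe_insert]
      exact hc.1.insert fun u hu _ => ((hB u).1 (hc.2 hu)).2) hx
  generalize opY G v z = y at hy hx
  obtain ⟨x, rfl⟩ : ∃ x, z = x + opJ G v y := ⟨z - opJ G v y, (sub_add_cancel _ _).symm⟩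
  rw [add_sub_cancel_right] at hx
  have hy' := CS_mono G hBS hy
  have hx' := CP_le_CS G _ hx
  rw [map_add, dS_opJ G hv hy'] at hd
  have hdy : dS G y = 0 := by
    have := congrArg (opY G v) hd
    rw [map_add, map_sub, map_sub, hY0 _ (dS_mem_CS G hx'), hY0 _ (hR _ hy'), hY0 _ hy',
      hYJ _ (dS_mem_CS G hy'), map_zero] at this
    simpa using this
  rw [hdy, map_zero, sub_zero] at hd
  have hay : augS G B y = 0 := by
    obtain ⟨h, hh⟩ := exists_tree G (S.erase v) B v (Finset.notMem_erase v S)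
      fun u hu ha => (hB u).2 ⟨hu, ha⟩
    have h1 := congrArg (augS G (S.erase v)) hd
    rw [map_add, augS_dS G hx', zero_add, map_zero] at h1
    have h2 := eq_of_single (linearCombination ℤ h ∘ₗ augS G (S.erase v) ∘ₗ
      (opR G v - LinearMap.id)) (augS G B) (fun c => by
        simp only [LinearMap.comp_apply, LinearMap.sub_apply, LinearMap.id_apply]
        rw [opR, lc_single, map_sub, augS, augS, lc_single, lc_single, lc_single]
        split_ifs with h3
        · rw [map_sub, lc_single, lc_single, hh]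
        · simp) y
    simp only [LinearMap.comp_apply, LinearMap.sub_apply, LinearMap.id_apply] at h2
    rw [← h2, h1, map_zero]
  obtain ⟨y₁, hy₁, e₁⟩ := ih B (lt_of_le_of_lt hBS hss) y hy hdy hay
  obtain ⟨y₂, hy₂, e₂⟩ : ∃ y₂ ∈ CP G B, dS G y₂ = y :=
    ⟨_, sub_prZ_mem G hy₁, by rw [map_sub, e₁, dS_prZ, sub_zero]⟩
  have hCP : CP G B ≤ CP G (S.erase v) :=
    supported_mono fun _ hc => ⟨⟨hc.1.1, hc.1.2.trans hBS⟩, hc.2⟩
  have hy₂' : y₂ ∈ CP G (S.erase v) := hCP hy₂
  have hJ₂ := hJ _ (CP_le_CS G _ hy₂)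
  have e₃ := dS_opJ G hv (CP_le_CS G _ hy₂')
  rw [e₂] at e₃
  have hm : x + (opR G v y₂ - y₂) ∈ CP G (S.erase v) :=
    Submodule.add_mem _ hx (Submodule.sub_mem _ (hRP _ hy₂') hy₂')
  have e₄ : x + (opR G v y₂ - y₂) = x + opJ G v y + dS G (opJ G v y₂) := by rw [e₃]; abel
  obtain ⟨w, hw, e₅⟩ := ih _ hss _ (CP_le_CS G _ hm) (by
      rw [e₄, map_add, dS_dS G (CS_le_Cl G _ hJ₂), add_zero, map_add, dS_opJ G hv hy', hdy,
        map_zero, sub_zero, hd])
    (eq_of_supported (augS G (S.erase v)) 0 (fun c hc => by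
      rw [augS, lc_single, if_neg hc.2]; rfl) hm)
  refine ⟨w - opJ G v y₂, Submodule.sub_mem _ (CS_mono G hss.subset hw) hJ₂, ?_⟩
  rw [map_sub, e₅, e₄, add_sub_cancel_right]

theorem salv_exact [Fintype V] {z : RA G × Finset V →₀ ℤ} (hz : z ∈ Cl G) (hd : dS G z = 0)
    (ha : aug G z = 0) : ∃ y ∈ Cl G, dS G y = z := by
  have htop : stdA G Finset.univ = ⊤ := by
    rw [stdA, Finset.coe_univ, Set.image_univ]
    exact PresentedGroup.closure_range_of _
  have h1 := eq_of_single (augS G Finset.univ) ((aug G).smulRight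
    (single ((1 : RA G) : RA G ⧸ stdA G Finset.univ) (1 : ℤ))) (fun c => by
      rw [LinearMap.smulRight_apply, augS, aug, lc_single, lc_single]
      split_ifs
      · rw [one_smul]
        congr 1
        exact QuotientGroup.eq.2 (by rw [htop]; exact Subgroup.mem_top _)
      · simp) z
  rw [LinearMap.smulRight_apply, ha, zero_smul] at h1
  have h2 : Cl G ≤ CS G Finset.univ := supported_mono fun _ hc => ⟨hc, Finset.subset_univ _⟩
  obtain ⟨y, hy, e⟩ := cycle_exact G Finset.univ z (h2 hz) hd h1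
  exact ⟨y, CS_le_Cl G _ hy, e⟩

end Vale.Agent.P173
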