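import Vale.Agent.P173.Morse

/-! The acyclic Cayley complex of the Bestvina-Brady group. -/

namespace Vale.Agent.P173

open Finsupp

lemma exists_retr {α β : Type*} (ι : α → β) (hι : Function.Injective ι) :
    ∃ ρ : (β →₀ ℤ) →ₗ[ℤ] (α →₀ ℤ), (∀ a, ρ (single (ι a) 1) = single a 1) ∧
      ∀ c, (∀ a, ι a ≠ c) → ρ (single c 1) = 0 := by
  classical
  refine ⟨linearCombination ℤ fun c => if h : ∃ a, ι a = c then single h.choose 1 else 0,
    fun a => ?_, fun c hc => ?_⟩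
  · have h : ∃ a', ι a' = ι a := ⟨a, rfl⟩
    rw [lc_single, dif_pos h, hι h.choose_spec]
  · rw [lc_single, dif_neg fun ⟨a, ha⟩ => hc a ha]

/-- The map on chains induced by a map of cells. -/
noncomputable def emb {α β : Type*} (ι : α → β) : (α →₀ ℤ) →ₗ[ℤ] (β →₀ ℤ) :=
  linearCombination ℤ fun a => single (ι a) 1

lemma emb_single {α β : Type*} (ι : α → β) (a : α) : emb ι (single a 1) = single (ι a) 1 :=
  lc_single _ _

variable {V : Type} [LinearOrder V] {G : SimpleGraph V}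

variable (G) in
/-- Ordered edges. -/
abbrev PP : Type := {p : V × V // p.1 < p.2 ∧ G.Adj p.1 p.2}

/-- Squares of the slab. -/
def cel2 (c : BB G × PP G) : RA G × Finset V := (c.1, {c.2.1.1, c.2.1.2})

/-- Edges of the slab. -/
def cel1 (v₀ : V) (c : BB G × (Fin 2 × V)) : RA G × Finset V :=
  (c.1 * gen G v₀ ^ (c.2.1 : ℕ), {c.2.2})

/-- Vertices of the slab. -/
def cel0 (v₀ : V) (c : BB G × ℕ) : RA G × Finset V := (c.1 * gen G v₀ ^ c.2, ∅)

/-- The boundary of edges of the slab. -/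
noncomputable def bD1 (v₀ : V) : (BB G × (Fin 2 × V) →₀ ℤ) →ₗ[ℤ] (BB G × ℕ →₀ ℤ) :=
  linearCombination ℤ fun c =>
    single (c.1 * bS G v₀ c.2, (c.2.1 : ℕ) + 1) 1 - single (c.1, (c.2.1 : ℕ)) 1

/-- The boundary of squares of the slab. -/
noncomputable def bD2 (v₀ : V) : (BB G × PP G →₀ ℤ) →ₗ[ℤ] (BB G × (Fin 2 × V) →₀ ℤ) :=
  linearCombination ℤ fun c => fox (bS G v₀) (tS G v₀ (.inl c.2)) c.1

omit [LinearOrder V] in
lemma ht_BB (γ : BB G) : ht G γ = 0 := (mem_BB G).1 γ.2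

omit [LinearOrder V] in
lemma pow_inj_BB (v₀ : V) {γ γ' : BB G} {i j : ℕ}
    (h : (γ : RA G) * gen G v₀ ^ i = γ' * gen G v₀ ^ j) : γ = γ' ∧ i = j := by
  have h1 := congrArg (ht G) h
  simp only [ht_mul, ht_BB, ht_pow, ht_gen, zero_add, mul_one, Nat.cast_inj] at h1
  subst h1
  exact ⟨Subtype.ext (mul_right_cancel h), rfl⟩

omit [LinearOrder V] in
lemma cel0_inj (v₀ : V) : Function.Injective (cel0 (G := G) v₀) := fun _ _ h =>
  Prod.ext (pow_inj_BB v₀ (congrArg Prod.fst h)).1 (pow_inj_BB v₀ (congrArg Prod.fst h)).2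

omit [LinearOrder V] in
lemma cel1_inj (v₀ : V) : Function.Injective (cel1 (G := G) v₀) := fun _ _ h =>
  Prod.ext (pow_inj_BB v₀ (congrArg Prod.fst h)).1
    (Prod.ext (Fin.ext (pow_inj_BB v₀ (congrArg Prod.fst h)).2)
      (Finset.singleton_injective (congrArg Prod.snd h)))

lemma cel2_inj : Function.Injective (cel2 (G := G)) := by
  rintro ⟨γ, ⟨u, v⟩, h1, h2⟩ ⟨γ', ⟨u', v'⟩, h1', h2'⟩ h
  have e1 : γ = γ' := Subtype.ext (congrArg Prod.fst h)
  have e2 : ({u, v} : Finset V) = {u', v'} := congrArg Prod.snd h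
  have e3 : u = u' ∧ v = v' := by
    rcases Set.pair_eq_pair_iff.1 (show ({u, v} : Set V) = {u', v'} by
      simpa using congrArg (fun s : Finset V => (s : Set V)) e2) with h3 | ⟨rfl, rfl⟩
    · exact h3
    · exact absurd h1 (not_lt.2 h1'.le)
  obtain ⟨rfl, rfl⟩ := e3
  rw [e1]

omit [LinearOrder V] in
lemma bS_base (v₀ : V) (j : Fin 2) : bS G v₀ (j, v₀) = 1 :=
  Subtype.ext (by simp [bS, pow_succ])

lemma rel_BB (v₀ : V) (τ : TT G) : FreeGroup.lift (bS G v₀) (tS G v₀ τ) = 1 := by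
  rcases τ with ⟨⟨u, v⟩, h1, h2⟩ | j
  · apply Subtype.ext
    have := (gen_comm G h2).eq
    simp only [tS, map_mul, map_inv, FreeGroup.lift_apply_of, bS, Subgroup.coe_mul,
      Subgroup.coe_inv, Subgroup.coe_one, Fin.val_zero, Fin.val_one]
    calc _ = gen G u * gen G v * (gen G v * gen G u)⁻¹ := by group
      _ = 1 := by rw [this, mul_inv_cancel]
  · simp [tS, bS_base]

lemma dS_cel1 (v₀ : V) (z : BB G × (Fin 2 × V) →₀ ℤ) :
    dS G (emb (cel1 v₀) z) = emb (cel0 v₀) (bD1 v₀ z) := by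
  refine eq_of_single (dS G ∘ₗ emb (cel1 v₀)) (emb (cel0 v₀) ∘ₗ bD1 v₀) ?_ z
  rintro ⟨γ, j, v⟩
  rw [LinearMap.comp_apply, LinearMap.comp_apply, emb_single, bD1, lc_single, map_sub, emb_single,
    emb_single, cel1, dS_single, Finset.sum_singleton, sg_of_max (by simp), one_smul,
    Finset.erase_singleton]
  simp [cel0, bS, mul_assoc]

lemma dS_cel2 (v₀ : V) (z : BB G × PP G →₀ ℤ) :
    dS G (emb cel2 z) = -emb (cel1 v₀) (bD2 v₀ z) := by
  refine eq_of_single (dS G ∘ₗ emb cel2) (-emb (cel1 v₀) ∘ₗ bD2 v₀) ?_ z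
  rintro ⟨γ, ⟨u, v⟩, h1, h2⟩
  have hr := rel_BB v₀ (.inl ⟨(u, v), h1, h2⟩)
  have hr' : FreeGroup.lift (bS G v₀) (.of (0, u) * .of (1, v) * (.of (1, u))⁻¹) =
      bS G v₀ (0, v) := by
    rw [tS, map_mul, map_inv, FreeGroup.lift_apply_of] at hr
    exact mul_inv_eq_one.1 hr
  have hr'' : FreeGroup.lift (bS G v₀) (.of (0, u) * .of (1, v)) * (bS G v₀ (1, u))⁻¹ =
      bS G v₀ (0, v) := by
    rw [← hr', map_mul _ _ (FreeGroup.of (1, u))⁻¹, map_inv, FreeGroup.lift_apply_of]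
  have s1 : sg u {u, v} = -1 := by
    rw [Finset.pair_comm, sg_insert_of_lt h1 (by simpa using h1.ne'), sg_of_max (by simp)]
  have s2 : sg v {u, v} = 1 := sg_of_max (by simpa using h1.le)
  have e1 : ({u, v} : Finset V).erase u = {v} := Finset.erase_insert (by simpa using h1.ne)
  have e2 : ({u, v} : Finset V).erase v = {u} := by
    rw [Finset.pair_comm]; exact Finset.erase_insert (by simpa using h1.ne')
  rw [LinearMap.comp_apply, LinearMap.neg_apply, LinearMap.comp_apply, emb_single, bD2, lc_single,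
    cel2, dS_single, Finset.sum_pair h1.ne, s1, s2, e1, e2, tS, fox_mul, fox_mul, fox_mul,
    fox_inv', fox_inv', hr', FreeGroup.lift_apply_of, FreeGroup.lift_apply_of,
    FreeGroup.lift_apply_of, mul_inv_cancel_right, mul_assoc, hr'', fox_of, fox_of, fox_of, fox_of]
  simp only [map_add, map_neg, emb_single, cel1, bS, Fin.val_zero, Fin.val_one, pow_zero, zero_add,
    pow_one, one_mul, mul_one, Subgroup.coe_mul, mul_assoc, inv_mul_cancel, neg_smul, one_smul]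
  abel

lemma retr_dS {α : Type*} {ι : α → RA G × Finset V} {ρ : (RA G × Finset V →₀ ℤ) →ₗ[ℤ] (α →₀ ℤ)}
    (hρ : ∀ c, (∀ a, ι a ≠ c) → ρ (single c 1) = 0) {k : ℕ} (hk : ∀ a, (ι a).2.card = k)
    (c : RA G × Finset V) (hc : c.2.card ≠ k + 1) : ρ (dS G (single c 1)) = 0 := by
  rw [dS_single, map_sum]
  refine Finset.sum_eq_zero fun v hv => ?_
  have h : ∀ g, ρ (single (g, c.2.erase v) 1) = 0 := fun g => hρ _ fun a ha => by
    have h1 := hk a
    have h2 := Finset.card_erase_add_one hv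
    rw [ha] at h1
    exact hc (by rw [← h2, ← h1])
  rw [map_smul, map_sub, h, h, sub_zero, smul_zero]

lemma retr_emb {α β : Type*} {ι : α → β} {ρ : (β →₀ ℤ) →ₗ[ℤ] (α →₀ ℤ)}
    (hρ : ∀ a, ρ (single (ι a) 1) = single a 1) (z : α →₀ ℤ) : ρ (emb ι z) = z :=
  eq_of_single (ρ ∘ₗ emb ι) LinearMap.id (fun a => by
    rw [LinearMap.comp_apply, emb_single, hρ]; rfl) z

lemma card_cel2 (c : BB G × PP G) : (cel2 c).2.card = 2 := Finset.card_pair c.2.2.1.ne

lemma cel2_mem (z : BB G × PP G →₀ ℤ) : emb cel2 z ∈ Slab G :=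
  map_mem_of_single _ _ (fun c => by
    rw [emb_single]
    refine single_mem_supported _ _ ⟨?_, (ht_BB c.1).ge, ?_⟩
    · rw [cel2, Finset.coe_pair]
      exact SimpleGraph.isClique_pair.2 fun _ => c.2.2.2
    · rw [card_cel2, cel2, ht_BB]; norm_num) z

lemma ker_bD1 [Fintype V] (hG : Good G) (v₀ : V) {z : BB G × (Fin 2 × V) →₀ ℤ}
    (hz : bD1 v₀ z = 0) : z ∈ LinearMap.range (bD2 v₀) := by
  obtain ⟨ρ, hρ, hρ'⟩ := exists_retr _ (cel1_inj (G := G) v₀)
  obtain ⟨y, hy, e⟩ := slab_exact hG (z := emb (cel1 v₀) z)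
    (map_mem_of_single _ _ (fun c => by
      rw [emb_single]
      have := c.2.1.2
      refine single_mem_supported _ _ ⟨by simp [cel1], by simp [cel1, ht_BB], ?_⟩
      simp only [cel1, ht_mul, ht_BB, ht_pow, ht_gen, Finset.card_singleton]
      omega) z)
    (by rw [dS_cel1, hz, map_zero])
    (eq_of_single (aug G ∘ₗ emb (cel1 v₀)) 0 (fun c => by
      rw [LinearMap.comp_apply, emb_single, aug, lc_single, if_neg (by simp [cel1])]; rfl) z)
  rw [← retr_emb hρ z, ← e]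
  refine map_mem_of_supported (ρ ∘ₗ dS G) _ (fun c hc => ?_) hy
  rw [LinearMap.comp_apply]
  by_cases h : c.2.card = 2
  · obtain ⟨g, s⟩ := c
    obtain ⟨u, v, huv, rfl⟩ : ∃ u v, u < v ∧ s = {u, v} := by
      obtain ⟨u, v, huv, e⟩ := Finset.card_eq_two.1 h
      rcases lt_or_gt_of_ne huv with h1 | h1
      · exact ⟨u, v, h1, e⟩
      · exact ⟨v, u, h1, e.trans (Finset.pair_comm _ _)⟩
    have h1 : ht G g = 0 := by
      have h2 := hc.2.1
      have h3 := hc.2.2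
      rw [h] at h3
      simp only at h2 h3
      omega
    have h2 : G.Adj u v := hc.1 (by simp) (by simp) huv.ne
    have h3 := dS_cel2 v₀ (single (⟨g, (mem_BB G).2 h1⟩, ⟨(u, v), huv, h2⟩) 1)
    rw [emb_single] at h3
    rw [show (g, ({u, v} : Finset V)) = cel2 (⟨g, (mem_BB G).2 h1⟩, ⟨(u, v), huv, h2⟩) from rfl,
      h3, map_neg, retr_emb hρ]
    exact Submodule.neg_mem _ (LinearMap.mem_range_self _ _)
  · rw [retr_dS hρ' (k := 1) (fun a => Finset.card_singleton _) c h]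
    exact Submodule.zero_mem _

lemma bD2_inj [Fintype V] (hG : Good G) (v₀ : V) {z : BB G × PP G →₀ ℤ}
    (hz : bD2 v₀ z = 0) : z = 0 := by
  obtain ⟨ρ, hρ, hρ'⟩ := exists_retr _ (cel2_inj (G := G))
  obtain ⟨y, hy, e⟩ := slab_exact hG (cel2_mem z)
    (by rw [dS_cel2 v₀, hz, map_zero, neg_zero])
    (eq_of_single (aug G ∘ₗ emb cel2) 0 (fun c => by
      rw [LinearMap.comp_apply, emb_single, aug, lc_single, if_neg (by simp [cel2])]; rfl) z)
  rw [← retr_emb hρ z, ← e]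
  refine eq_of_supported (ρ ∘ₗ dS G) 0 (fun c hc => retr_dS hρ' card_cel2 c ?_) hy
  have h2 := hc.2.1
  have h3 := hc.2.2
  omega

lemma bD1_bD2 (v₀ : V) (z : BB G × PP G →₀ ℤ) : bD1 v₀ (bD2 v₀ z) = 0 := by
  obtain ⟨ρ, hρ, -⟩ := exists_retr _ (cel0_inj (G := G) v₀)
  have hSl : Slab G ≤ Cl G := supported_mono fun _ hc => hc.1
  have h := dS_dS G (hSl (cel2_mem z))
  rw [dS_cel2 v₀, map_neg, dS_cel1, neg_eq_zero] at h
  rw [← retr_emb hρ (bD1 v₀ _), h, map_zero]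

lemma vertex_mem [Fintype V] (hG : Good G) (v₀ : V) (γ : BB G) :
    (single (γ, 0) 1 - single (1, 0) 1 : BB G × ℕ →₀ ℤ) ∈ LinearMap.range (bD1 v₀) := by
  obtain ⟨ρ, hρ, hρ'⟩ := exists_retr _ (cel0_inj (G := G) v₀)
  have hm : ∀ δ : BB G, (single (cel0 v₀ (δ, 0)) 1 : RA G × Finset V →₀ ℤ) ∈ Slab G :=
    fun δ => single_mem_supported _ _ ⟨by simp [cel0], by simp [cel0, ht_BB],
      by simp [cel0, ht_BB]⟩
  obtain ⟨y, hy, e⟩ := slab_exact hG (Submodule.sub_mem _ (hm γ) (hm 1))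
    (by rw [map_sub, cel0, cel0, dS_single, dS_single]; simp)
    (by rw [map_sub, aug, lc_single, lc_single]; simp [cel0])
  rw [← hρ, ← hρ, ← map_sub, ← e]
  refine map_mem_of_supported (ρ ∘ₗ dS G) _ (fun c hc => ?_) hy
  rw [LinearMap.comp_apply]
  by_cases h : c.2.card = 1
  · obtain ⟨g, s⟩ := c
    obtain ⟨v, rfl⟩ := Finset.card_eq_one.1 h
    obtain ⟨j, hj⟩ : ∃ j : Fin 2, ht G g = (j : ℕ) := by
      have h2 := hc.2.1
      have h3 := hc.2.2
      rw [h] at h3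
      simp only at h2 h3
      exact ⟨⟨(ht G g).toNat, by omega⟩, by simp only; omega⟩
    have h1 : g * (gen G v₀ ^ (j : ℕ))⁻¹ ∈ (htH G).ker := (mem_BB G).2 (by simp [hj])
    have h3 := dS_cel1 v₀ (single (⟨_, h1⟩, (j, v)) 1)
    rw [emb_single] at h3
    rw [show (g, ({v} : Finset V)) = cel1 v₀ (⟨_, h1⟩, (j, v)) by simp [cel1], h3, retr_emb hρ]
    exact LinearMap.mem_range_self _ _
  · rw [retr_dS hρ' (k := 0) (fun a => Finset.card_empty) c h]
    exact Submodule.zero_mem _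

theorem acyc_BB [Fintype V] (hG : Good G) (v₀ : V) : Acyc (bS G v₀) (tS G v₀) := by
  let U : (BB G × ℕ →₀ ℤ) →ₗ[ℤ] (BB G × Fin 2 →₀ ℤ) := linearCombination ℤ fun c =>
    ∑ i : Fin 2, if (i : ℕ) < c.2 then single (c.1, i) 1 else 0
  let E : (BB G × Fin 2 →₀ ℤ) →ₗ[ℤ] (BB G × (Fin 2 × V) →₀ ℤ) := emb fun c => (c.1, (c.2, v₀))
  have hU0 : ∀ γ, U (single (γ, 0) 1) = 0 := fun γ => by simp [U]
  have hU1 : ∀ γ, U (single (γ, 1) 1) = single (γ, 0) 1 := fun γ => by simp [U]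
  have hU2 : ∀ γ, U (single (γ, 2) 1) = single (γ, 0) 1 + single (γ, 1) 1 := fun γ => by simp [U]
  have hDE : ∀ γ j, bD1 v₀ (E (single (γ, j) 1)) =
      single (γ, (j : ℕ) + 1) 1 - single (γ, (j : ℕ)) 1 := fun γ j => by
    rw [emb_single, bD1, lc_single, bS_base, mul_one]
  have hUDE : ∀ y, U (bD1 v₀ (E y)) = y := eq_of_single (U ∘ₗ bD1 v₀ ∘ₗ E) LinearMap.id (by
    rintro ⟨γ, j⟩
    rw [LinearMap.comp_apply, LinearMap.comp_apply, hDE, map_sub]
    fin_cases j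
    · simp [hU0, hU1]
    · simp [hU1, hU2])
  have hd2l : ∀ γ p, d2 (bS G v₀) (tS G v₀) (single (γ, .inl p) 1) = bD2 v₀ (single (γ, p) 1) :=
    fun γ p => by rw [d2, bD2, lc_single, lc_single]
  have hd2r : ∀ γ j, d2 (bS G v₀) (tS G v₀) (single (γ, .inr j) 1) = E (single (γ, j) 1) :=
    fun γ j => by rw [d2, lc_single, emb_single, tS, fox_of]
  refine ⟨fun γ => ?_, rel_BB v₀, (injective_iff_map_eq_zero _).2 fun y hy => ?_, fun z hz => ?_⟩
  · obtain ⟨z, hz⟩ := vertex_mem hG v₀ γ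
    have h := eq_of_single ((emb fun c : BB G × ℕ =>
      (c.1 : BB G ⧸ (FreeGroup.lift (bS G v₀)).range)) ∘ₗ bD1 v₀) 0 (fun c => by
        have hm : bS G v₀ c.2 ∈ (FreeGroup.lift (bS G v₀)).range :=
          ⟨.of c.2, FreeGroup.lift_apply_of⟩
        rw [LinearMap.comp_apply, bD1, lc_single, map_sub, emb_single, emb_single,
          QuotientGroup.mk_mul_of_mem _ hm, sub_self]; rfl) z
    rw [LinearMap.comp_apply, hz, map_sub, emb_single, emb_single, LinearMap.zero_apply,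
      sub_eq_zero] at h
    have h1 := QuotientGroup.eq.1 (single_left_injective one_ne_zero h).symm
    simpa using h1
  · let p₁ : (BB G × TT G →₀ ℤ) →ₗ[ℤ] (BB G × PP G →₀ ℤ) := linearCombination ℤ fun c =>
      Sum.elim (fun p => single (c.1, p) 1) (fun _ => 0) c.2
    let p₂ : (BB G × TT G →₀ ℤ) →ₗ[ℤ] (BB G × Fin 2 →₀ ℤ) := linearCombination ℤ fun c =>
      Sum.elim (fun _ => 0) (fun j => single (c.1, j) 1) c.2
    have h1 := eq_of_single (d2 (bS G v₀) (tS G v₀)) (bD2 v₀ ∘ₗ p₁ + E ∘ₗ p₂) (by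
      rintro ⟨γ, p | j⟩
      · simp [p₁, p₂, hd2l]
      · simp [p₁, p₂, hd2r]) y
    have h2 := eq_of_single LinearMap.id
      ((emb fun c : BB G × PP G => ((c.1, .inl c.2) : BB G × TT G)) ∘ₗ p₁ +
        (emb fun c : BB G × Fin 2 => ((c.1, .inr c.2) : BB G × TT G)) ∘ₗ p₂) (by
      rintro ⟨γ, p | j⟩
      · simp [p₁, p₂, emb_single]
      · simp [p₁, p₂, emb_single]) y
    simp only [LinearMap.add_apply, LinearMap.comp_apply, LinearMap.id_apply] at h1 h2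
    rw [hy] at h1
    have h3 : p₂ y = 0 := by
      have := congrArg (fun x => U (bD1 v₀ x)) h1
      simp only [map_add, map_zero, bD1_bD2, hUDE, zero_add] at this
      exact this.symm
    rw [h3, map_zero, add_zero] at h1 h2
    rw [h2, bD2_inj hG v₀ h1.symm, map_zero]
  · have h1 := eq_of_single (bD1 v₀ ∘ₗ E ∘ₗ U ∘ₗ bD1 v₀)
      (bD1 v₀ - (emb fun γ : BB G => (γ, (0 : ℕ))) ∘ₗ d1 (bS G v₀)) (by
        rintro ⟨γ, j, v⟩
        simp only [LinearMap.comp_apply, LinearMap.sub_apply]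
        rw [d1, lc_single, map_sub, emb_single, emb_single]
        have e : bD1 v₀ (single (γ, j, v) 1) = single (γ * bS G v₀ (j, v), (j : ℕ) + 1) 1 -
            single (γ, (j : ℕ)) 1 := by rw [bD1, lc_single]
        rw [e]
        fin_cases j
        · simp [hU0, hU1, hDE]
        · simp only [map_sub, Nat.reduceAdd, hU1, hU2, map_add, hDE, Fin.val_zero, Fin.val_one,
            zero_add]
          abel) z
    simp only [LinearMap.comp_apply, LinearMap.sub_apply] at h1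
    rw [hz, map_zero, sub_zero] at h1
    obtain ⟨y, hy⟩ := ker_bD1 hG v₀ (z := z - E (U (bD1 v₀ z))) (by rw [map_sub, h1, sub_self])
    have h2 : bD2 v₀ y ∈ LinearMap.range (d2 (bS G v₀) (tS G v₀)) :=
      map_mem_of_single _ _ (fun c => LinearMap.mem_range.2 ⟨_, hd2l c.1 c.2⟩) y
    have h3 : E (U (bD1 v₀ z)) ∈ LinearMap.range (d2 (bS G v₀) (tS G v₀)) :=
      map_mem_of_single _ _ (fun c => LinearMap.mem_range.2 ⟨_, hd2r c.1 c.2⟩) _
    have h4 := Submodule.add_mem _ h2 h3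
    rwa [hy, sub_add_cancel] at h4

theorem not_indep (hG : Good G) (v₀ : V) :
    ¬LinearIndependent ℤ fun τ => expo (tS G v₀ τ) := by
  obtain ⟨u, v, w, h1, h2, a1, a2, a3⟩ := hG.tri
  intro h
  have h3 := linearIndependent_iff.1 h
    (single (.inl ⟨(u, v), h1, a1⟩) 1 + single (.inl ⟨(v, w), h2, a2⟩) 1 -
      single (.inl ⟨(u, w), h1.trans h2, a3⟩) 1) (by
      rw [map_sub, map_add, lc_single, lc_single, lc_single]
      simp only [tS, expo_mul, expo_inv, expo_of]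
      abel)
  have h4 := DFunLike.congr_fun h3 (.inl ⟨(u, v), h1, a1⟩)
  simp [h1.ne, h2.ne] at h4

end Vale.Agent.P173
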