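import Vale.Agent.P173.Alg
import Mathlib.GroupTheory.QuotientGroup.Basic

/-! Adding the generators of the acyclic Cayley complex to an aspherical presentation. -/

namespace Vale.Agent.P173

variable {Γ E R S T : Type*} [Group Γ] {a : E → Γ} {r : R → FreeGroup E} {b : S → Γ}
  {t : T → FreeGroup S}

lemma lift_map_comp {E' : Type*} (c : E' → Γ) (f : E → E') (w : FreeGroup E) :
    FreeGroup.lift c (FreeGroup.map f w) = FreeGroup.lift (c ∘ f) w := by
  have : (FreeGroup.lift c).comp (FreeGroup.map f) = FreeGroup.lift (c ∘ f) := by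
    ext e; simp
  exact DFunLike.congr_fun this w

lemma fox_map_comp {E' : Type*} (c : E' → Γ) (f : E → E') (w : FreeGroup E) (g : Γ) :
    fox c (FreeGroup.map f w) g =
      Finsupp.lmapDomain ℤ ℤ (Prod.map id f) (fox (c ∘ f) w g) := by
  induction w using FreeGroup.induction_on generalizing g with
  | C1 => simp
  | of e => simp [Finsupp.mapDomain_single]
  | inv_of e h => rw [map_inv, fox_inv', fox_inv', map_neg, h, lift_map_comp]
  | mul u v hu hv => rw [map_mul, fox_mul, fox_mul, map_add, hu, hv, lift_map_comp]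

lemma d2_single (a : E → Γ) (r : R → FreeGroup E) (p : Γ × R) (n : ℤ) :
    d2 a r (Finsupp.single p n) = n • fox a (r p.2) p.1 := by
  simp only [d2, Finsupp.linearCombination_single]

lemma d2_sh (a : E → Γ) (r : R → FreeGroup E) (d : Γ) (y : Γ × R →₀ ℤ) :
    d2 a r (sh d y) = sh d (d2 a r y) := by
  induction y using Finsupp.induction_linear with
  | zero => simp
  | add x y hx hy => simp only [map_add, hx, hy]
  | single p n => rw [sh_single, d2_single, d2_single, map_zsmul, fox_shift]

theorem tietze_pres (hP : Pres a r) (b : S → Γ) :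
    ∃ r' : R ⊕ S → FreeGroup (E ⊕ S), Pres (Sum.elim a b) r' := by
  classical
  choose x hx using fun s => hP.surj (b s)
  let r' : R ⊕ S → FreeGroup (E ⊕ S) := Sum.elim (fun f => FreeGroup.map Sum.inl (r f))
    fun s => FreeGroup.map Sum.inl (x s) * (FreeGroup.of (Sum.inr s))⁻¹
  have hl : ∀ w, FreeGroup.lift (Sum.elim a b) (FreeGroup.map Sum.inl w) = FreeGroup.lift a w :=
    fun w => lift_map_comp _ _ w
  have hr : ∀ f, FreeGroup.lift a (r f) = 1 := fun f => by
    have : r f ∈ (FreeGroup.lift a).ker :=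
      hP.ker ▸ Subgroup.subset_normalClosure (Set.mem_range_self f)
    exact this
  refine ⟨r', fun g => ?_, le_antisymm (fun w hw => ?_) ?_, ?_⟩
  · obtain ⟨w, rfl⟩ := hP.surj g
    exact ⟨_, hl w⟩
  · let θ : FreeGroup (E ⊕ S) →* FreeGroup E := FreeGroup.lift (Sum.elim FreeGroup.of x)
    let N := Subgroup.normalClosure (Set.range r')
    have h1 : (FreeGroup.lift a).comp θ = FreeGroup.lift (Sum.elim a b) := by
      ext (e | s) <;> simp [θ, hx]
    have h2 : (QuotientGroup.mk' N).comp ((FreeGroup.map Sum.inl).comp θ) =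
        QuotientGroup.mk' N := by
      ext (e | s)
      · simp [θ]
      · have : r' (Sum.inr s) ∈ N := Subgroup.subset_normalClosure (Set.mem_range_self _)
        rw [← QuotientGroup.eq_one_iff] at this
        simp only [r', Sum.elim_inr, QuotientGroup.mk_mul, QuotientGroup.mk_inv,
          mul_inv_eq_one] at this
        simpa [θ] using this
    have h3 : θ w ∈ Subgroup.normalClosure (Set.range r) := by
      rw [← hP.ker, MonoidHom.mem_ker, ← MonoidHom.comp_apply, h1]
      exact hw
    have h4 : Subgroup.normalClosure (Set.range r) ≤ N.comap (FreeGroup.map Sum.inl) := by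
      refine Subgroup.normalClosure_le_normal ?_
      rintro _ ⟨f, rfl⟩
      exact Subgroup.subset_normalClosure (Set.mem_range_self (Sum.inl f : R ⊕ S))
    have h5 := DFunLike.congr_fun h2 w
    rw [← QuotientGroup.eq_one_iff, ← QuotientGroup.mk'_apply, ← h5]
    exact (QuotientGroup.eq_one_iff _).2 (h4 h3)
  · refine Subgroup.normalClosure_le_normal ?_
    rintro _ ⟨f | s, rfl⟩
    · simpa [r', hl] using hr f
    · simp [r', hl, hx]
  · have hi : Function.Injective (Prod.map (id : Γ → Γ) (Sum.inl : E → E ⊕ S)) :=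
      Function.injective_id.prodMap Sum.inl_injective
    have hi' : Function.Injective (Prod.map (id : Γ → Γ) (Sum.inl : R → R ⊕ S)) :=
      Function.injective_id.prodMap Sum.inl_injective
    have hf : ∀ w g, fox (Sum.elim a b) (FreeGroup.map Sum.inl w) g =
        Finsupp.lmapDomain ℤ ℤ (Prod.map id Sum.inl) (fox a w g) := fun w g => fox_map_comp _ _ w g
    have h0 : ∀ (z : Γ × E →₀ ℤ) g (s : S),
        Finsupp.lmapDomain ℤ ℤ (Prod.map id Sum.inl) z (g, Sum.inr s) = 0 := fun z g s =>
      Finsupp.mapDomain_of_notMem_range _ _ (by rintro ⟨⟨_, _⟩, h⟩; simp at h)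
    have h1 : ∀ (y : Γ × (R ⊕ S) →₀ ℤ) g s,
        d2 (Sum.elim a b) r' y (g, Sum.inr s) = -y (g, Sum.inr s) := by
      intro y g s
      induction y using Finsupp.induction_linear with
      | zero => simp
      | add y z hy hz => simp only [map_add, Finsupp.add_apply, hy, hz, neg_add]
      | single p n =>
        obtain ⟨d, f | s'⟩ := p
        · rw [d2_single, Finsupp.smul_apply]
          simp only [r', Sum.elim_inl, hf, h0]
          simp
        · rw [d2_single, Finsupp.smul_apply]
          simp only [r', Sum.elim_inr, fox_mul, fox_inv', hf, Finsupp.add_apply, h0, hl, hx]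
          simp [Finsupp.single_apply]
    have h2 : ∀ y : Γ × R →₀ ℤ,
        d2 (Sum.elim a b) r' (Finsupp.lmapDomain ℤ ℤ (Prod.map id Sum.inl) y) =
          Finsupp.lmapDomain ℤ ℤ (Prod.map id Sum.inl) (d2 a r y) := by
      intro y
      induction y using Finsupp.induction_linear with
      | zero => simp
      | add y z hy hz => simp only [map_add, hy, hz]
      | single p n =>
        rw [d2_single, map_zsmul, ← hf, Finsupp.lmapDomain_apply, Finsupp.mapDomain_single,
          d2_single]
        rfl
    rw [injective_iff_map_eq_zero]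
    intro y hy
    have h3 : (y.support : Set (Γ × (R ⊕ S))) ⊆ Set.range (Prod.map id Sum.inl) := by
      rintro ⟨g, f | s⟩ h
      · exact ⟨(g, f), rfl⟩
      · have := h1 y g s
        rw [hy, Finsupp.zero_apply, eq_comm, neg_eq_zero] at this
        exact absurd this (Finsupp.mem_support_iff.1 h)
    have h4 := Finsupp.mapDomain_comapDomain _ hi' y h3
    set y' := Finsupp.comapDomain (Prod.map id Sum.inl) y hi'.injOn
    have h5 := h2 y'
    rw [Finsupp.lmapDomain_apply, h4, hy, Finsupp.lmapDomain_apply,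
      ← Finsupp.mapDomain_zero (f := Prod.map id Sum.inl)] at h5
    have h6 : y' = 0 := hP.inj ((Finsupp.mapDomain_injective hi h5).symm.trans (map_zero _).symm)
    rw [← h4, h6, Finsupp.mapDomain_zero]

theorem tietze_kap (hA : Acyc b t) (a : E → Γ) :
    ∃ κ, Kap (Sum.elim a b) (fun τ => FreeGroup.map Sum.inr (t τ)) κ := by
  choose x hx using fun e => hA.surj (a e)
  let π : FreeGroup (E ⊕ S) →* FreeGroup S := FreeGroup.lift (Sum.elim x FreeGroup.of)
  have h1 : ∀ w, FreeGroup.lift b (π w) = FreeGroup.lift (Sum.elim a b) w := fun w => by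
    have : (FreeGroup.lift b).comp π = FreeGroup.lift (Sum.elim a b) := by
      ext (e | s) <;> simp [π, hx]
    exact DFunLike.congr_fun this w
  have h2 : ∀ w, π (FreeGroup.map Sum.inr w) = w := fun w => by
    have : π.comp (FreeGroup.map Sum.inr) = MonoidHom.id _ := by ext s; simp [π]
    exact DFunLike.congr_fun this w
  have h3 : ∀ w, ∃ y, FreeGroup.lift (Sum.elim a b) w = 1 → d2 b t y = fox b (π w) 1 := by
    intro w
    by_cases hw : FreeGroup.lift (Sum.elim a b) w = 1
    · obtain ⟨y, hy⟩ := hA.ex (fox b (π w) 1) (by rw [d1_fox, h1, hw, mul_one, sub_self])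
      exact ⟨y, fun _ => hy⟩
    · exact ⟨0, fun h => absurd h hw⟩
  choose κ hκ using h3
  have h4 : ∀ τ, FreeGroup.lift (Sum.elim a b) (FreeGroup.map Sum.inr (t τ)) = 1 := fun τ => by
    rw [← h1, h2, hA.rel]
  refine ⟨κ, h4, fun u v hu hv => hA.inj ?_, fun u w hw => hA.inj ?_, fun τ => hA.inj ?_⟩
  · rw [map_add, hκ u hu, hκ v hv, hκ _ (by rw [map_mul, hu, hv, one_mul]), map_mul, fox_mul, h1,
      hu, mul_one]
  · rw [d2_sh, hκ w hw, hκ _ (by simp [hw]), map_mul, map_mul, map_inv, fox_mul, fox_mul, map_mul,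
      h1 w, hw, mul_one, fox_inv, ← fox_shift, h1, one_mul, mul_one]
    abel
  · rw [hκ _ (h4 τ), h2, d2_single, one_smul]

theorem tietze_fam {ε : ℝ} (F : Fam b t ε) (a : E → Γ) :
    Nonempty (Fam (Sum.elim a b) (fun τ => FreeGroup.map Sum.inr (t τ)) ε) :=
  ⟨{ F with
    lab := fun e => FreeGroup.map Sum.inr (F.lab e)
    pos_tgt := fun e => by rw [lift_map_comp]; exact F.pos_tgt e
    word := fun f => by rw [F.word]; simp }⟩

end Vale.Agent.P173
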