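import Vale.Agent.P173.Alg
import Mathlib.Topology.Homotopy.Lifting
import Mathlib.Analysis.SpecialFunctions.Trigonometric.Basic
import Mathlib.Analysis.Convex.Contractible

/-! Attaching cells, edge paths, cocycles and coverings. -/

open Set Topology unitInterval

namespace Vale.Agent.P173

/-- The closed unit ball for the sup norm. -/
abbrev Bl (n : ℕ) : Type := Metric.closedBall (0 : Fin n → ℝ) 1

lemma Bl.norm_le {n : ℕ} (z : Bl n) : ‖z.1‖ ≤ 1 := mem_closedBall_zero_iff.1 z.2

/-- The centre of the ball. -/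
def Bl.o (n : ℕ) : Bl n := ⟨0, by simp⟩

instance (n : ℕ) : ContractibleSpace (Bl n) :=
  (convex_closedBall _ _).contractibleSpace ⟨0, by simp⟩

instance (n : ℕ) : LocallyPathConnectedSpace (Bl n) :=
  (convex_closedBall _ _).locallyPathConnectedSpace

/-- The space `X` is obtained from the closed subset `A` by attaching `n`-cells. -/
structure Att (n : ℕ) {X C : Type*} [TopologicalSpace X] (A : Set X) (Φ : C → C(Bl n, X)) :
    Prop where
  closed : IsClosed A
  mem : ∀ c z, Φ c z ∈ A ↔ ‖z.1‖ = 1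
  inj : ∀ c z c' z', ‖z.1‖ < 1 → Φ c z = Φ c' z' → c = c' ∧ z = z'
  cover : ∀ x, x ∈ A ∨ ∃ c z, Φ c z = x
  weak : ∀ S : Set X, IsClosed (S ∩ A) → (∀ c, IsClosed (Φ c ⁻¹' S)) → IsClosed S

/-- The affine parametrisation of the one-dimensional ball. -/
def seg (t : I) : Bl 1 := ⟨fun _ => 2 * (t : ℝ) - 1, by
  rw [mem_closedBall_zero_iff, pi_norm_const, Real.norm_eq_abs, abs_le]
  constructor <;> linarith [t.2.1, t.2.2]⟩

lemma continuous_seg : Continuous seg := by unfold seg; fun_prop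

section EP

variable {Z C : Type*} [TopologicalSpace Z] (Φ : C → C(Bl 1, Z))

/-- The path along a 1-cell. -/
def edge (e : C) : Path (Φ e (seg 0)) (Φ e (seg 1)) where
  toFun t := Φ e (seg t)
  continuous_toFun := (Φ e).continuous.comp continuous_seg
  source' := rfl
  target' := rfl

@[simp] lemma edge_apply (e : C) (t : I) : edge Φ e t = Φ e (seg t) := rfl

/-- The path is homotopic to the edge path spelled by the word. -/
inductive EP : ∀ {u v : Z}, Path u v → FreeGroup C → Prop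
  | refl (u : Z) : EP (Path.refl u) 1
  | edge (e : C) : EP (edge Φ e) (.of e)
  | symm {u v : Z} {γ : Path u v} {w : FreeGroup C} : EP γ w → EP γ.symm w⁻¹
  | trans {u v x : Z} {γ : Path u v} {γ' : Path v x} {w w' : FreeGroup C} :
      EP γ w → EP γ' w' → EP (γ.trans γ') (w * w')
  | htpy {u v : Z} {γ γ' : Path u v} {w : FreeGroup C} : EP γ w → γ.Homotopic γ' → EP γ' w

end EP

/-- Along every lift of the path the coordinate is multiplied by `h`. -/
def Rule {Z X T H : Type*} [TopologicalSpace Z] [TopologicalSpace T] [Group H] (p : T → X)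
    (ι : Z → X) (κ : T → H) {u v : Z} (γ : Path u v) (h : H) : Prop :=
  ∀ δ : C(I, T), (∀ t, p (δ t) = ι (γ t)) → κ (δ 1) = κ (δ 0) * h

lemma circ_ne (t : ℝ) : (![Real.cos (2 * Real.pi * t), Real.sin (2 * Real.pi * t)] : Fin 2 → ℝ) ≠ 0 := by
  intro h
  have h0 := congrFun h 0
  have h1 := congrFun h 1
  have := Real.cos_sq_add_sin_sq (2 * Real.pi * t)
  simp only [Matrix.cons_val_zero, Matrix.cons_val_one, Pi.zero_apply] at h0 h1
  rw [h0, h1] at this
  norm_num at this

/-- The boundary circle of the square. -/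
noncomputable def circF (t : ℝ) : Bl 2 :=
  ⟨‖(![Real.cos (2 * Real.pi * t), Real.sin (2 * Real.pi * t)] : Fin 2 → ℝ)‖⁻¹ •
    ![Real.cos (2 * Real.pi * t), Real.sin (2 * Real.pi * t)], by
    rw [mem_closedBall_zero_iff, norm_smul, norm_inv, norm_norm,
      inv_mul_cancel₀ (norm_ne_zero_iff.2 (circ_ne t))]⟩

lemma norm_circF (t : ℝ) : ‖(circF t).1‖ = 1 := by
  rw [circF, norm_smul, norm_inv, norm_norm, inv_mul_cancel₀ (norm_ne_zero_iff.2 (circ_ne t))]

lemma continuous_circF : Continuous circF := by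
  have : Continuous fun t : ℝ =>
      (![Real.cos (2 * Real.pi * t), Real.sin (2 * Real.pi * t)] : Fin 2 → ℝ) := by fun_prop
  exact ((this.norm.inv₀ fun t => norm_ne_zero_iff.2 (circ_ne t)).smul this).subtype_mk _

lemma circF_one : circF 1 = circF 0 := by
  apply Subtype.ext
  simp [circF]

/-- The boundary circle as a loop. -/
noncomputable def circ : Path (circF 0) (circF 0) where
  toFun t := circF t
  continuous_toFun := continuous_circF.comp continuous_subtype_val
  source' := rfl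
  target' := circF_one

@[simp] lemma circ_apply (t : I) : circ t = circF t := rfl

/-- The attaching loop of a 2-cell, as a loop in the subspace. -/
noncomputable def Att.loop {X C : Type*} [TopologicalSpace X] {A : Set X} {Φ : C → C(Bl 2, X)}
    (h : Att 2 A Φ) (c : C) :
    Path (⟨Φ c (circF 0), (h.mem _ _).2 (norm_circF 0)⟩ : A) ⟨Φ c (circF 0), (h.mem _ _).2 (norm_circF 0)⟩ where
  toFun t := ⟨Φ c (circF t), (h.mem _ _).2 (norm_circF t)⟩
  continuous_toFun :=
    ((Φ c).continuous.comp (continuous_circF.comp continuous_subtype_val)).subtype_mk _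
  source' := rfl
  target' := Subtype.ext (by simp only [Icc.coe_one, circF_one])

/-- A locally constant cocycle for an open cover. -/
structure Coc (X H J : Type*) [TopologicalSpace X] [Group H] where
  U : J → Set X
  op : ∀ i, IsOpen (U i)
  cov : ∀ x, ∃ i, x ∈ U i
  c : J → J → X → H
  lc : ∀ i j x, x ∈ U i → x ∈ U j → ∀ᶠ y in 𝓝 x, c i j y = c i j x
  co : ∀ i j k x, x ∈ U i → x ∈ U j → x ∈ U k → c i j x * c j k x = c i k x

/-- The covering glued along a cocycle, with its fibre coordinates. -/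
structure Coc.Cov {X H J T : Type*} [TopologicalSpace X] [Group H] [TopologicalSpace T]
    (K : Coc X H J) (p : T → X) (κ : J → T → H) : Prop where
  cov : IsCoveringMap p
  lc : ∀ i y, p y ∈ K.U i → ∀ᶠ y' in 𝓝 y, κ i y' = κ i y
  tr : ∀ i j y, p y ∈ K.U i → p y ∈ K.U j → κ j y = κ i y * K.c i j (p y)
  ex : ∀ i x h, x ∈ K.U i → ∃ y, p y = x ∧ κ i y = h
  uniq : ∀ i y y', p y ∈ K.U i → p y = p y' → κ i y = κ i y' → y = y'

/-- The cocycle multiplies by the labels along the edges. -/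
structure Coc.Lab {Z X C H J : Type*} [TopologicalSpace Z] [TopologicalSpace X] [Group H]
    (K : Coc X H J) (ι : Z → X) (Φ : C → C(Bl 1, Z)) (lab : C → H) (i j : J) : Prop where
  left : ∀ e (t : I), (t : ℝ) ≠ 1 / 2 → ι (Φ e (seg t)) ∈ K.U i
  mid : ∀ e (t : I), 0 < (t : ℝ) → (t : ℝ) < 1 → ι (Φ e (seg t)) ∈ K.U j
  lo : ∀ e (t : I), 0 < (t : ℝ) → (t : ℝ) < 1 / 2 → K.c i j (ι (Φ e (seg t))) = 1
  hi : ∀ e (t : I), 1 / 2 < (t : ℝ) → (t : ℝ) < 1 → K.c j i (ι (Φ e (seg t))) = lab e

universe u v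

/-- A two-dimensional complex with a contractible covering, coordinates on the covering, base
paths and relators. -/
structure Setup (X : Type u) (Y : Type v) (Γ : Type) [TopologicalSpace X] [TopologicalSpace Y]
    [Group Γ] where
  A : Set X
  C₂ : Type u
  Φ₂ : C₂ → C(Bl 2, X)
  att₂ : Att 2 A Φ₂
  B : Set A
  C₁ : Type u
  Φ₁ : C₁ → C(Bl 1, A)
  att₁ : Att 1 B Φ₁
  disc : IsDiscrete B
  p : Y → X
  cov : IsCoveringMap p
  κ : Y → Γ
  bij : Function.Bijective fun y => (p y, κ y)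
  a : C₁ → Γ
  rule : ∀ e, Rule p Subtype.val κ (edge Φ₁ e) (a e)
  x₀ : B
  pv : ∀ v : B, Path x₀.1 v.1
  q : B → FreeGroup C₁
  epq : ∀ v, EP Φ₁ (pv v) (q v)
  q₀ : q x₀ = 1
  aq : ∀ v, FreeGroup.lift a (q v) = 1
  pc : ∀ c, Path x₀.1 ⟨Φ₂ c (circF 0), (att₂.mem _ _).2 (norm_circF 0)⟩
  w : C₂ → FreeGroup C₁
  epw : ∀ c, EP Φ₁ (((pc c).trans (att₂.loop c)).trans (pc c).symm) (w c)

/-- The relators. -/
def Setup.r {X : Type u} {Y : Type v} {Γ : Type} [TopologicalSpace X] [TopologicalSpace Y]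
    [Group Γ] (S : Setup X Y Γ) : S.C₂ ⊕ {v : S.B // v ≠ S.x₀} → FreeGroup S.C₁ :=
  Sum.elim S.w fun v => S.q v.1

end Vale.Agent.P173
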